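import Vale.Agent.P061.Defs

/-! Effective resistances. -/

namespace Vale.Agent.P061

open Finset Matrix

section General

variable {ι : Type} [Fintype ι] [DecidableEq ι] {M : Matrix ι ι ℝ}

omit [DecidableEq ι] in
theorem res_symm (hM : M.PosDef) (x y : ι → ℝ) : x ⬝ᵥ M *ᵥ y = y ⬝ᵥ M *ᵥ x := by
  have h : Mᵀ = M := by simpa using hM.isHermitian.eq
  rw [dotProduct_mulVec, ← mulVec_transpose, h, dotProduct_comm]

omit [DecidableEq ι] in
theorem res_form_nonneg (hM : M.PosDef) (x : ι → ℝ) : 0 ≤ x ⬝ᵥ M *ᵥ x := by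
  simpa using hM.posSemidef.dotProduct_mulVec_nonneg x

theorem res_mul_inv (hM : M.PosDef) (b : ι → ℝ) : M *ᵥ (M⁻¹ *ᵥ b) = b := by
  rw [mulVec_mulVec, mul_nonsing_inv _ ((isUnit_iff_isUnit_det M).1 hM.isUnit), one_mulVec]

theorem res_form_inv (hM : M.PosDef) (b : ι → ℝ) :
    (M⁻¹ *ᵥ b) ⬝ᵥ M *ᵥ (M⁻¹ *ᵥ b) = Res M b := by
  rw [res_mul_inv hM, dotProduct_comm, Res]

theorem res_nonneg (hM : M.PosDef) (b : ι → ℝ) : 0 ≤ Res M b := res_form_nonneg hM.inv b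

theorem res_var (hM : M.PosDef) (b φ : ι → ℝ) :
    2 * (b ⬝ᵥ φ) - φ ⬝ᵥ M *ᵥ φ ≤ Res M b := by
  have h := res_form_nonneg hM (φ - M⁻¹ *ᵥ b)
  rw [mulVec_sub, sub_dotProduct, dotProduct_sub, dotProduct_sub, res_form_inv hM,
    res_symm hM (M⁻¹ *ᵥ b), res_mul_inv hM, dotProduct_comm φ b] at h
  linarith

theorem res_eq (hM : M.PosDef) (b : ι → ℝ) :
    Res M b = 2 * (b ⬝ᵥ M⁻¹ *ᵥ b) - (M⁻¹ *ᵥ b) ⬝ᵥ M *ᵥ (M⁻¹ *ᵥ b) := by
  rw [res_form_inv hM, Res]; ring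

theorem sq_le_res (hM : M.PosDef) (b φ : ι → ℝ) :
    (b ⬝ᵥ φ) ^ 2 ≤ Res M b * (φ ⬝ᵥ M *ᵥ φ) := by
  have h := discrim_le_zero (a := φ ⬝ᵥ M *ᵥ φ) (b := -(2 * (b ⬝ᵥ φ))) (c := Res M b) fun x => by
    have := res_var hM b (x • φ)
    simp only [mulVec_smul, dotProduct_smul, smul_dotProduct, smul_eq_mul] at this
    linarith
  rw [discrim] at h
  linarith

theorem res_le (hM : M.PosDef) (b : ι → ℝ) {c : ℝ} (hc : 0 ≤ c)
    (h : ∀ φ, (b ⬝ᵥ φ) ^ 2 ≤ c * (φ ⬝ᵥ M *ᵥ φ)) : Res M b ≤ c := by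
  have h1 := h (M⁻¹ *ᵥ b)
  rw [res_form_inv hM, ← Res] at h1
  by_contra h2
  nlinarith [not_le.1 h2]

theorem res_add3 (hM : M.PosDef) (b₁ b₂ b₃ : ι → ℝ) :
    Res M (b₁ + b₂ + b₃) ≤ 3 * (Res M b₁ + Res M b₂ + Res M b₃) := by
  have h1 := res_nonneg hM b₁
  have h2 := res_nonneg hM b₂
  have h3 := res_nonneg hM b₃
  refine res_le hM _ (by positivity) fun φ => ?_
  have a1 := sq_le_res hM b₁ φ
  have a2 := sq_le_res hM b₂ φ
  have a3 := sq_le_res hM b₃ φ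
  simp only [add_dotProduct]
  nlinarith [sq_nonneg (b₁ ⬝ᵥ φ - b₂ ⬝ᵥ φ), sq_nonneg (b₁ ⬝ᵥ φ - b₃ ⬝ᵥ φ),
    sq_nonneg (b₂ ⬝ᵥ φ - b₃ ⬝ᵥ φ)]

theorem res_foster_aux {U α κ : Type} [AddCommGroup U] [Module ℝ U] (B : U →ₗ[ℝ] U →ₗ[ℝ] ℝ)
    (hs : ∀ x y, B x y = B y x) (hp : ∀ x, x ≠ 0 → 0 < B x x) (A : Finset α) (a : α → κ → ℝ)
    {c : ℝ} (hc : 0 ≤ c) (T : Finset κ) : ∀ u : κ → U,
      (∀ ψ, ∑ e ∈ A, B (∑ i ∈ T, a e i • u i) ψ ^ 2 ≤ c * B ψ ψ) →
      ∑ e ∈ A, B (∑ i ∈ T, a e i • u i) (∑ i ∈ T, a e i • u i) ≤ c * T.card := by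
  classical
  induction T using Finset.induction_on with
  | empty => simp
  | insert j T hj ih =>
    intro u h
    by_cases hg : u j = 0
    · simp only [sum_insert hj, hg, smul_zero, zero_add, card_insert_of_notMem hj] at h ⊢
      push_cast
      linarith [ih u h]
    have hB := hp _ hg
    let p : U →ₗ[ℝ] U := LinearMap.id - (B (u j)).smulRight ((B (u j) (u j))⁻¹ • u j)
    have p1 : ∀ x y, B (p x) y = B x y - B (u j) x * B (u j) y / B (u j) (u j) := fun x y => by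
      simp [p]; ring
    have p2 : ∀ x y, B (p x) y = B x (p y) := fun x y => by
      rw [hs x, p1, p1, hs x y]; ring
    have p3 : ∀ x, B (p x) (p x) = B x x - B (u j) x ^ 2 / B (u j) (u j) := fun x => by
      rw [p1, ← p2, ← p2, p1, p1]; field_simp; ring
    have p4 : ∀ e, ∑ i ∈ T, a e i • p (u i) = p (∑ i ∈ insert j T, a e i • u i) := fun e => by
      have : p (u j) = 0 := by simp [p, smul_smul, hB.ne']
      simp only [sum_insert hj, map_add, map_smul, map_sum, this, smul_zero, zero_add]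
    have h1 := ih (fun i => p (u i)) fun ψ => by
      simp only [p4, p2]
      refine (h _).trans (mul_le_mul_of_nonneg_left ?_ hc)
      rw [p3]
      exact sub_le_self _ (by positivity)
    simp only [p4, p3, sum_sub_distrib, ← sum_div, hs (u j) (∑ i ∈ _, _)] at h1
    have h2 := (div_le_iff₀ hB).2 (h (u j))
    rw [card_insert_of_notMem hj]
    push_cast
    linarith

/-- Foster type bound: vectors supported on `S` whose form is dominated by `c M`. -/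
theorem foster (hM : M.PosDef) {α : Type} (A : Finset α) (b : α → ι → ℝ) (S : Finset ι)
    (hS : ∀ e ∈ A, ∀ v, v ∉ S → b e v = 0) {c : ℝ} (hc : 0 ≤ c)
    (h : ∀ φ, ∑ e ∈ A, (b e ⬝ᵥ φ) ^ 2 ≤ c * (φ ⬝ᵥ M *ᵥ φ)) :
    ∑ e ∈ A, Res M (b e) ≤ c * S.card := by
  have e1 : ∀ e ∈ A, ∑ i ∈ S, b e i • (Pi.single i 1 : ι → ℝ) = b e := fun e he => by
    funext v
    by_cases hv : v ∈ S <;> simp [Finset.sum_apply, Pi.single_apply, hv, hS e he v]
  have := res_foster_aux (toLinearMap₂' ℝ M⁻¹)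
    (fun x y => by simpa only [toLinearMap₂'_apply'] using res_symm hM.inv x y)
    (fun x hx => by simpa [toLinearMap₂'_apply'] using hM.inv.dotProduct_mulVec_pos hx)
    A b hc S (fun i => Pi.single i 1) fun ψ => by
      have := h (M⁻¹ *ᵥ ψ)
      rw [res_form_inv hM] at this
      rw [sum_congr rfl fun e he => by rw [e1 e he, toLinearMap₂'_apply'], toLinearMap₂'_apply']
      exact this
  rwa [sum_congr rfl fun e he => by rw [e1 e he, toLinearMap₂'_apply']] at this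

end General

variable {V E : Type} [Fintype V] [DecidableEq V] [Fintype E]

theorem res_Mx_convex (s t : E → V) {x y : V × V → ℝ} (hx : ∀ p, 0 ≤ x p) (hy : ∀ p, 0 ≤ y p)
    {l : ℝ} (hl : 0 < l) {a a' : ℝ} (ha : 0 ≤ a) (ha' : 0 ≤ a') (haa : a + a' = 1) (b : V → ℝ) :
    Res (Mx s t (a • x + a' • y) l) b ≤ a * Res (Mx s t x l) b + a' * Res (Mx s t y l) b := by
  have hz : ∀ p, 0 ≤ (a • x + a' • y) p := fun p =>
    add_nonneg (mul_nonneg ha (hx p)) (mul_nonneg ha' (hy p))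
  rw [res_eq (Mx_posDef s t hz hl)]
  generalize (Mx s t (a • x + a' • y) l)⁻¹ *ᵥ b = φ
  have h1 := mul_le_mul_of_nonneg_left (res_var (Mx_posDef s t hx hl) b φ) ha
  have h2 := mul_le_mul_of_nonneg_left (res_var (Mx_posDef s t hy hl) b φ) ha'
  simp only [Mx_form, Pi.add_apply, Pi.smul_apply, smul_eq_mul, add_mul, mul_assoc,
    sum_add_distrib, ← mul_sum] at h1 h2 ⊢
  obtain rfl : a' = 1 - a := by linarith
  linarith

theorem res_edge_le_one (s t : E → V) {x : V × V → ℝ} (hx : ∀ p, 0 ≤ x p) {l : ℝ} (hl : 0 < l)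
    (e : E) : Res (Mx s t x l) (bv (s e) (t e)) ≤ 1 := by
  refine res_le (Mx_posDef s t hx hl) _ zero_le_one fun φ => ?_
  rw [Mx_form, bv_dot, one_mul]
  have h1 := single_le_sum (f := fun e => (φ (s e) - φ (t e)) ^ 2) (fun _ _ => sq_nonneg _)
    (mem_univ e)
  have h2 : 0 ≤ ∑ p, x p * (φ p.1 - φ p.2) ^ 2 :=
    sum_nonneg fun p _ => mul_nonneg (hx p) (sq_nonneg _)
  have h3 : 0 ≤ l * ∑ v, φ v ^ 2 := by positivity
  linarith

theorem continuousOn_inv_mulVec (s t : E → V) {l : ℝ} (hl : 0 < l) (b : V → ℝ) :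
    ContinuousOn (fun x : V × V → ℝ => (Mx s t x l)⁻¹ *ᵥ b) {x | ∀ p, 0 ≤ x p} := by
  have h : Continuous fun x : V × V → ℝ => Mx s t x l := by unfold Mx; fun_prop
  simp only [Matrix.inv_def, Ring.inverse_eq_inv', smul_mulVec]
  exact (h.matrix_det.continuousOn.inv₀ fun x hx => (Mx_posDef s t hx hl).det_pos.ne').smul
    (h.matrix_adjugate.matrix_mulVec continuous_const).continuousOn

end Vale.Agent.P061
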