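import Vale.Agent.P061.Save
import Vale.Agent.P061.Res

/-! The chain lemma: small average resistance on the cross sets of a chain of partitions. -/

namespace Vale.Agent.P061

open Finset Matrix

variable {V E : Type} [Fintype V] [DecidableEq V] [Fintype E] [DecidableEq E]

/-- The network with unit weight on the pairs `(a e, b e)`. -/
def chNet (A : Finset E) (a b : E → V) : V × V → ℝ :=
  fun p => ∑ e ∈ A, if p = (a e, b e) then 1 else 0

omit [Fintype V] [Fintype E] [DecidableEq E] in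
theorem chNet_nonneg (A : Finset E) (a b : E → V) (p : V × V) : 0 ≤ chNet A a b p :=
  sum_nonneg fun _ _ => by split_ifs <;> norm_num

omit [Fintype E] [DecidableEq E] in
theorem chNet_sum (A : Finset E) (a b : E → V) (F : V × V → ℝ) :
    ∑ p, chNet A a b p * F p = ∑ e ∈ A, F (a e, b e) := by
  simp only [chNet, sum_mul]
  rw [sum_comm]
  simp

omit [DecidableEq E] in
theorem ch_form_ge (s t : E → V) {x y : V × V → ℝ} (hxy : ∀ p, x p ≤ y p) {l : ℝ} (hl : 0 < l)
    (φ : V → ℝ) : ∑ e, (φ (s e) - φ (t e)) ^ 2 + ∑ p, x p * (φ p.1 - φ p.2) ^ 2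
      ≤ φ ⬝ᵥ Mx s t y l *ᵥ φ := by
  rw [Mx_form]
  have h1 : ∑ p, x p * (φ p.1 - φ p.2) ^ 2 ≤ ∑ p, y p * (φ p.1 - φ p.2) ^ 2 :=
    sum_le_sum fun p _ => mul_le_mul_of_nonneg_right (hxy p) (sq_nonneg _)
  have h2 : 0 ≤ l * ∑ v, φ v ^ 2 := by positivity
  linarith

omit [Fintype V] [DecidableEq V] [Fintype E] [DecidableEq E] in
theorem ch_exists_L (A : Finset E) (w : E → ℝ) {c : ℝ} (hc : 0 < c) (hA : c ≤ A.card) :
    ∃ e₀ ∈ A, c ≤ (A.filter fun e => w e₀ ≤ w e).card ∧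
      ((A.filter fun e => ¬ w e ≤ w e₀).card : ℝ) < c := by
  classical
  have key : ∀ B ⊆ A, c ≤ B.card → (∀ e ∈ B, ∀ e' ∈ A, w e ≤ w e' → e' ∈ B) →
      ∃ e ∈ B, c ≤ (A.filter fun e' => w e ≤ w e').card := by
    intro B hB hcB _
    have hne : B.Nonempty := card_pos.1 (by exact_mod_cast hc.trans_le hcB)
    obtain ⟨e, he, hmin⟩ := exists_min_image B w hne
    refine ⟨e, he, hcB.trans ?_⟩
    exact_mod_cast card_le_card fun e' he' => mem_filter.2 ⟨hB he', hmin e' he'⟩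
  obtain ⟨e1, he1, h1⟩ := key A Subset.rfl hA fun _ _ _ h _ => h
  obtain ⟨e₀, he₀, hmax⟩ := exists_max_image
    (A.filter fun e => c ≤ (A.filter fun e' => w e ≤ w e').card) w ⟨e1, mem_filter.2 ⟨he1, h1⟩⟩
  refine ⟨e₀, (mem_filter.1 he₀).1, (mem_filter.1 he₀).2, ?_⟩
  by_contra hcon
  obtain ⟨e, he, h2⟩ := key _ (filter_subset _ _) (not_lt.1 hcon) fun e he e' he' h =>
    mem_filter.2 ⟨he', fun h' => (mem_filter.1 he).2 (h.trans h')⟩
  exact (mem_filter.1 he).2 (hmax e (mem_filter.2 ⟨(mem_filter.1 he).1, h2⟩))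

omit [Fintype V] [Fintype E] [DecidableEq E] in
theorem ch_exists_net {d : V → V → ℝ} (hd : IsPM d) (T : Finset V) {r : ℝ} (hr : 0 < r) :
    ∃ S ⊆ T, (∀ u ∈ S, ∀ u' ∈ S, u ≠ u' → r ≤ d u u') ∧ ∀ v ∈ T, ∃ u ∈ S, d v u < r := by
  obtain ⟨S, ⟨h1, h2⟩, hmax⟩ := Set.exists_max_image
    {S : Finset V | S ⊆ T ∧ ∀ u ∈ S, ∀ u' ∈ S, u ≠ u' → r ≤ d u u'} card
    (T.powerset.finite_toSet.subset fun S hS => mem_coe.2 (mem_powerset.2 hS.1)) ⟨∅, by simp⟩
  refine ⟨S, h1, h2, fun v hv => ?_⟩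
  by_contra hcon
  push Not at hcon
  have hvS : v ∉ S := fun h => by
    have := hcon v h
    rw [hd.self] at this
    linarith
  have := hmax (insert v S) ⟨insert_subset hv h1, fun u hu u' hu' hne => by
    rcases mem_insert.1 hu with a | a <;> rcases mem_insert.1 hu' with b | b
    · exact absurd (a.trans b.symm) hne
    · rw [a]
      exact hcon _ b
    · rw [hd.symm, b]
      exact hcon _ a
    · exact h2 _ a _ b hne⟩
  rw [card_insert_of_notMem hvS] at this
  omega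

omit [DecidableEq E] in
theorem ch_res_pair (s t : E → V) {x y : V × V → ℝ} (hx : ∀ p, 0 ≤ x p) (hxy : ∀ p, x p ≤ y p)
    {l τ : ℝ} (hl : 0 < l) (hτ : 1 ≤ τ) {a b : V}
    (h : ∀ φ : V → ℝ, τ * (φ a - φ b) ^ 2 ≤ ∑ p, x p * (φ p.1 - φ p.2) ^ 2) :
    Res (Mx s t y l) (bv a b) ≤ 1 / τ := by
  refine res_le (Mx_posDef s t (fun p => (hx p).trans (hxy p)) hl) _ (by positivity) fun φ => ?_
  have h1 := ch_form_ge s t hxy hl φ
  have h2 : 0 ≤ ∑ e, (φ (s e) - φ (t e)) ^ 2 := by positivity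
  rw [bv_dot, one_div, ← div_eq_inv_mul, le_div_iff₀ (by linarith)]
  linarith [h φ]

omit [DecidableEq E] in
theorem ch_level (s t : E → V) {d : V → V → ℝ} (hd : IsPM d) (A : Finset E) {m τ l : ℝ}
    (hτ : 1 ≤ τ) (hl : 0 < l) (hm : 0 < m) (hA : (A.card : ℝ) ≤ m) :
    ∃ x : V × V → ℝ, (∀ p, 0 ≤ x p) ∧
      (∀ y : V × V → ℝ, (∀ p, x p ≤ y p) →
        ∑ e ∈ A, Res (Mx s t y l) (bv (s e) (t e)) ≤ 16 * m / τ) ∧
      (∑ p, x p * d p.1 p.2 ≤ 2 / τ * ∑ e ∈ A, d (s e) (t e) ∨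
        ∃ (L : ℝ) (S : Finset V), 0 < L ∧ m / τ ≤ S.card ∧
          (∀ u ∈ S, ∀ u' ∈ S, u ≠ u' → L / τ ^ 3 ≤ d u u') ∧
          (∀ u ∈ S, ∃ e ∈ A, (s e = u ∨ t e = u) ∧ d (s e) (t e) ≤ L) ∧
          ∑ p, x p * d p.1 p.2 ≤ τ * m * L) := by
  have hτ0 : 0 < τ := by linarith
  have hZ : 0 ≤ ∑ e ∈ A, d (s e) (t e) := sum_nonneg fun _ _ => hd.nonneg _ _
  have hmτ : 0 < m / τ := by positivity
  have htriv : ∀ (B : Finset E) (y : V × V → ℝ), (∀ p, 0 ≤ y p) →
      ∑ e ∈ B, Res (Mx s t y l) (bv (s e) (t e)) ≤ B.card := fun B y hy => by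
    simpa using sum_le_card_nsmul B _ 1 fun e _ => res_edge_le_one s t hy hl e
  rcases le_total (A.card : ℝ) (m / τ) with hsm | hbig
  · refine ⟨0, fun _ => le_rfl, fun y hy => (htriv A y hy).trans (hsm.trans ?_), Or.inl ?_⟩
    · rw [mul_div_assoc]
      linarith
    · simp only [Pi.zero_apply, zero_mul, sum_const_zero]
      positivity
  obtain ⟨e₀, he₀, h1, h2⟩ := ch_exists_L A (fun e => d (s e) (t e)) hmτ hbig
  set L := d (s e₀) (t e₀) with hL
  have hL0 : 0 ≤ L := hd.nonneg _ _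
  set B := A.filter fun e => d (s e) (t e) ≤ L with hB
  have hBm : (B.card : ℝ) ≤ m := le_trans (by exact_mod_cast card_filter_le _ _) hA
  have hsplit : ∀ y : V × V → ℝ, (∀ p, 0 ≤ y p) → ∑ e ∈ A, Res (Mx s t y l) (bv (s e) (t e))
      ≤ ∑ e ∈ B, Res (Mx s t y l) (bv (s e) (t e)) + m / τ := fun y hy => by
    rw [← sum_filter_add_sum_filter_not A fun e => d (s e) (t e) ≤ L]
    exact add_le_add le_rfl ((htriv _ y hy).trans h2.le)
  have hdir : ∃ x : V × V → ℝ, (∀ p, 0 ≤ x p) ∧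
      (∀ y : V × V → ℝ, (∀ p, x p ≤ y p) →
        ∑ e ∈ A, Res (Mx s t y l) (bv (s e) (t e)) ≤ 16 * m / τ) ∧
      ∑ p, x p * d p.1 p.2 ≤ τ * m * L := by
    have hx : ∀ p, 0 ≤ τ * chNet B s t p := fun p => mul_nonneg hτ0.le (chNet_nonneg _ _ _ _)
    refine ⟨fun p => τ * chNet B s t p, hx, fun y hy => ?_, ?_⟩
    · refine (hsplit y fun p => (hx p).trans (hy p)).trans ?_
      have h3 := sum_le_card_nsmul B _ (1 / τ) fun e he =>
        ch_res_pair s t hx hy hl hτ (a := s e) (b := t e) fun φ => by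
          simp only [mul_assoc]
          rw [← mul_sum, chNet_sum]
          exact mul_le_mul_of_nonneg_left (single_le_sum
            (f := fun e => (φ (s e) - φ (t e)) ^ 2) (fun _ _ => sq_nonneg _) he) hτ0.le
      rw [nsmul_eq_mul, mul_one_div] at h3
      have h4 : (B.card : ℝ) / τ ≤ m / τ := by gcongr
      rw [mul_div_assoc]
      linarith
    · simp only [mul_assoc]
      rw [← mul_sum, chNet_sum]
      refine mul_le_mul_of_nonneg_left ?_ hτ0.le
      have h3 := sum_le_card_nsmul B (fun e => d (s e) (t e)) L fun e he => (mem_filter.1 he).2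
      rw [nsmul_eq_mul] at h3
      exact h3.trans (mul_le_mul_of_nonneg_right hBm hL0)
  rcases hL0.eq_or_lt with hL1 | hL1
  · obtain ⟨x, a1, a2, a3⟩ := hdir
    refine ⟨x, a1, a2, Or.inl (a3.trans ?_)⟩
    rw [← hL1, mul_zero]
    positivity
  obtain ⟨S, hST, hsep, hnet⟩ := ch_exists_net hd (ends s t B) (r := L / τ ^ 3) (by positivity)
  rcases le_total (m / τ) S.card with hS | hS
  · obtain ⟨x, a1, a2, a3⟩ := hdir
    refine ⟨x, a1, a2, Or.inr ⟨L, S, hL1, hS, hsep, fun u hu => ?_, a3⟩⟩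
    rcases mem_union.1 (hST hu) with h | h <;> obtain ⟨e, he, rfl⟩ := mem_image.1 h
    · exact ⟨e, (mem_filter.1 he).1, Or.inl rfl, (mem_filter.1 he).2⟩
    · exact ⟨e, (mem_filter.1 he).1, Or.inr rfl, (mem_filter.1 he).2⟩
  choose! π hπS hπd using hnet
  have hs : ∀ e ∈ B, s e ∈ ends s t B := fun e he => mem_union_left _ (mem_image_of_mem _ he)
  have ht : ∀ e ∈ B, t e ∈ ends s t B := fun e he => mem_union_right _ (mem_image_of_mem _ he)
  set x : V × V → ℝ := fun p => τ * (chNet B s (fun e => π (s e)) p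
    + chNet B t (fun e => π (t e)) p) with hxdef
  have hx : ∀ p, 0 ≤ x p := fun p =>
    mul_nonneg hτ0.le (add_nonneg (chNet_nonneg _ _ _ _) (chNet_nonneg _ _ _ _))
  have hxs : ∀ F : V × V → ℝ, ∑ p, x p * F p
      = τ * ∑ e ∈ B, (F (s e, π (s e)) + F (t e, π (t e))) := fun F => by
    simp only [hxdef, mul_assoc, add_mul]
    rw [← mul_sum, sum_add_distrib, chNet_sum, chNet_sum, sum_add_distrib]
  refine ⟨x, hx, fun y hy => ?_, Or.inl ?_⟩
  · have hy0 : ∀ p, 0 ≤ y p := fun p => (hx p).trans (hy p)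
    have hM := Mx_posDef s t hy0 hl
    refine (hsplit y hy0).trans ?_
    have h3 : ∀ e ∈ B, Res (Mx s t y l) (bv (s e) (t e))
        ≤ 6 / τ + 3 * Res (Mx s t y l) (bv (π (s e)) (π (t e))) := by
      intro e he
      have e1 : bv (s e) (t e)
          = bv (s e) (π (s e)) + bv (π (s e)) (π (t e)) + bv (π (t e)) (t e) := by
        simp only [bv]
        abel
      have hone : ∀ φ : V → ℝ, (φ (s e) - φ (π (s e))) ^ 2 + (φ (t e) - φ (π (t e))) ^ 2
          ≤ ∑ e ∈ B, ((φ (s e) - φ (π (s e))) ^ 2 + (φ (t e) - φ (π (t e))) ^ 2) := fun φ =>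
        single_le_sum (f := fun e => (φ (s e) - φ (π (s e))) ^ 2 + (φ (t e) - φ (π (t e))) ^ 2)
          (fun _ _ => by positivity) he
      have a1 := ch_res_pair s t hx hy hl hτ (a := s e) (b := π (s e)) fun φ => by
        rw [hxs]
        exact mul_le_mul_of_nonneg_left ((le_add_of_nonneg_right (sq_nonneg _)).trans (hone φ))
          hτ0.le
      have a2 := ch_res_pair s t hx hy hl hτ (a := π (t e)) (b := t e) fun φ => by
        rw [hxs, ← neg_sub, neg_sq]
        exact mul_le_mul_of_nonneg_left ((le_add_of_nonneg_left (sq_nonneg _)).trans (hone φ))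
          hτ0.le
      have a3 := res_add3 hM (bv (s e) (π (s e))) (bv (π (s e)) (π (t e))) (bv (π (t e)) (t e))
      rw [← e1] at a3
      have : 6 / τ = 6 * (1 / τ) := by ring
      linarith
    have h4 := foster hM B (fun e => bv (π (s e)) (π (t e))) S (fun e he v hv => by
      have a1 : v ≠ π (s e) := fun h => hv (h ▸ hπS _ (hs e he))
      have a2 : v ≠ π (t e) := fun h => hv (h ▸ hπS _ (ht e he))
      simp [bv, a1, a2]) (c := 3) (by norm_num) fun φ => by
      refine le_trans ?_ (mul_le_mul_of_nonneg_left (ch_form_ge s t hy hl φ) (by norm_num))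
      rw [hxs]
      have a1 : ∑ e ∈ B, (φ (s e) - φ (t e)) ^ 2 ≤ ∑ e, (φ (s e) - φ (t e)) ^ 2 :=
        sum_le_sum_of_subset_of_nonneg (subset_univ _) fun _ _ _ => sq_nonneg _
      have a2 : 0 ≤ ∑ e ∈ B, ((φ (s e) - φ (π (s e))) ^ 2 + (φ (t e) - φ (π (t e))) ^ 2) :=
        sum_nonneg fun _ _ => by positivity
      have a3 : ∑ e ∈ B, (bv (π (s e)) (π (t e)) ⬝ᵥ φ) ^ 2 ≤ ∑ e ∈ B, 3 * ((φ (s e) - φ (t e)) ^ 2
          + ((φ (s e) - φ (π (s e))) ^ 2 + (φ (t e) - φ (π (t e))) ^ 2)) :=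
        sum_le_sum fun e _ => by
          rw [bv_dot]
          nlinarith [sq_nonneg (φ (s e) - φ (t e) + (φ (s e) - φ (π (s e)))),
            sq_nonneg (φ (s e) - φ (t e) - (φ (t e) - φ (π (t e)))),
            sq_nonneg (φ (s e) - φ (π (s e)) + (φ (t e) - φ (π (t e))))]
      rw [← mul_sum, sum_add_distrib] at a3
      simp only at a2 ⊢
      nlinarith
    have h5 := sum_le_sum h3
    rw [sum_add_distrib, ← mul_sum, sum_const, nsmul_eq_mul] at h5
    have h6 : (B.card : ℝ) * (6 / τ) ≤ m * (6 / τ) := by gcongr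
    have h7 : m * (6 / τ) = 6 * (m / τ) := by ring
    rw [mul_div_assoc]
    linarith
  · rw [hxs]
    have h3 := sum_le_card_nsmul B (fun e => d (s e) (π (s e)) + d (t e) (π (t e)))
      (2 * (L / τ ^ 3)) fun e he => by linarith [hπd _ (hs e he), hπd _ (ht e he)]
    rw [nsmul_eq_mul] at h3
    have h4 : m / τ * L ≤ ∑ e ∈ A, d (s e) (t e) := by
      refine le_trans (mul_le_mul_of_nonneg_right h1 hL0) (le_trans ?_
        (sum_le_sum_of_subset_of_nonneg (filter_subset (fun e => L ≤ d (s e) (t e)) A)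
          fun _ _ _ => hd.nonneg _ _))
      simpa using card_nsmul_le_sum _ (fun e => d (s e) (t e)) L fun e he => (mem_filter.1 he).2
    calc τ * ∑ e ∈ B, (d (s e) (π (s e)) + d (t e) (π (t e)))
        ≤ τ * (m * (2 * (L / τ ^ 3))) :=
          mul_le_mul_of_nonneg_left (h3.trans (by gcongr)) hτ0.le
      _ = 2 / τ * (m / τ * L) := by field_simp
      _ ≤ _ := by gcongr

/-- The partition `n` steps earlier in the chain. -/
def chBack (P : ℕ → Setoid V) (n j : ℕ) : Setoid V := if j < n then ⊤ else P (j - n)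

omit [Fintype V] [DecidableEq V] in
theorem ch_sum_cross (s t : E → V) {P : ℕ → Setoid V} (hP : Antitone P) (f : E → ℝ) (j : ℕ) :
    ∑ e ∈ cross s t (P j), f e
      = ∑ i ∈ range (j + 1), ∑ e ∈ cross s t (P i) \ cross s t (chBack P 1 i), f e := by
  induction j with
  | zero => simp [chBack, cross_top]
  | succ j ih =>
    have e : chBack P 1 (j + 1) = P j := by simp [chBack]
    rw [sum_range_succ, ← ih, e, ← sum_sdiff (cross_anti s t (hP (Nat.le_succ j))), add_comm]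

theorem ch_level2 (s t : E → V) (P : ℕ → Setoid V) (hP : Antitone P)
    (hc : ∀ j, (cross s t (P j)).card ≤ 2 ^ j) {K τ l : ℝ} (hτ : 1 ≤ τ)
    (hK : 10 ^ 7 * τ ^ 10 ≤ K) (hl : 0 < l) (htop : StrongAt s t K ⊤)
    (hst : ∀ j, StrongAt s t K (P j)) {d : V → V → ℝ} (hd : IsPM d) {n : ℕ}
    (hn : 20736 * τ ^ 4 ≤ n) (j : ℕ) :
    ∃ (x : V × V → ℝ) (c : ℝ), (∀ p, 0 ≤ x p) ∧ 0 ≤ c ∧
      (∀ y : V × V → ℝ, (∀ p, x p ≤ y p) → ∑ e ∈ cross s t (P j) \ cross s t (chBack P 1 j),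
        Res (Mx s t y l) (bv (s e) (t e)) ≤ 16 * 2 ^ j / τ) ∧
      ∑ p, x p * d p.1 p.2 ≤ 2 / τ * ∑ e ∈ cross s t (P j) \ cross s t (chBack P 1 j),
        d (s e) (t e) + 288 * τ ^ 5 * c ∧
      ∀ Γ, Valid (P j) (ends s t (cross s t (P j))) Γ →
        ∃ Γ', Valid (chBack P n j) (ends s t (cross s t (chBack P n j))) Γ' ∧
          len d Γ' ≤ len d Γ + (∑ e ∈ cross s t (P j) \ cross s t (chBack P n j),
            d (s e) (t e)) / K - c := by
  have hτ0 : 0 < τ := by linarith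
  have hτ4 : 1 ≤ τ ^ 4 := one_le_pow₀ hτ
  have hK0 : 0 < K := lt_of_lt_of_le (by positivity) hK
  have hn1 : 1 ≤ n := by
    have : (1 : ℝ) ≤ n := by linarith
    exact_mod_cast this
  have hle : P j ≤ chBack P n j := by
    unfold chBack
    split_ifs
    · exact le_top
    · exact hP (Nat.sub_le _ _)
  have hst' : StrongAt s t K (chBack P n j) := by
    unfold chBack
    split_ifs
    · exact htop
    · exact hst _
  have hcj : ((cross s t (P j)).card : ℝ) ≤ 2 ^ j := by exact_mod_cast hc j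
  obtain ⟨x, h1, h2, h3⟩ := ch_level s t hd (cross s t (P j) \ cross s t (chBack P 1 j))
    (m := 2 ^ j) hτ hl (by positivity) (le_trans (by exact_mod_cast card_le_card sdiff_subset) hcj)
  rcases h3 with h3 | ⟨L, S, hL, hS, hsep, hSe, hcost⟩
  · refine ⟨x, 0, h1, le_rfl, h2, by simpa using h3, fun Γ hΓ => ?_⟩
    simpa using plain_step s t hd hK0 hle hst' hΓ
  refine ⟨x, 2 ^ j * L / (288 * τ ^ 4), h1, by positivity, h2, hcost.trans ?_, fun Γ hΓ => ?_⟩
  · have : 0 ≤ ∑ e ∈ cross s t (P j) \ cross s t (chBack P 1 j), d (s e) (t e) :=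
      sum_nonneg fun _ _ => hd.nonneg _ _
    refine le_add_of_nonneg_of_le (by positivity) (le_of_eq ?_)
    field_simp
  have hb : chBack P 1 j ≤ chBack P n j := by
    unfold chBack
    split_ifs with a1 a2
    · exact le_top
    · omega
    · exact le_top
    · exact hP (by omega)
  obtain ⟨Γ', g1, g2⟩ := save_step s t hd hK0 hle hst' hΓ (L := L) (r := L / τ ^ 3)
    (by positivity) (div_le_self hL.le (one_le_pow₀ hτ)) S hsep fun u hu => by
      obtain ⟨e, he, a⟩ := hSe u hu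
      exact ⟨e, sdiff_subset_sdiff Subset.rfl (cross_anti s t hb) he, a⟩
  refine ⟨Γ', g1, g2.trans (sub_le_sub_left ?_ _)⟩
  have hS0 : S.Nonempty := card_pos.1 (by
    have : (0 : ℝ) < S.card := lt_of_lt_of_le (by positivity) hS
    exact_mod_cast this)
  obtain ⟨e, he, -⟩ := hSe _ hS0.choose_spec
  have : Nonempty V := ⟨s e⟩
  have hq2 : (2 : ℝ) ≤ q (P j) := by
    have a1 := q_sup_link (mem_cross.1 (mem_sdiff.1 he).1)
    have a2 := q_pos (P j ⊔ link (s e) (t e))
    exact_mod_cast (by omega : 2 ≤ q (P j))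
  have hq : K * q (P j) ≤ 2 * 2 ^ j := by
    have a1 := htop (P j) le_top
    rw [cross_top, sdiff_empty, q_top] at a1
    push_cast at a1
    nlinarith
  have hcr : (n : ℝ) * (cross s t (chBack P n j)).card ≤ 2 ^ j := by
    unfold chBack
    split_ifs with a1
    · simp [cross_top]
    · have a2 : n * (cross s t (P (j - n))).card ≤ 2 ^ n * 2 ^ (j - n) :=
        Nat.mul_le_mul Nat.lt_two_pow_self.le (hc _)
      rw [← pow_add, Nat.add_sub_cancel' (not_lt.1 a1)] at a2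
      exact_mod_cast a2
  set u := 2 ^ j * L / τ ^ 4 with hu
  have b1 : u ≤ S.card * (L / τ ^ 3) := by
    refine le_trans (le_of_eq ?_) (mul_le_mul_of_nonneg_right hS (by positivity))
    rw [hu]
    field_simp
  have b2 : 20736 * (L * (cross s t (chBack P n j)).card) ≤ u := by
    rw [hu, le_div_iff₀ (by positivity)]
    have a1 := mul_le_mul_of_nonneg_right hn
      (Nat.cast_nonneg (α := ℝ) (cross s t (chBack P n j)).card)
    nlinarith
  have b3 : 10 ^ 7 * (L * q (P j)) ≤ 2 * u := by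
    rw [hu, ← mul_div_assoc, le_div_iff₀ (by positivity)]
    have a1 : τ ^ 4 ≤ τ ^ 10 := pow_le_pow_right₀ hτ (by norm_num)
    have a2 : 10 ^ 7 * τ ^ 4 * q (P j) ≤ K * q (P j) :=
      mul_le_mul_of_nonneg_right (by linarith) (by positivity)
    nlinarith
  have b4 : 2 ^ j * L / (288 * τ ^ 4) = u / 288 := by
    rw [hu]
    field_simp
  have b5 : 0 ≤ u := by positivity
  rw [b4]
  linarith

theorem chain_metric (s t : E → V) (P : ℕ → Setoid V) (hP : Antitone P)
    (hc : ∀ j, (cross s t (P j)).card ≤ 2 ^ j) {K τ l : ℝ} (hτ : 1 ≤ τ)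
    (hK : 10 ^ 7 * τ ^ 10 ≤ K) (hl : 0 < l) (htop : StrongAt s t K ⊤)
    (hst : ∀ j, StrongAt s t K (P j)) {d : V → V → ℝ} (hd : IsPM d) :
    ∃ x : V × V → ℝ, (∀ p, 0 ≤ x p) ∧
      ∑ p, x p * d p.1 p.2 ≤ 3 / τ * ∑ e, d (s e) (t e) ∧
      ∀ j, ∑ e ∈ cross s t (P j), Res (Mx s t x l) (bv (s e) (t e)) ≤ 32 / τ * 2 ^ j := by
  have hτ0 : 0 < τ := by linarith
  have hτ4 : 1 ≤ τ ^ 4 := one_le_pow₀ hτ
  have hK0 : 0 < K := lt_of_lt_of_le (by positivity) hK
  set n := ⌈20736 * τ ^ 4⌉₊ with hn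
  have hn1 : 20736 * τ ^ 4 ≤ n := Nat.le_ceil _
  have hn2 : (n : ℝ) ≤ 20737 * τ ^ 4 := by
    have := Nat.ceil_lt_add_one (show 0 ≤ 20736 * τ ^ 4 by positivity)
    linarith
  have hn3 : 1 ≤ n := by
    have : (1 : ℝ) ≤ n := by linarith
    exact_mod_cast this
  choose x c hx hc0 hres hcost hstep using ch_level2 s t P hP hc hτ hK hl htop hst hd hn1
  obtain ⟨J, hJ⟩ := pow_unbounded_of_one_lt (τ * Fintype.card E) (one_lt_two (α := ℝ))
  set Z := ∑ e, d (s e) (t e) with hZ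
  have hZle : ∀ A : Finset E, ∑ e ∈ A, d (s e) (t e) ≤ Z := fun A =>
    sum_le_sum_of_subset_of_nonneg (subset_univ _) fun _ _ _ => hd.nonneg _ _
  have hZ0 : 0 ≤ Z := by simpa using hZle ∅
  have hlen : ∀ Γ, 0 ≤ len d Γ := fun Γ => sum_nonneg fun _ _ => hd.nonneg _ _
  have htel : ∀ ρ < n, ∀ k, ∀ Γ, Valid (P (n * k + ρ)) (ends s t (cross s t (P (n * k + ρ)))) Γ →
      ∑ i ∈ range (k + 1), c (n * i + ρ)
        ≤ len d Γ + (∑ e ∈ cross s t (P (n * k + ρ)), d (s e) (t e)) / K := by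
    intro ρ hρ k
    induction k with
    | zero =>
      intro Γ hΓ
      obtain ⟨Γ', -, h⟩ := hstep _ Γ hΓ
      have e : chBack P n (n * 0 + ρ) = ⊤ := if_pos (by omega)
      rw [e, cross_top, sdiff_empty] at h
      rw [sum_range_one]
      linarith [hlen Γ']
    | succ k ih =>
      intro Γ hΓ
      obtain ⟨Γ', h1, h⟩ := hstep _ Γ hΓ
      have e : chBack P n (n * (k + 1) + ρ) = P (n * k + ρ) := by
        rw [chBack, if_neg (by nlinarith [Nat.zero_le (n * k)])]
        congr 1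
        rw [mul_add]
        omega
      rw [e] at h1 h
      have h2 := ih Γ' h1
      rw [sum_range_succ, ← sum_sdiff (cross_anti s t (hP (show n * k + ρ ≤ n * (k + 1) + ρ by
        nlinarith))), add_div]
      linarith
  have hres2 : ∀ ρ < n, ∑ i ∈ range (J + 1), c (n * i + ρ) ≤ Z / K := by
    intro ρ hρ
    obtain ⟨Γ, h1, h2⟩ := plain_step s t hd hK0 (bot_le : ⊥ ≤ P (n * J + ρ)) (hst _) (Γ := ∅)
      ⟨by simp, fun u _ v _ h => by
        rw [gen_empty]
        exact h⟩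
    have h3 := htel ρ hρ J Γ h1
    have h4 := hZle (cross s t ⊥)
    rw [← sum_sdiff (cross_anti s t (bot_le : ⊥ ≤ P (n * J + ρ)))] at h4
    have h5 := div_le_div_of_nonneg_right h4 hK0.le
    rw [add_div] at h5
    simp only [len, sum_empty] at h2
    simp only [len] at h3
    linarith
  have hblock : ∀ k, ∑ j ∈ range (n * k), c j = ∑ ρ ∈ range n, ∑ i ∈ range k, c (n * i + ρ) := by
    intro k
    induction k with
    | zero => simp
    | succ k ih => simp only [mul_add, mul_one, sum_range_add, ih, sum_range_succ, sum_add_distrib]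
  have hctot : ∑ j ∈ range J, c j ≤ n * (Z / K) := by
    refine (sum_le_sum_of_subset_of_nonneg (range_mono (show J ≤ n * (J + 1) by nlinarith))
      fun j _ _ => hc0 j).trans ?_
    rw [hblock]
    simpa using sum_le_card_nsmul (range n) _ (Z / K) fun ρ hρ => hres2 ρ (mem_range.1 hρ)
  have hX0 : ∀ p, 0 ≤ ∑ j ∈ range J, x j p := fun p => sum_nonneg fun j _ => hx j p
  refine ⟨fun p => ∑ j ∈ range J, x j p, hX0, ?_, fun j => ?_⟩
  · simp only [sum_mul]
    rw [sum_comm]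
    refine (sum_le_sum fun j _ => hcost j).trans ?_
    rw [sum_add_distrib, ← mul_sum, ← mul_sum]
    have h1 : ∑ i ∈ range J, ∑ e ∈ cross s t (P i) \ cross s t (chBack P 1 i), d (s e) (t e)
        ≤ Z := by
      refine le_trans ?_ (hZle (cross s t (P J)))
      rw [ch_sum_cross s t hP, sum_range_succ]
      exact le_add_of_nonneg_right (sum_nonneg fun _ _ => hd.nonneg _ _)
    have h2 : 288 * τ ^ 5 * (n * (Z / K)) ≤ 1 / τ * Z := by
      have : 288 * τ ^ 5 * n / K ≤ 1 / τ := by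
        rw [div_le_div_iff₀ hK0 hτ0]
        have a1 := mul_le_mul_of_nonneg_left hn2 (show 0 ≤ 288 * τ ^ 6 by positivity)
        have a2 : 0 ≤ τ ^ 10 := by positivity
        nlinarith
      calc 288 * τ ^ 5 * (n * (Z / K)) = 288 * τ ^ 5 * n / K * Z := by ring
        _ ≤ _ := mul_le_mul_of_nonneg_right this hZ0
    have h3 := mul_le_mul_of_nonneg_left hctot (show 0 ≤ 288 * τ ^ 5 by positivity)
    have h4 := mul_le_mul_of_nonneg_left h1 (show 0 ≤ 2 / τ by positivity)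
    have h5 : 3 / τ * Z = 2 / τ * Z + 1 / τ * Z := by ring
    linarith
  · rw [ch_sum_cross s t hP]
    have h1 : ∀ i ∈ range (j + 1), ∑ e ∈ cross s t (P i) \ cross s t (chBack P 1 i),
        Res (Mx s t (fun p => ∑ j ∈ range J, x j p) l) (bv (s e) (t e)) ≤ 16 / τ * 2 ^ i := by
      intro i _
      rw [div_mul_eq_mul_div]
      rcases lt_or_ge i J with hi | hi
      · exact hres i _ fun p => single_le_sum (f := fun j => x j p) (fun j _ => hx j p)
          (mem_range.2 hi)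
      · have a1 := sum_le_card_nsmul (cross s t (P i) \ cross s t (chBack P 1 i)) _ 1
          fun e _ => res_edge_le_one s t hX0 hl e
        rw [nsmul_eq_mul, mul_one] at a1
        refine a1.trans ?_
        have a2 : ((cross s t (P i) \ cross s t (chBack P 1 i)).card : ℝ) ≤ Fintype.card E := by
          exact_mod_cast card_le_univ _
        have a3 : (2 : ℝ) ^ J ≤ 2 ^ i := pow_le_pow_right₀ one_le_two hi
        have a4 : (0 : ℝ) ≤ 2 ^ i := by positivity
        rw [le_div_iff₀ hτ0]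
        nlinarith
    refine (sum_le_sum h1).trans ?_
    rw [← mul_sum, geom_sum_eq (by norm_num), pow_succ]
    have : 0 ≤ 16 / τ := by positivity
    have e : 32 / τ * 2 ^ j = 16 / τ * (2 ^ j * 2) := by ring
    rw [e]
    exact mul_le_mul_of_nonneg_left (by norm_num) this

end Vale.Agent.P061
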