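import Vale.Agent.P061.Chain

/-! The chain lemma in cut form, by separation. -/

namespace Vale.Agent.P061

open Finset Matrix

theorem c2_minimax {κ Y : Type} [Fintype κ] (D : Y → Prop) (h : κ → Y → ℝ) {δ : ℝ}
    (hD : ∀ x y, D x → D y → ∀ a b : ℝ, 0 ≤ a → 0 ≤ b → a + b = 1 →
      ∃ z, D z ∧ ∀ j, h j z ≤ a * h j x + b * h j y)
    (H : ∀ a : κ → ℝ, (∀ j, 0 ≤ a j) → ∑ j, a j ≤ 1 → ∃ x, D x ∧ ∑ j, a j * h j x < δ) :
    ∃ x, D x ∧ ∀ j, h j x ≤ δ := by
  classical
  by_contra hc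
  push Not at hc
  obtain ⟨φ, s, h1, h2⟩ := geometric_hahn_banach_open (s := Set.pi Set.univ fun _ : κ => Set.Iio δ)
    (t := {u | ∃ x, D x ∧ ∀ j, h j x ≤ u j})
    (convex_pi fun _ _ => convex_Iio _) (isOpen_set_pi Set.finite_univ fun _ _ => isOpen_Iio)
    (by
      rintro u ⟨x, hx, hu⟩ v ⟨y, hy, hv⟩ a b ha hb hab
      obtain ⟨z, hz, hz'⟩ := hD x y hx hy a b ha hb hab
      exact ⟨z, hz, fun j => (hz' j).trans (add_le_add (mul_le_mul_of_nonneg_left (hu j) ha)
        (mul_le_mul_of_nonneg_left (hv j) hb))⟩)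
    (Set.disjoint_left.2 fun x hx ⟨f, hf, h⟩ => by
      obtain ⟨j, hj⟩ := hc f hf
      exact absurd ((hj.trans_le (h j)).trans (hx j trivial)) (lt_irrefl _))
  have e : ∀ x, φ x = ∑ j, φ (Pi.single j 1) * x j := fun x => by
    conv_lhs => rw [pi_eq_sum_univ' x]
    simp [map_sum, mul_comm]
  set a : κ → ℝ := fun j => φ (Pi.single j 1) with ha
  have a0 : ∀ j, 0 ≤ a j := fun j => by
    by_contra hj
    push Not at hj
    have h3 := h1 (fun _ => δ - 1) fun _ _ => by simp
    have h4 : 0 ≤ (s - φ fun _ => δ - 1) / -a j := div_nonneg (by linarith) (by linarith)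
    have h5 := h1 ((fun _ => δ - 1) - ((s - φ fun _ => δ - 1) / -a j) • Pi.single j 1) fun i _ => by
      have : 0 ≤ (s - φ fun _ => δ - 1) / -a j * (Pi.single j 1 : κ → ℝ) i :=
        mul_nonneg h4 (by rw [Pi.single_apply]; split_ifs <;> norm_num)
      simp only [Set.mem_Iio, Pi.sub_apply, Pi.smul_apply, smul_eq_mul]
      linarith
    rw [map_sub, map_smul, smul_eq_mul] at h5
    have h6 : (s - φ fun _ => δ - 1) / -a j * a j = -(s - φ fun _ => δ - 1) := by
      have := hj.ne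
      field_simp
    linarith
  have a1 : δ * ∑ j, a j ≤ s := by
    refine le_of_forall_lt_imp_le_of_dense fun r hr => ?_
    have hS : 0 ≤ ∑ j, a j := sum_nonneg fun j _ => a0 j
    have h3 := h1 (fun _ => δ - (δ * ∑ j, a j - r) / (∑ j, a j + 1)) fun _ _ => by
      have : 0 < (δ * ∑ j, a j - r) / (∑ j, a j + 1) := div_pos (by linarith) (by linarith)
      simp only [Set.mem_Iio]
      linarith
    rw [e, ← sum_mul] at h3
    have h4 : (∑ j, a j) * ((δ * ∑ j, a j - r) / (∑ j, a j + 1)) ≤ δ * ∑ j, a j - r := by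
      rw [← mul_div_assoc, div_le_iff₀ (by linarith)]
      nlinarith
    linarith
  rcases (sum_nonneg fun j (_ : j ∈ univ) => a0 j).eq_or_lt with hS | hS
  · obtain ⟨f, hf, -⟩ := H 0 (fun _ => le_rfl) (by simp)
    have h3 := h1 (fun _ => δ - 1) fun _ _ => by simp
    have h4 := h2 _ ⟨f, hf, fun _ => le_rfl⟩
    have h5 := (sum_eq_zero_iff_of_nonneg fun j _ => a0 j).1 hS.symm
    rw [e, sum_eq_zero fun j hj => mul_eq_zero_of_left (h5 j hj) _] at h3 h4
    linarith
  · obtain ⟨f, hf, h3⟩ := H (fun j => a j / ∑ j, a j) (fun j => div_nonneg (a0 j) hS.le)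
      (by rw [← sum_div, div_self hS.ne'])
    have h4 := h2 _ ⟨f, hf, fun _ => le_rfl⟩
    simp only [div_mul_eq_mul_div, ← sum_div] at h3
    rw [div_lt_iff₀ hS] at h3
    rw [e] at h4
    linarith

variable {V E : Type} [Fintype V] [DecidableEq V] [Fintype E] [DecidableEq E]

/-- Indicator that `S` separates two points. -/
def c2Ind (S : Finset V) (u v : V) : ℝ := if (u ∈ S ↔ v ∈ S) then 0 else 1

theorem c2_xcut (x : V × V → ℝ) (S : Finset V) : xcut x S = ∑ p, x p * c2Ind S p.1 p.2 := by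
  refine sum_congr rfl fun p _ => ?_
  by_cases h : (p.1 ∈ S ↔ p.2 ∈ S) <;> simp [c2Ind, h]

omit [Fintype V] in
theorem c2_cut (s t : E → V) (S : Finset V) :
    ∑ e, c2Ind S (s e) (t e) = (cutS s t S).card := by
  rw [card_eq_sum_ones, ← sum_filter_add_sum_filter_not univ (· ∈ cutS s t S)]
  simp only [filter_mem_eq_inter, univ_inter]
  rw [sum_eq_zero (s := filter _ _) fun e he => by
    have := (mem_filter.1 he).2
    rw [mem_cutS, not_not] at this
    simp [c2Ind, this], add_zero]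
  push_cast
  exact sum_congr rfl fun e he => by simp [c2Ind, mem_cutS.1 he]

theorem chain (s t : E → V) (P : ℕ → Setoid V) (hP : Antitone P)
    (hc : ∀ j, (cross s t (P j)).card ≤ 2 ^ j) {K τ l : ℝ} (hτ : 1 ≤ τ)
    (hK : 10 ^ 7 * τ ^ 10 ≤ K) (hl : 0 < l) (htop : StrongAt s t K ⊤)
    (hst : ∀ j, StrongAt s t K (P j)) :
    ∃ x : V × V → ℝ, (∀ p, 0 ≤ x p) ∧ (∀ a, x (a, a) = 0) ∧
      (∀ S : Finset V, S.Nonempty → S ≠ univ → xcut x S ≤ 4 / τ * (cutS s t S).card) ∧
      ∀ j, ∑ e ∈ cross s t (P j), Res (Mx s t x l) (bv (s e) (t e)) ≤ 32 / τ * 2 ^ j := by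
  have hτ0 : 0 < τ := by linarith
  have hK0 : 0 < K := lt_of_lt_of_le (by positivity) hK
  have hcut : ∀ S : {S : Finset V // S.Nonempty ∧ S ≠ univ}, (0 : ℝ) < (cutS s t S.1).card :=
    fun S => hK0.trans_le (htop.le_cut hK0.le S.2.1 S.2.2)
  obtain ⟨x, ⟨hx, hres⟩, hcx⟩ := c2_minimax (κ := {S : Finset V // S.Nonempty ∧ S ≠ univ})
    (fun x : V × V → ℝ => (∀ p, 0 ≤ x p) ∧
      ∀ j, ∑ e ∈ cross s t (P j), Res (Mx s t x l) (bv (s e) (t e)) ≤ 32 / τ * 2 ^ j)
    (fun S x => xcut x S.1 / (cutS s t S.1).card) (δ := 4 / τ)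
    (fun x y hx hy a b ha hb hab => ⟨a • x + b • y, ⟨fun p => add_nonneg (mul_nonneg ha (hx.1 p))
      (mul_nonneg hb (hy.1 p)), fun j => by
        refine (sum_le_sum fun e _ => res_Mx_convex s t hx.1 hy.1 hl ha hb hab _).trans ?_
        rw [sum_add_distrib, ← mul_sum, ← mul_sum]
        have h1 := mul_le_mul_of_nonneg_left (hx.2 j) ha
        have h2 := mul_le_mul_of_nonneg_left (hy.2 j) hb
        have h3 : a * (32 / τ * 2 ^ j) + b * (32 / τ * 2 ^ j) = 32 / τ * 2 ^ j := by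
          rw [← add_mul, hab, one_mul]
        linarith⟩, fun S => le_of_eq (by
        simp only [c2_xcut, Pi.add_apply, Pi.smul_apply, smul_eq_mul, add_mul, sum_add_distrib,
          mul_assoc, ← mul_sum]
        ring)⟩)
    (fun a ha ha1 => by
      have hw : ∀ S : {S : Finset V // S.Nonempty ∧ S ≠ univ},
          0 ≤ a S / (cutS s t S.1).card := fun S => div_nonneg (ha S) (hcut S).le
      obtain ⟨x, h1, h2, h3⟩ := chain_metric s t P hP hc hτ hK hl htop hst
        (d := fun u v => ∑ S : {S : Finset V // S.Nonempty ∧ S ≠ univ},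
          a S / (cutS s t S.1).card * c2Ind S.1 u v)
        ⟨fun u => by simp [c2Ind], fun u v => by simp only [c2Ind, iff_comm (a := u ∈ _)],
          fun u v w => by
            rw [← sum_add_distrib]
            refine sum_le_sum fun S _ => ?_
            rw [← mul_add]
            refine mul_le_mul_of_nonneg_left ?_ (hw S)
            by_cases h1 : u ∈ S.1 <;> by_cases h2 : v ∈ S.1 <;> by_cases h3 : w ∈ S.1 <;>
              simp [c2Ind, h1, h2, h3]⟩
      refine ⟨x, ⟨h1, h3⟩, ?_⟩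
      have e1 : ∑ e, ∑ S : {S : Finset V // S.Nonempty ∧ S ≠ univ},
          a S / (cutS s t S.1).card * c2Ind S.1 (s e) (t e) = ∑ S, a S := by
        rw [sum_comm]
        refine sum_congr rfl fun S _ => ?_
        rw [← mul_sum, c2_cut, div_mul_cancel₀ _ (hcut S).ne']
      have e2 : ∑ p : V × V, x p * ∑ S : {S : Finset V // S.Nonempty ∧ S ≠ univ},
          a S / (cutS s t S.1).card * c2Ind S.1 p.1 p.2
          = ∑ S, a S * (xcut x S.1 / (cutS s t S.1).card) := by
        simp only [mul_sum]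
        rw [sum_comm]
        refine sum_congr rfl fun S _ => ?_
        rw [c2_xcut, sum_div, mul_sum]
        exact sum_congr rfl fun p _ => by ring
      rw [e1, e2] at h2
      refine h2.trans_lt ((mul_le_of_le_one_right (by positivity) ha1).trans_lt ?_)
      gcongr
      norm_num)
  have eM : Mx s t (fun p => if p.1 = p.2 then 0 else x p) l = Mx s t x l := by
    simp only [Mx]
    congr 2
    refine sum_congr rfl fun p _ => ?_
    split_ifs with h
    · simp [bv, h]
    · rfl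
  refine ⟨fun p => if p.1 = p.2 then 0 else x p, fun p => ?_, fun a => by simp,
    fun S h1 h2 => ?_, by rwa [eM]⟩
  · dsimp only
    split_ifs
    · exact le_rfl
    · exact hx p
  · refine le_trans (le_of_eq ?_) ((div_le_iff₀ (hcut ⟨S, h1, h2⟩)).1 (hcx ⟨S, h1, h2⟩))
    simp only [c2_xcut]
    refine sum_congr rfl fun p _ => ?_
    split_ifs with h
    · simp [c2Ind, h]
    · rfl

end Vale.Agent.P061
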