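import Vale.Agent.P061.Res

/-! A core: a strong edge set all of whose edges have small resistance. -/

namespace Vale.Agent.P061

open Finset Matrix

section Det

variable {ι : Type} [Fintype ι] [DecidableEq ι]

theorem cor_det_one (x y : ι → ℝ) : (1 + vecMulVec x y).det = 1 + y ⬝ᵥ x := by
  rw [vecMulVec_eq Unit, det_one_add_replicateCol_mul_replicateRow]

theorem cor_det_add {M : Matrix ι ι ℝ} (hM : M.PosDef) (b : ι → ℝ) :
    (M + vecMulVec b b).det = M.det * (1 + Res M b) := by
  rw [Res, ← cor_det_one, ← det_mul, Matrix.mul_add, Matrix.mul_one, mul_vecMulVec, res_mul_inv hM]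

theorem cor_det_right {N : Matrix ι ι ℝ} {g u : ι → ℝ} (h0 : N *ᵥ g = 0) (h1 : u ⬝ᵥ g = 1)
    (x y : ι → ℝ) : (N + vecMulVec x y).det = (y ⬝ᵥ g) * (N + vecMulVec x u).det := by
  have e : (N + vecMulVec x u) * (1 + vecMulVec g (y - u)) = N + vecMulVec x y := by
    rw [Matrix.mul_add, Matrix.mul_one, mul_vecMulVec, add_mulVec, h0, vecMulVec_mulVec, h1]
    ext i j
    simp [vecMulVec_apply]; ring
  rw [← e, det_mul, cor_det_one, sub_dotProduct, h1]; ring

theorem cor_det_two {N : Matrix ι ι ℝ} (hN : Nᵀ = N) {g u : ι → ℝ} (h0 : N *ᵥ g = 0)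
    (h1 : u ⬝ᵥ g = 1) (x y : ι → ℝ) :
    (N + vecMulVec x y).det = (y ⬝ᵥ g) * (x ⬝ᵥ g) * (N + vecMulVec u u).det := by
  rw [cor_det_right h0 h1, ← det_transpose, transpose_add, hN, transpose_vecMulVec,
    cor_det_right h0 h1 u x, mul_assoc]

theorem cor_amgm {M : Matrix ι ι ℝ} (hM : M.PosDef) {μ : ℝ} (hμ : 0 < μ)
    (h : M.trace ≤ μ * Fintype.card ι) : Real.log M.det ≤ Fintype.card ι * Real.log μ := by
  have e1 := hM.isHermitian.det_eq_prod_eigenvalues
  have e2 := hM.isHermitian.trace_eq_sum_eigenvalues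
  simp only [RCLike.ofReal_real_eq_id, id] at e1 e2
  rw [e1, Real.log_prod fun i _ => (hM.eigenvalues_pos i).ne']
  have : ∀ i, Real.log (hM.isHermitian.eigenvalues i) ≤
      hM.isHermitian.eigenvalues i / μ - 1 + Real.log μ := fun i => by
    have := Real.log_le_sub_one_of_pos (div_pos (hM.eigenvalues_pos i) hμ)
    rw [Real.log_div (hM.eigenvalues_pos i).ne' hμ.ne'] at this
    linarith
  refine (sum_le_sum fun i _ => this i).trans ?_
  simp only [sum_add_distrib, sum_sub_distrib, ← sum_div, ← e2, sum_const, card_univ, nsmul_eq_mul]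
  have := (div_le_iff₀' hμ).2 h
  linarith

end Det

variable {V E : Type} [Fintype V] [DecidableEq V]

open Classical in
/-- One representative in every class. -/
noncomputable def corRoots (P : Setoid V) : Finset V :=
  univ.filter fun v => ∀ w, P v w → Fintype.equivFin V v ≤ Fintype.equivFin V w

omit [DecidableEq V] in
theorem mem_corRoots {P : Setoid V} {v : V} :
    v ∈ corRoots P ↔ ∀ w, P v w → Fintype.equivFin V v ≤ Fintype.equivFin V w := by
  simp [corRoots]

omit [DecidableEq V] in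
theorem cor_root_ex (P : Setoid V) (v : V) : ∃ r ∈ corRoots P, P v r := by
  classical
  obtain ⟨r, hr, h⟩ := exists_min_image (univ.filter fun w => P v w) (Fintype.equivFin V)
    ⟨v, by simp⟩
  have hr' := (mem_filter.1 hr).2
  exact ⟨r, mem_corRoots.2 fun w hw => h w (mem_filter.2 ⟨mem_univ _, P.trans' hr' hw⟩), hr'⟩

omit [DecidableEq V] in
theorem cor_root_uniq {P : Setoid V} {r r' : V} (h : r ∈ corRoots P) (h' : r' ∈ corRoots P)
    (e : P r r') : r = r' :=
  (Fintype.equivFin V).injective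
    (le_antisymm (mem_corRoots.1 h _ e) (mem_corRoots.1 h' _ (P.symm' e)))

omit [DecidableEq V] in
theorem cor_root_card (P : Setoid V) : (corRoots P).card = q P := by
  rw [q, ← Nat.card_eq_of_bijective (fun r : corRoots P => Quotient.mk P r.1) ⟨fun r r' e =>
    Subtype.ext (cor_root_uniq r.2 r'.2 (Quotient.exact e)), fun c => ?_⟩]
  · simp
  · induction c using Quotient.inductionOn with
    | h v =>
      obtain ⟨r, hr, e⟩ := cor_root_ex P v
      exact ⟨⟨r, hr⟩, Quotient.sound (P.symm' e)⟩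

theorem cor_root_link {P : Setoid V} {a b : V} (h : ¬ P a b) : ∃ r ∉ corRoots (P ⊔ link a b),
    insert r (corRoots (P ⊔ link a b)) = corRoots P ∧ (P r a ∨ P r b) := by
  obtain ⟨r, h1, h2⟩ := (exists_eq_insert_iff (s := corRoots (P ⊔ link a b)) (t := corRoots P)).2
    ⟨fun v hv => mem_corRoots.2 fun w hw => mem_corRoots.1 hv w ((le_sup_left : P ≤ _) hw),
      by rw [cor_root_card, cor_root_card, q_sup_link h]⟩
  refine ⟨r, h1, h2, ?_⟩
  by_contra h3
  refine h1 (mem_corRoots.2 fun w hw => ?_)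
  rcases sup_link_iff.1 hw with h4 | h4 | h4
  · exact mem_corRoots.1 (h2 ▸ mem_insert_self _ _) w h4
  · exact absurd (Or.inl h4.1) h3
  · exact absurd (Or.inr h4.1) h3

/-- The Laplacian of `C` grounded at the vertices of `R`. -/
def corM (s t : E → V) (μ : ℝ) (C : Finset E) (R : Finset V) : Matrix V V ℝ :=
  ∑ e ∈ C, vecMulVec (bv (s e) (t e)) (bv (s e) (t e)) +
    ∑ r ∈ R, vecMulVec (μ • Pi.single r 1) (Pi.single r 1)

variable (s t : E → V) {μ : ℝ}

omit [Fintype V] in
theorem corM_symm (C : Finset E) (R : Finset V) : (corM s t μ C R)ᵀ = corM s t μ C R := by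
  ext i j
  simp [corM, Matrix.sum_apply, vecMulVec_apply, mul_comm]

theorem corM_form (C : Finset E) (R : Finset V) (φ : V → ℝ) : φ ⬝ᵥ corM s t μ C R *ᵥ φ =
    ∑ e ∈ C, (φ (s e) - φ (t e)) ^ 2 + μ * ∑ r ∈ R, φ r ^ 2 := by
  simp only [corM, add_mulVec, dotProduct_add, sum_mulVec, dotProduct_sum, smul_vecMulVec,
    smul_mulVec, dotProduct_smul, vecMulVec_form, bv_dot, smul_eq_mul, mul_sum, single_dotProduct,
    one_mul]

theorem corM_posDef (hμ : 0 < μ) (C : Finset E) :
    (corM s t μ C (corRoots (gen s t C))).PosDef := by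
  refine PosDef.of_dotProduct_mulVec_pos (by simpa [IsHermitian] using corM_symm s t C _)
    fun φ hφ => ?_
  rw [star_trivial, corM_form]
  have h1 : 0 ≤ ∑ e ∈ C, (φ (s e) - φ (t e)) ^ 2 := sum_nonneg fun _ _ => sq_nonneg _
  have h2 : 0 ≤ ∑ r ∈ corRoots (gen s t C), φ r ^ 2 := sum_nonneg fun _ _ => sq_nonneg _
  by_contra h
  have h3 := mul_nonneg hμ.le h2
  have h4 := (sum_eq_zero_iff_of_nonneg fun _ _ => sq_nonneg _).1 (le_antisymm (by linarith) h1)
  have h5 := (sum_eq_zero_iff_of_nonneg fun _ _ => sq_nonneg _).1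
    (le_antisymm (nonpos_of_mul_nonpos_right (by linarith) hμ) h2)
  have h6 : gen s t C ≤ Setoid.ker φ := gen_le_iff.2 fun e he =>
    sub_eq_zero.1 (pow_eq_zero_iff two_ne_zero |>.1 (h4 e he))
  refine hφ (funext fun v => ?_)
  obtain ⟨r, hr, e⟩ := cor_root_ex (gen s t C) v
  exact (h6 e).trans (pow_eq_zero_iff two_ne_zero |>.1 (h5 r hr))

/-- The logarithm of the number of spanning forests. -/
noncomputable def corL (s t : E → V) (μ : ℝ) (C : Finset E) : ℝ :=
  Real.log (corM s t μ C (corRoots (gen s t C))).det - q (gen s t C) * Real.log μ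

theorem corL_empty : corL s t μ ∅ = 0 := by
  have h1 : corRoots (⊥ : Setoid V) = univ :=
    eq_univ_of_forall fun v => mem_corRoots.2 fun w hw => by rw [show v = w from hw]
  have h2 : corM s t μ ∅ univ = μ • (1 : Matrix V V ℝ) := by
    ext i j
    simp [corM, Matrix.sum_apply, vecMulVec_apply, Pi.single_apply, one_apply]
  simp [corL, gen_empty, h1, h2, q_bot]

theorem corL_le (hμ : 0 < μ) (C : Finset E)
    (h : 2 * (C.card : ℝ) ≤ μ * (Fintype.card V - q (gen s t C))) :
    corL s t μ C ≤ (Fintype.card V - q (gen s t C)) * Real.log μ := by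
  have := cor_amgm (corM_posDef s t hμ C) hμ (by
    have h1 : ∀ e ∈ C, bv (s e) (t e) ⬝ᵥ bv (s e) (t e) ≤ 2 := fun e _ => by
      rw [bv_dot]
      by_cases h : s e = t e <;> simp [bv, h, Ne.symm] <;> norm_num
    have h2 := sum_le_sum h1
    simp only [corM, trace_add, trace_sum, trace_vecMulVec, smul_dotProduct, single_dotProduct,
      Pi.single_eq_same, sum_const, nsmul_eq_mul, cor_root_card, smul_eq_mul] at h2 ⊢
    linarith)
  rw [corL]; linarith

variable [DecidableEq E]

theorem corL_rel (hμ : 0 < μ) {C : Finset E} {e : E} (he : e ∉ C) (h : gen s t C (s e) (t e)) :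
    corL s t μ (insert e C) = corL s t μ C +
      Real.log (1 + Res (corM s t μ C (corRoots (gen s t C))) (bv (s e) (t e))) := by
  have hM := corM_posDef s t hμ C
  have e1 : ∀ R, corM s t μ (insert e C) R =
      corM s t μ C R + vecMulVec (bv (s e) (t e)) (bv (s e) (t e)) := fun R => by
    rw [corM, corM, sum_insert he]; abel
  rw [corL, corL, gen_insert, sup_link_of_rel h, e1, cor_det_add hM,
    Real.log_mul hM.det_pos.ne' (by have := res_nonneg hM (bv (s e) (t e)); positivity)]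
  ring

theorem corL_bridge (hμ : 0 < μ) {C : Finset E} {e : E} (he : e ∉ C)
    (h : ¬ gen s t C (s e) (t e)) : corL s t μ (insert e C) = corL s t μ C := by
  classical
  obtain ⟨r, h1, h2, h3⟩ := cor_root_link h
  have hM := (corM_posDef s t hμ (insert e C)).det_pos
  have hq : (q (gen s t C) : ℝ) = q (gen s t C ⊔ link (s e) (t e)) + 1 := by
    exact_mod_cast (q_sup_link h).symm
  rw [gen_insert] at hM
  rw [corL, corL, gen_insert, hq]
  generalize corRoots (gen s t C ⊔ link (s e) (t e)) = R at *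
  let g : V → ℝ := fun v => if gen s t C r v then 1 else 0
  have g0 : corM s t μ C R *ᵥ g = 0 := by
    rw [corM, add_mulVec, sum_mulVec, sum_mulVec, sum_eq_zero fun f hf => ?_,
      sum_eq_zero fun v hv => ?_, add_zero]
    · have : ¬ gen s t C r v := fun e' => h1 (cor_root_uniq (h2 ▸ mem_insert_self _ _)
        (h2 ▸ mem_insert_of_mem hv) e' ▸ hv)
      rw [vecMulVec_mulVec]
      simp [g, this]
    · have : gen s t C r (s f) ↔ gen s t C r (t f) :=
        ⟨fun a => (gen s t C).trans' a (gen_rel hf),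
          fun a => (gen s t C).trans' a ((gen s t C).symm' (gen_rel hf))⟩
      simp [vecMulVec_mulVec, g, this]
  have g1 : (Pi.single r 1 : V → ℝ) ⬝ᵥ g = 1 := by simp [g]
  have g2 : (bv (s e) (t e) ⬝ᵥ g) * (bv (s e) (t e) ⬝ᵥ g) = 1 := by
    have : ¬ (gen s t C r (s e) ∧ gen s t C r (t e)) := fun a =>
      h ((gen s t C).trans' ((gen s t C).symm' a.1) a.2)
    by_cases a : gen s t C r (s e) <;> by_cases b : gen s t C r (t e) <;> simp_all [g]
  have e1 : corM s t μ (insert e C) R =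
      corM s t μ C R + vecMulVec (bv (s e) (t e)) (bv (s e) (t e)) := by
    rw [corM, corM, sum_insert he]; abel
  have e2 : corM s t μ C (insert r R) =
      corM s t μ C R + vecMulVec (μ • Pi.single r 1) (Pi.single r 1) := by
    rw [corM, corM, sum_insert h1]; abel
  rw [e1, cor_det_two (corM_symm s t C R) g0 g1, g2, one_mul] at hM ⊢
  rw [← h2, e2, cor_det_two (corM_symm s t C R) g0 g1 (μ • _), smul_dotProduct, g1, smul_eq_mul,
    one_mul, mul_one, Real.log_mul hμ.ne' hM.ne']
  ring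

theorem corL_mono (hμ : 0 < μ) : Monotone (corL s t μ) := by
  refine monotone_iff_forall_le_insert.2 fun C e he => ?_
  by_cases h : gen s t C (s e) (t e)
  · rw [corL_rel s t hμ he h]
    exact le_add_of_nonneg_right (Real.log_nonneg (le_add_of_nonneg_right
      (res_nonneg (corM_posDef s t hμ C) _)))
  · exact (corL_bridge s t hμ he h).ge

omit [DecidableEq E] in
theorem cor_res (hμ : 0 < μ) {C : Finset E} {a b : V} (h : gen s t C a b) (φ : V → ℝ) :
    (φ a - φ b) ^ 2 ≤ Res (corM s t μ C (corRoots (gen s t C))) (bv a b) *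
      ∑ f ∈ C, (φ (s f) - φ (t f)) ^ 2 := by
  choose ρ h1 h2 using cor_root_ex (gen s t C)
  have h3 : ∀ x y, gen s t C x y → ρ x = ρ y := fun x y e => cor_root_uniq (h1 x) (h1 y)
    ((gen s t C).trans' ((gen s t C).symm' (h2 x)) ((gen s t C).trans' e (h2 y)))
  have := sq_le_res (corM_posDef s t hμ C) (bv a b) fun v => φ v - φ (ρ v)
  rw [corM_form, bv_dot, h3 a b h, sub_sub_sub_cancel_right,
    sum_eq_zero (s := corRoots _) fun r hr => by rw [← cor_root_uniq hr (h1 r) (h2 r)]; simp,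
    sum_congr rfl fun f hf => by rw [h3 _ _ (gen_rel hf), sub_sub_sub_cancel_right]] at this
  simpa using this

theorem cor_min {α : Type} (F : Finset α) (p : Finset α → Prop)
    (h : ∃ C ⊆ F, C.Nonempty ∧ p C) :
    ∃ C ⊆ F, C.Nonempty ∧ p C ∧ ∀ C' ⊂ C, C' = ∅ ∨ ¬ p C' := by
  classical
  obtain ⟨C₀, h1, h2⟩ := h
  obtain ⟨C, hC, hm⟩ := exists_min_image (F.powerset.filter fun C => C.Nonempty ∧ p C) card
    ⟨C₀, by simp [h1, h2]⟩
  simp only [mem_filter, mem_powerset] at hC hm
  refine ⟨C, hC.1, hC.2.1, hC.2.2, fun C' hC' => ?_⟩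
  by_contra h3
  push Not at h3
  exact absurd (hm C' ⟨hC'.subset.trans hC.1, h3.1, h3.2⟩) (not_le.2 (card_lt_card hC'))

theorem core {V E : Type} [Fintype V] [DecidableEq V] [Fintype E] [DecidableEq E]
    (s t : E → V) (F : Finset E) {κ β : ℝ} (hβ : 2 ≤ β)
    (hκ : 1 < κ - β * Real.log (2 * κ + 2)) (hκ0 : 1 < κ) (hF : Strength s t F κ)
    (hV : 2 ≤ Fintype.card V) :
    ∃ C ⊆ F, C.Nonempty ∧ (∀ e ∈ C, s e ≠ t e) ∧
      (∀ e ∈ C, ∀ φ : V → ℝ,
        (φ (s e) - φ (t e)) ^ 2 ≤ 2 / β * ∑ f ∈ C, (φ (s f) - φ (t f)) ^ 2) ∧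
      ∀ Q : Setoid V, (κ - β * Real.log (2 * κ + 2)) *
        ((q (Q ⊓ gen s t C) : ℝ) - q (gen s t C)) ≤ ((C ∩ cross s t Q).card : ℝ) := by
  have hμ : 0 < 2 * κ + 2 := by linarith
  have : Nonempty V := Fintype.card_pos_iff.1 (by omega)
  have hV' : (2 : ℝ) ≤ Fintype.card V := by exact_mod_cast hV
  have hanti : ∀ {P Q : Setoid V}, P ≤ Q → (q Q : ℝ) ≤ q P := fun h => by exact_mod_cast q_anti h
  have hne : ∀ e ∈ F ∩ cross s t ⊥, s e ≠ t e := fun e he => mem_cross.1 (mem_inter.1 he).2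
  obtain ⟨C₀, a1, ⟨e₀, he₀⟩, a3, a4⟩ := cor_min (F ∩ cross s t ⊥)
    (fun C => κ * ((Fintype.card V : ℝ) - q (gen s t C)) ≤ C.card) (by
      have h1 := hF ⊥
      have h2 : (1 : ℝ) ≤ q (gen s t (F ∩ cross s t ⊥)) := by exact_mod_cast q_pos _
      rw [q_bot] at h1
      refine ⟨_, subset_rfl, card_pos.1 (Nat.cast_pos (α := ℝ) |>.1 (by nlinarith)), by nlinarith⟩)
  obtain ⟨Ψ, hΨ⟩ : ∃ Ψ : Finset E → ℝ, ∀ C, Ψ C = C.card - (κ - β * Real.log (2 * κ + 2)) *
    ((Fintype.card V : ℝ) - q (gen s t C)) - β * corL s t (2 * κ + 2) C := ⟨_, fun _ => rfl⟩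
  obtain ⟨C, b1, b2, b3, b4⟩ := cor_min (F ∩ cross s t ⊥) (fun C => 0 ≤ Ψ C)
    ⟨C₀, a1, ⟨e₀, he₀⟩, by
      have h1 : (q (gen s t C₀) : ℝ) + 1 ≤ Fintype.card V := by
        have c1 := q_sup_link (P := ⊥) (hne e₀ (a1 he₀))
        have c2 := q_anti (sup_le bot_le (link_le_iff.2 (gen_rel (s := s) (t := t) he₀)))
        rw [q_bot] at c1
        exact_mod_cast (by omega : q (gen s t C₀) + 1 ≤ Fintype.card V)
      have h2 : ((C₀.erase e₀).card : ℝ) + 1 = C₀.card := by
        exact_mod_cast card_erase_add_one he₀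
      have h3 := hanti (gen_mono (s := s) (t := t) (erase_subset e₀ C₀))
      have h4 : (C₀.card : ℝ) ≤ κ * (Fintype.card V - q (gen s t C₀)) + 1 := by
        rcases a4 _ (erase_ssubset he₀) with h | h
        · rw [h] at h2; simp only [card_empty, Nat.cast_zero] at h2; nlinarith
        · nlinarith [not_le.1 h]
      have h5 := mul_le_mul_of_nonneg_left (corL_le s t hμ C₀ (by linarith)) (by linarith : 0 ≤ β)
      rw [hΨ]; linarith⟩
  have b5 : ∀ C' ⊂ C, Ψ C' ≤ 0 := fun C' h => by
    rcases b4 C' h with rfl | h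
    · simp [hΨ, corL_empty, gen_empty, q_bot]
    · exact (not_le.1 h).le
  refine ⟨C, b1.trans inter_subset_left, b2, fun e he => hne e (b1 he), fun e he φ => ?_,
    fun Q => ?_⟩
  · have h1 := b5 _ (erase_ssubset he)
    have h2 : ((C.erase e).card : ℝ) + 1 = C.card := by exact_mod_cast card_erase_add_one he
    have h3 := gen_insert s t (C.erase e) e
    rw [insert_erase he] at h3
    rw [hΨ] at h1 b3
    by_cases h : gen s t (C.erase e) (s e) (t e)
    · have h4 := corL_rel s t hμ (notMem_erase e C) h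
      have h5 := cor_res s t hμ h φ
      have h6 := res_nonneg (corM_posDef s t hμ (C.erase e)) (bv (s e) (t e))
      rw [insert_erase he] at h4
      rw [h3, sup_link_of_rel h, h4] at b3
      generalize Res _ (bv (s e) (t e)) = R at *
      have h7 := mul_le_mul_of_nonneg_left
        (Real.one_sub_inv_le_log_of_pos (by linarith : 0 < 1 + R)) (by linarith : 0 ≤ β)
      have h8 : β * R ≤ 1 + R := by
        have : β * (1 - (1 + R)⁻¹) * (1 + R) = β * R := by field_simp; ring
        nlinarith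
      refine h5.trans (mul_le_mul ?_ (sum_le_sum_of_subset_of_nonneg (erase_subset e C)
        fun _ _ _ => sq_nonneg _) (sum_nonneg fun _ _ => sq_nonneg _) (by positivity))
      rw [le_div_iff₀ (by linarith)]; nlinarith
    · have h4 := corL_bridge s t hμ (notMem_erase e C) h
      have h5 : (q (gen s t C) : ℝ) + 1 = q (gen s t (C.erase e)) := by
        rw [h3]; exact_mod_cast q_sup_link h
      rw [insert_erase he] at h4
      rw [← h5, ← h4] at h1
      linarith
  · have h1 : Ψ (C \ cross s t Q) ≤ Ψ C := by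
      rcases (sdiff_subset : C \ cross s t Q ⊆ C).eq_or_ssubset with h | h
      · rw [h]
      · exact (b5 _ h).trans b3
    have h2 : ((C \ cross s t Q).card : ℝ) + (C ∩ cross s t Q).card = C.card := by
      exact_mod_cast card_sdiff_add_card_inter C _
    have h3 := mul_le_mul_of_nonneg_left (corL_mono s t hμ (sdiff_subset : C \ cross s t Q ⊆ C))
      (by linarith : 0 ≤ β)
    have h4 := mul_le_mul_of_nonneg_left (hanti (le_inf (gen_le_iff.2 fun e he =>
      not_not.1 fun h => (mem_sdiff.1 he).2 (mem_cross.2 h))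
      (gen_mono (s := s) (t := t) (sdiff_subset : C \ cross s t Q ⊆ C))))
      (by linarith : 0 ≤ κ - β * Real.log (2 * κ + 2))
    rw [hΨ, hΨ] at h1
    linarith

end Vale.Agent.P061
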