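import Mathlib

/-! Thin trees: partitions, cross sets, strength, generated partitions, quadratic forms. -/

namespace Vale.Agent.P061

open Finset Matrix

section Basic

variable {V E α : Type}

/-- Number of classes of a partition. -/
noncomputable def q (P : Setoid V) : ℕ := Nat.card (Quotient P)

open Classical in
/-- Edges joining different classes. -/
noncomputable def cross [Fintype E] (s t : E → V) (P : Setoid V) : Finset E :=
  univ.filter fun e => ¬ P (s e) (t e)

open Classical in
/-- Edges with exactly one end in `S`. -/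
noncomputable def cutS [Fintype E] (s t : E → V) (S : Finset V) : Finset E :=
  univ.filter fun e => ¬ (s e ∈ S ↔ t e ∈ S)

/-- The edge set `F` has strength (partition connectivity) at least `κ`. -/
def Strength [Fintype E] [DecidableEq E] (s t : E → V) (F : Finset E) (κ : ℝ) : Prop :=
  ∀ P : Setoid V, κ * ((q P : ℝ) - 1) ≤ ((F ∩ cross s t P).card : ℝ)

/-- Every refinement of `P` creates at least `K` new cross edges per new class. -/
def StrongAt [Fintype E] [DecidableEq E] (s t : E → V) (K : ℝ) (P : Setoid V) : Prop :=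
  ∀ Q ≤ P, K * ((q Q : ℝ) - q P) ≤ ((cross s t Q \ cross s t P).card : ℝ)

/-- Connected components of the edge set `A`. -/
def gen (s t : α → V) (A : Finset α) : Setoid V :=
  Relation.EqvGen.setoid fun a b => ∃ e ∈ A, s e = a ∧ t e = b

/-- The partition that only identifies `a` and `b`. -/
def link (a b : V) : Setoid V := Relation.EqvGen.setoid fun x y => x = a ∧ y = b

@[simp] theorem mem_cross [Fintype E] {s t : E → V} {P : Setoid V} {e : E} :
    e ∈ cross s t P ↔ ¬ P (s e) (t e) := by simp [cross]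

@[simp] theorem mem_cutS [Fintype E] {s t : E → V} {S : Finset V} {e : E} :
    e ∈ cutS s t S ↔ ¬ (s e ∈ S ↔ t e ∈ S) := by simp [cutS]

theorem cross_anti [Fintype E] (s t : E → V) {P Q : Setoid V} (h : P ≤ Q) :
    cross s t Q ⊆ cross s t P := fun e he => by
  rw [mem_cross] at he ⊢
  exact fun h' => he (h h')

theorem cross_top [Fintype E] (s t : E → V) : cross s t ⊤ = ∅ := by
  ext e; simp

theorem cross_inf [Fintype E] [DecidableEq E] (s t : E → V) (P Q : Setoid V) :
    cross s t (P ⊓ Q) = cross s t P ∪ cross s t Q := by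
  ext e
  simp only [mem_cross, mem_union]
  exact not_and_or

theorem gen_le_iff {s t : α → V} {A : Finset α} {P : Setoid V} :
    gen s t A ≤ P ↔ ∀ e ∈ A, P (s e) (t e) := by
  constructor
  · intro h e he
    exact h (Relation.EqvGen.rel _ _ ⟨e, he, rfl, rfl⟩)
  · intro h
    refine Setoid.eqvGen_le ?_
    rintro a b ⟨e, he, rfl, rfl⟩
    exact h e he

theorem gen_rel {s t : α → V} {A : Finset α} {e : α} (he : e ∈ A) : gen s t A (s e) (t e) :=
  gen_le_iff.1 le_rfl e he

theorem gen_mono {s t : α → V} {A B : Finset α} (h : A ⊆ B) : gen s t A ≤ gen s t B :=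
  gen_le_iff.2 fun _ he => gen_rel (h he)

theorem gen_empty (s t : α → V) : gen s t ∅ = ⊥ :=
  le_bot_iff.1 (gen_le_iff.2 (by simp))

theorem link_le_iff {a b : V} {P : Setoid V} : link a b ≤ P ↔ P a b := by
  constructor
  · intro h
    exact h (Relation.EqvGen.rel _ _ ⟨rfl, rfl⟩)
  · intro h
    refine Setoid.eqvGen_le ?_
    rintro x y ⟨rfl, rfl⟩
    exact h

theorem gen_insert [DecidableEq α] (s t : α → V) (A : Finset α) (e : α) :
    gen s t (insert e A) = gen s t A ⊔ link (s e) (t e) := by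
  apply le_antisymm
  · refine gen_le_iff.2 fun f hf => ?_
    rcases mem_insert.1 hf with rfl | hf
    · exact link_le_iff.1 le_sup_right
    · exact (le_sup_left : gen s t A ≤ _) (gen_rel hf)
  · exact sup_le (gen_mono (subset_insert _ _)) (link_le_iff.2 (gen_rel (mem_insert_self _ _)))

theorem sup_link_iff {P : Setoid V} {a b x y : V} :
    (P ⊔ link a b) x y ↔ P x y ∨ (P x a ∧ P b y) ∨ (P x b ∧ P a y) := by
  constructor
  · intro h
    let Q : Setoid V := ⟨fun x y => P x y ∨ (P x a ∧ P b y) ∨ (P x b ∧ P a y),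
      ⟨fun x => Or.inl (P.refl' x), fun {x y} h => by
        rcases h with h | ⟨h1, h2⟩ | ⟨h1, h2⟩
        · exact Or.inl (P.symm' h)
        · exact Or.inr (Or.inr ⟨P.symm' h2, P.symm' h1⟩)
        · exact Or.inr (Or.inl ⟨P.symm' h2, P.symm' h1⟩), fun {x y z} h h' => by
        rcases h with h | ⟨h1, h2⟩ | ⟨h1, h2⟩ <;> rcases h' with h' | ⟨h3, h4⟩ | ⟨h3, h4⟩
        · exact Or.inl (P.trans' h h')
        · exact Or.inr (Or.inl ⟨P.trans' h h3, h4⟩)
        · exact Or.inr (Or.inr ⟨P.trans' h h3, h4⟩)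
        · exact Or.inr (Or.inl ⟨h1, P.trans' h2 h'⟩)
        · exact Or.inr (Or.inl ⟨h1, h4⟩)
        · exact Or.inl (P.trans' h1 h4)
        · exact Or.inr (Or.inr ⟨h1, P.trans' h2 h'⟩)
        · exact Or.inl (P.trans' h1 h4)
        · exact Or.inr (Or.inr ⟨h1, h4⟩)⟩⟩
    have hQ : P ⊔ link a b ≤ Q :=
      sup_le (fun _ _ h => Or.inl h) (link_le_iff.2 (Or.inr (Or.inl ⟨P.refl' a, P.refl' b⟩)))
    exact hQ h
  · have h1 : P ≤ P ⊔ link a b := le_sup_left
    have h2 : (P ⊔ link a b) a b := link_le_iff.1 le_sup_right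
    rintro (h | ⟨h3, h4⟩ | ⟨h3, h4⟩)
    · exact h1 h
    · exact (P ⊔ link a b).trans' (h1 h3) ((P ⊔ link a b).trans' h2 (h1 h4))
    · exact (P ⊔ link a b).trans' (h1 h3)
        ((P ⊔ link a b).trans' ((P ⊔ link a b).symm' h2) (h1 h4))

theorem sup_link_of_rel {P : Setoid V} {a b : V} (h : P a b) : P ⊔ link a b = P :=
  sup_eq_left.2 (link_le_iff.2 h)

theorem q_bot [Fintype V] : q (⊥ : Setoid V) = Fintype.card V := by
  rw [q, ← Nat.card_eq_fintype_card]
  exact Nat.card_congr (Setoid.quotientBotEquiv)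

theorem q_top [Nonempty V] : q (⊤ : Setoid V) = 1 := by
  rw [q, Nat.card_eq_one_iff_unique]
  refine ⟨⟨fun a b => ?_⟩, ⟨Quotient.mk _ (Classical.arbitrary V)⟩⟩
  induction a using Quotient.inductionOn
  induction b using Quotient.inductionOn
  exact Quotient.sound trivial

theorem q_anti [Finite V] {P Q : Setoid V} (h : P ≤ Q) : q Q ≤ q P := by
  refine Nat.card_le_card_of_surjective (Quotient.map' id fun a b hab => h hab) ?_
  intro y
  induction y using Quotient.inductionOn with
  | h a => exact ⟨Quotient.mk _ a, rfl⟩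

theorem q_le_card [Fintype V] (P : Setoid V) : q P ≤ Fintype.card V :=
  q_bot (V := V) ▸ q_anti bot_le

theorem q_pos [Finite V] [Nonempty V] (P : Setoid V) : 1 ≤ q P :=
  q_top (V := V) ▸ q_anti le_top

theorem q_sup_link [Finite V] {P : Setoid V} {a b : V} (h : ¬ P a b) :
    q (P ⊔ link a b) + 1 = q P := by
  classical
  have : Fintype (Quotient P) := Fintype.ofFinite _
  let f : {c : Quotient P // c ≠ Quotient.mk P b} → Quotient (P ⊔ link a b) :=
    fun c => Quotient.map' id (fun _ _ hab => (le_sup_left : P ≤ _) hab) c.1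
  have hf : Function.Bijective f := by
    constructor
    · rintro ⟨x, hx⟩ ⟨y, hy⟩ hxy
      induction x using Quotient.inductionOn with
      | h x =>
      induction y using Quotient.inductionOn with
      | h y =>
      have h1 : (P ⊔ link a b) x y := Quotient.exact hxy
      rcases sup_link_iff.1 h1 with h2 | ⟨_, h3⟩ | ⟨h2, _⟩
      · exact Subtype.ext (Quotient.sound h2)
      · exact absurd (Quotient.sound (P.symm' h3)) hy
      · exact absurd (Quotient.sound h2) hx
    · intro y
      induction y using Quotient.inductionOn with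
      | h y =>
      by_cases hy : P y b
      · refine ⟨⟨Quotient.mk P a, fun h' => h (Quotient.exact h')⟩, Quotient.sound ?_⟩
        exact sup_link_iff.2 (Or.inr (Or.inl ⟨P.refl' a, P.symm' hy⟩))
      · exact ⟨⟨Quotient.mk P y, fun h' => hy (Quotient.exact h')⟩, rfl⟩
  rw [q, q, ← Nat.card_eq_of_bijective f hf, Nat.card_eq_fintype_card, Nat.card_eq_fintype_card,
    Fintype.card_subtype_compl, Fintype.card_subtype_eq]
  have : 0 < Fintype.card (Quotient P) := Fintype.card_pos_iff.2 ⟨Quotient.mk P b⟩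
  omega

theorem q_le_sup_link [Finite V] (P : Setoid V) (a b : V) : q P ≤ q (P ⊔ link a b) + 1 := by
  by_cases h : P a b
  · rw [sup_link_of_rel h]; omega
  · exact (q_sup_link h).ge

theorem q_sup_gen [Finite V] (s t : α → V) (A : Finset α) {R P : Setoid V} (h : R ≤ P) :
    q (R ⊔ gen s t A) + q P ≤ q R + q (P ⊔ gen s t A) := by
  classical
  induction A using Finset.induction_on with
  | empty => simp [gen_empty]
  | insert e A _ ih =>
    rw [gen_insert, ← sup_assoc, ← sup_assoc]
    by_cases h1 : (R ⊔ gen s t A) (s e) (t e)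
    · rw [sup_link_of_rel h1, sup_link_of_rel (sup_le_sup_right h _ h1)]
      exact ih
    · have := q_sup_link h1
      have := q_le_sup_link (P ⊔ gen s t A) (s e) (t e)
      omega

theorem q_submod [Finite V] (P Q : Setoid V) : q P + q Q ≤ q (P ⊓ Q) + q (P ⊔ Q) := by
  classical
  have := Fintype.ofFinite V
  have hQ : gen Prod.fst Prod.snd (univ.filter fun p : V × V => Q p.1 p.2) = Q :=
    le_antisymm (gen_le_iff.2 fun e he => (mem_filter.1 he).2) fun a b hab =>
      gen_rel (s := Prod.fst) (t := Prod.snd) (e := (a, b)) (by simpa using hab)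
  have := q_sup_gen Prod.fst Prod.snd (univ.filter fun p : V × V => Q p.1 p.2)
    (inf_le_left : P ⊓ Q ≤ P)
  rw [hQ, sup_eq_right.2 inf_le_right] at this
  omega

theorem eq_of_le_of_q_le [Finite V] {P Q : Setoid V} (h : P ≤ Q) (hq : q P ≤ q Q) : P = Q := by
  by_contra hne
  have : ∃ a b, Q a b ∧ ¬ P a b := by
    by_contra hc
    push Not at hc
    exact hne (le_antisymm h fun a b hab => hc a b hab)
  obtain ⟨a, b, h1, h2⟩ := this
  have := q_sup_link h2
  have := q_anti (sup_le h (link_le_iff.2 h1))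
  omega

/-- The partition into `S` and its complement. -/
def two (S : Finset V) : Setoid V := Setoid.ker fun v => v ∈ S

theorem cross_two [Fintype E] (s t : E → V) (S : Finset V) : cross s t (two S) = cutS s t S := by
  ext e
  simp [two, Setoid.ker_def]

theorem two_le_q_two [Fintype V] {S : Finset V} (h1 : S.Nonempty) (h2 : S ≠ univ) :
    2 ≤ q (two S) := by
  obtain ⟨a, ha⟩ := h1
  obtain ⟨b, hb⟩ : ∃ b, b ∉ S := by
    by_contra hc
    push Not at hc
    exact h2 (eq_univ_of_forall hc)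
  have : Nonempty V := ⟨a⟩
  have h3 : ¬ two S a b := fun h => hb ((Setoid.ker_def.1 h) ▸ ha)
  have := q_sup_link h3
  have := q_pos (two S ⊔ link a b)
  omega

theorem Strength.le_cut [Fintype V] [Fintype E] [DecidableEq E] {s t : E → V} {F : Finset E}
    {κ : ℝ} (h : Strength s t F κ) (hκ : 0 ≤ κ) {S : Finset V} (h1 : S.Nonempty)
    (h2 : S ≠ univ) : κ ≤ ((F ∩ cutS s t S).card : ℝ) := by
  have h3 := h (two S)
  have h4 : (2 : ℝ) ≤ q (two S) := by exact_mod_cast two_le_q_two h1 h2
  rw [cross_two] at h3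
  nlinarith

theorem StrongAt.le_cut [Fintype V] [Fintype E] [DecidableEq E] {s t : E → V}
    {K : ℝ} (h : StrongAt s t K ⊤) (hK : 0 ≤ K) {S : Finset V} (h1 : S.Nonempty)
    (h2 : S ≠ univ) : K ≤ ((cutS s t S).card : ℝ) := by
  have : Nonempty V := ⟨h1.choose⟩
  have h3 := h (two S) le_top
  have h4 : (2 : ℝ) ≤ q (two S) := by exact_mod_cast two_le_q_two h1 h2
  rw [cross_two, cross_top, sdiff_empty, q_top] at h3
  push_cast at h3
  nlinarith

end Basic

section Forms

variable {V E : Type} [Fintype V] [DecidableEq V] [Fintype E]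

/-- Signed incidence vector of the pair `(a, b)`. -/
def bv (a b : V) : V → ℝ := Pi.single a 1 - Pi.single b 1

@[simp] theorem bv_dot (a b : V) (φ : V → ℝ) : bv a b ⬝ᵥ φ = φ a - φ b := by
  simp [bv, sub_dotProduct]

/-- Laplacian of the graph, plus the Laplacian of the weights `x`, plus `l` times the identity. -/
def Mx (s t : E → V) (x : V × V → ℝ) (l : ℝ) : Matrix V V ℝ :=
  ∑ e, vecMulVec (bv (s e) (t e)) (bv (s e) (t e)) +
    ∑ p, x p • vecMulVec (bv p.1 p.2) (bv p.1 p.2) + l • (1 : Matrix V V ℝ)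

/-- Effective resistance of a vector with respect to a matrix. -/
noncomputable def Res {ι : Type} [Fintype ι] [DecidableEq ι] (M : Matrix ι ι ℝ) (b : ι → ℝ) : ℝ :=
  b ⬝ᵥ M⁻¹ *ᵥ b

open Classical in
/-- Weight of the pairs separated by `S`. -/
noncomputable def xcut (x : V × V → ℝ) (S : Finset V) : ℝ :=
  ∑ p, if (p.1 ∈ S ↔ p.2 ∈ S) then 0 else x p

theorem vecMulVec_form {ι : Type} [Fintype ι] (b φ : ι → ℝ) :
    φ ⬝ᵥ vecMulVec b b *ᵥ φ = (b ⬝ᵥ φ) ^ 2 := by
  rw [vecMulVec_mulVec, dotProduct_smul, dotProduct_comm φ b]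
  simp [sq]

theorem Mx_form (s t : E → V) (x : V × V → ℝ) (l : ℝ) (φ : V → ℝ) :
    φ ⬝ᵥ Mx s t x l *ᵥ φ = ∑ e, (φ (s e) - φ (t e)) ^ 2 + ∑ p, x p * (φ p.1 - φ p.2) ^ 2 +
      l * ∑ v, φ v ^ 2 := by
  simp only [Mx, add_mulVec, dotProduct_add, sum_mulVec, dotProduct_sum, smul_mulVec,
    dotProduct_smul, vecMulVec_form, bv_dot, smul_eq_mul, one_mulVec]
  simp [dotProduct, sq]

theorem Mx_posDef (s t : E → V) {x : V × V → ℝ} (hx : ∀ p, 0 ≤ x p) {l : ℝ} (hl : 0 < l) :
    (Mx s t x l).PosDef := by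
  refine PosDef.of_dotProduct_mulVec_pos ?_ fun φ hφ => ?_
  · ext i j
    simp [Mx, Matrix.sum_apply, vecMulVec_apply, one_apply, mul_comm, eq_comm]
  · rw [star_trivial, Mx_form]
    have h1 : 0 ≤ ∑ e, (φ (s e) - φ (t e)) ^ 2 := sum_nonneg fun _ _ => sq_nonneg _
    have h2 : 0 ≤ ∑ p, x p * (φ p.1 - φ p.2) ^ 2 :=
      sum_nonneg fun p _ => mul_nonneg (hx p) (sq_nonneg _)
    obtain ⟨v, hv⟩ := Function.ne_iff.1 hφ
    have h3 : 0 < ∑ v, φ v ^ 2 :=
      sum_pos' (fun _ _ => sq_nonneg _) ⟨v, mem_univ _, sq_pos_of_ne_zero hv⟩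
    have := mul_pos hl h3
    linarith

end Forms

section Steiner

variable {V E α : Type}

/-- A pseudometric given as a function. -/
structure IsPM (d : V → V → ℝ) : Prop where
  self : ∀ a, d a a = 0
  symm : ∀ a b, d a b = d b a
  tri : ∀ a b c, d a c ≤ d a b + d b c

theorem IsPM.nonneg {d : V → V → ℝ} (h : IsPM d) (a b : V) : 0 ≤ d a b := by
  have := h.tri a b a
  rw [h.self, h.symm b a] at this
  linarith

/-- End points of a set of edges. -/
def ends [DecidableEq V] (s t : E → V) (A : Finset E) : Finset V := A.image s ∪ A.image t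

/-- A Steiner forest: pairs inside the classes of `P` connecting the terminals of each class. -/
def Valid (P : Setoid V) (T : Finset V) (Γ : Finset (V × V)) : Prop :=
  (∀ p ∈ Γ, P p.1 p.2) ∧ ∀ u ∈ T, ∀ v ∈ T, P u v → gen Prod.fst Prod.snd Γ u v

/-- Total length of a set of pairs. -/
def len (d : V → V → ℝ) (Γ : Finset (V × V)) : ℝ := ∑ p ∈ Γ, d p.1 p.2

/-- Degree of a vertex in an edge set. -/
def deg [DecidableEq V] (s t : α → V) (B : Finset α) (v : V) : ℕ :=
  (B.filter fun e => s e = v).card + (B.filter fun e => t e = v).card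

end Steiner

end Vale.Agent.P061
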