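import Vale.Agent.P061.Defs

/-! Level sets of the projection onto the partition polyhedron. -/

namespace Vale.Agent.P061

open Finset Matrix

variable {V E : Type} [Fintype V] [Fintype E] [DecidableEq E]

/-- The partition polyhedron. -/
def Qset (s t : E → V) (κ : ℝ) : Set (E → ℝ) :=
  {z | ∀ P : Setoid V, κ * ((q P : ℝ) - 1) ≤ ∑ e ∈ cross s t P, z e}

/-- Partitions whose constraint holds with equality. -/
def ProjTight (s t : E → V) (κ : ℝ) (z : E → ℝ) (P : Setoid V) : Prop :=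
  ∑ e ∈ cross s t P, z e ≤ κ * ((q P : ℝ) - 1)

theorem proj_uncross {s t : E → V} {κ : ℝ} (hκ : 0 < κ) {z : E → ℝ} (hz : z ∈ Qset s t κ)
    (h0 : ∀ e, 0 ≤ z e) {P Q : Setoid V} (hP : ProjTight s t κ z P) (hQ : ProjTight s t κ z Q) :
    ProjTight s t κ z (P ⊓ Q) ∧ ProjTight s t κ z (P ⊔ Q) ∧
      ∀ e ∈ cross s t P, e ∈ cross s t Q → 0 < z e → e ∈ cross s t (P ⊔ Q) := by
  have h1 : cross s t (P ⊔ Q) ⊆ cross s t P ∩ cross s t Q :=
    subset_inter (cross_anti s t le_sup_left) (cross_anti s t le_sup_right)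
  have h2 := sum_sdiff (f := z) h1
  have h3 := sum_union_inter (f := z) (s₁ := cross s t P) (s₂ := cross s t Q)
  have h4 : (q P : ℝ) + q Q ≤ q (P ⊓ Q) + q (P ⊔ Q) := by exact_mod_cast q_submod P Q
  have h5 := mul_le_mul_of_nonneg_left h4 hκ.le
  have h6 := hz (P ⊓ Q)
  have h7 := hz (P ⊔ Q)
  have h8 : 0 ≤ ∑ e ∈ (cross s t P ∩ cross s t Q) \ cross s t (P ⊔ Q), z e :=
    sum_nonneg fun e _ => h0 e
  rw [← cross_inf] at h3
  unfold ProjTight at *
  refine ⟨by linarith, by linarith, fun e he he' h => by_contra fun H => ?_⟩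
  have := single_le_sum (fun e _ => h0 e) (mem_sdiff.2 ⟨mem_inter.2 ⟨he, he'⟩, H⟩)
  linarith

omit [DecidableEq E] in
theorem proj_dir {s t : E → V} {κ : ℝ} {γ z : E → ℝ} (hz : z ∈ Qset s t κ)
    (hvar : ∀ z' ∈ Qset s t κ, ∑ e, (γ e - z e) * (z' e - z e) ≤ 0) (d : E → ℝ)
    (hd : ∀ P, ProjTight s t κ z P → 0 ≤ ∑ e ∈ cross s t P, d e) :
    ∑ e, (γ e - z e) * d e ≤ 0 := by
  have : Finite (Setoid V) := Finite.of_injective (fun P : Setoid V => P.r)
    fun P Q h => Setoid.ext fun a b => by rw [show P.r = Q.r from h]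
  have h1 : ∀ P : Setoid V, ∀ᶠ c in nhdsWithin (0 : ℝ) (Set.Ioi 0),
      κ * ((q P : ℝ) - 1) ≤ ∑ e ∈ cross s t P, z e + c * ∑ e ∈ cross s t P, d e := by
    intro P
    by_cases hP : ProjTight s t κ z P
    · filter_upwards [self_mem_nhdsWithin] with c hc
      exact (hz P).trans (le_add_of_nonneg_right (mul_nonneg (le_of_lt hc) (hd P hP)))
    · have h2 : Continuous fun c : ℝ => ∑ e ∈ cross s t P, z e + c * ∑ e ∈ cross s t P, d e := by
        fun_prop
      refine nhdsWithin_le_nhds ((h2.tendsto 0).eventually (eventually_ge_nhds ?_))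
      simpa using not_le.1 hP
  obtain ⟨c, h2, h3⟩ := ((Filter.eventually_all.2 h1).and self_mem_nhdsWithin).exists
  have h4 := hvar (fun e => z e + c * d e) fun P => by
    rw [sum_add_distrib, ← mul_sum]
    exact h2 P
  simp only [add_sub_cancel_left, mul_left_comm _ c, ← mul_sum] at h4
  exact nonpos_of_mul_nonpos_right h4 h3

theorem proj_level [Nonempty V] {s t : E → V} {κ : ℝ} (hκ : 0 < κ) {γ z : E → ℝ}
    (hγ0 : ∀ e, 0 ≤ γ e) (hw : ∀ e, γ e ≤ z e) (hz : z ∈ Qset s t κ)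
    (hvar : ∀ z' ∈ Qset s t κ, ∑ e, (γ e - z e) * (z' e - z e) ≤ 0) {θ : ℝ} (hθ : 0 < θ)
    {A : Finset E} (hA : ∀ e, e ∈ A ↔ θ ≤ z e - γ e) :
    ∃ Q, ProjTight s t κ z Q ∧ cross s t Q = A := by
  have h0 : ∀ e, 0 ≤ z e := fun e => (hγ0 e).trans (hw e)
  have one : ∀ e ∈ A, ∀ B : Finset E, (∀ f ∈ B, f ∉ A) →
      ∃ P, ProjTight s t κ z P ∧ e ∈ cross s t P ∧ ∀ f ∈ B, f ∉ cross s t P := by
    intro e he B hB
    have he' := (hA e).1 he
    induction B using Finset.induction_on with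
    | empty =>
      by_contra H
      push Not at H
      have := proj_dir hz hvar (fun x => if x = e then -1 else 0) fun P hP => by
        rw [sum_ite_eq', if_neg fun h => by simpa using H P hP h]
      simp only [mul_ite, mul_zero, sum_ite_eq', mem_univ, if_true] at this
      linarith
    | insert f B _ ih =>
      obtain ⟨P, h1, h2, h3⟩ := ih fun g hg => hB g (mem_insert_of_mem hg)
      have hf := not_le.1 fun h => hB f (mem_insert_self _ _) ((hA f).2 h)
      obtain ⟨Q, g1, g2, g3⟩ : ∃ Q, ProjTight s t κ z Q ∧ e ∈ cross s t Q ∧ f ∉ cross s t Q := by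
        by_contra H
        push Not at H
        have := proj_dir hz hvar (fun x => (if x = f then 1 else 0) - if x = e then 1 else 0)
          fun P hP => by
            rw [sum_sub_distrib, sum_ite_eq', sum_ite_eq']
            by_cases h : e ∈ cross s t P
            · rw [if_pos h, if_pos (H P hP h), sub_self]
            · rw [if_neg h]
              split_ifs <;> norm_num
        simp only [mul_sub, sum_sub_distrib, mul_ite, mul_zero, sum_ite_eq', mem_univ,
          if_true] at this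
        linarith
      obtain ⟨-, u1, u2⟩ := proj_uncross hκ hz h0 h1 g1
      refine ⟨P ⊔ Q, u1, u2 e h2 g2 (by linarith [hγ0 e]), fun g hg H => ?_⟩
      rcases mem_insert.1 hg with rfl | hg
      · exact g3 (cross_anti s t le_sup_right H)
      · exact h3 g hg (cross_anti s t le_sup_left H)
  have all : ∀ B ⊆ A, ∃ Q, ProjTight s t κ z Q ∧ B ⊆ cross s t Q ∧ cross s t Q ⊆ A := by
    intro B hB
    induction B using Finset.induction_on with
    | empty => exact ⟨⊤, by simp [ProjTight, cross_top, q_top], empty_subset _, by simp [cross_top]⟩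
    | insert e B _ ih =>
      obtain ⟨P, h1, h2, h3⟩ := ih ((subset_insert _ _).trans hB)
      obtain ⟨Q, g1, g2, g3⟩ := one e (hB (mem_insert_self _ _)) Aᶜ fun f hf => mem_compl.1 hf
      refine ⟨P ⊓ Q, (proj_uncross hκ hz h0 h1 g1).1, ?_, ?_⟩ <;> rw [cross_inf]
      · exact insert_subset (mem_union_right _ g2) (h2.trans subset_union_left)
      · exact union_subset h3 fun f hf => by_contra fun H => g3 f (mem_compl.2 H) hf
  obtain ⟨Q, h1, h2, h3⟩ := all A le_rfl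
  exact ⟨Q, h1, h3.antisymm h2⟩

open Classical in
theorem levels [Nonempty V] (s t : E → V) {κ : ℝ} (hκ : 0 < κ) (hG : Strength s t univ κ)
    (γ z : E → ℝ) (hγ0 : ∀ e, 0 ≤ γ e) (hγ1 : ∀ e, γ e ≤ 1) (hz : z ∈ Qset s t κ)
    (hvar : ∀ z' ∈ Qset s t κ, ∑ e, (γ e - z e) * (z' e - z e) ≤ 0) :
    (∀ e, γ e ≤ z e) ∧ ∃ P : ℕ → Setoid V, Antitone P ∧
      (∀ j, (cross s t (P j)).card ≤ 2 ^ j) ∧ (∀ j, StrongAt s t (κ / 2) (P j)) ∧
      ∀ θ : ℝ, 0 < θ → ∀ A : Finset E, A = (univ.filter fun e => θ ≤ z e - γ e) → A.Nonempty →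
        (∃ j, A ⊆ cross s t (P j) ∧ 2 ^ j ≤ 2 * A.card) ∧
        ∃ Q : Setoid V, cross s t Q = A ∧ ∑ e ∈ A, γ e ≤ κ * ((q Q : ℝ) - 1) := by
  have hw : ∀ e, γ e ≤ z e := fun e => by
    have := proj_dir hz hvar (fun x => if x = e then 1 else 0) fun P _ =>
      sum_nonneg fun x _ => by split_ifs <;> norm_num
    simpa only [mul_ite, mul_zero, sum_ite_eq', mem_univ, if_true, mul_one, sub_nonpos] using this
  have h0 : ∀ e, 0 ≤ z e := fun e => (hγ0 e).trans (hw e)
  have lev : ∀ θ : ℝ, 0 < θ →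
      ∃ Q, ProjTight s t κ z Q ∧ cross s t Q = univ.filter fun e => θ ≤ z e - γ e :=
    fun θ hθ => proj_level hκ hγ0 hw hz hvar hθ (by simp)
  have h2 : ∀ e, z e ≤ 2 := fun e => by
    by_contra H
    have h1 : 1 < z e - γ e := by linarith [hγ1 e]
    obtain ⟨Q, g1, g2⟩ := lev _ (one_pos.trans h1)
    have g3 := hG Q
    rw [univ_inter, card_eq_sum_ones, Nat.cast_sum] at g3
    refine (g1.trans g3).not_gt (sum_lt_sum_of_nonempty ⟨e, by simp [g2]⟩ fun f hf => ?_)
    have := (mem_filter.1 (g2 ▸ hf)).2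
    rw [Nat.cast_one]
    linarith [hγ0 f]
  have st : ∀ P, ProjTight s t κ z P → StrongAt s t (κ / 2) P := fun P hP Q hQ => by
    have g1 := sum_sdiff (f := z) (cross_anti s t hQ)
    have g2 := sum_le_card_nsmul (cross s t Q \ cross s t P) z 2 fun e _ => h2 e
    have g3 := hz Q
    rw [nsmul_eq_mul] at g2
    unfold ProjTight at hP
    linarith
  let L : Finset E → Prop := fun A =>
    A = ∅ ∨ ∃ θ : ℝ, 0 < θ ∧ A = univ.filter fun e => θ ≤ z e - γ e
  have ch : ∀ A B, L A → L B → A ⊆ B ∨ B ⊆ A := by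
    rintro A B (rfl | ⟨a, -, rfl⟩) (rfl | ⟨b, -, rfl⟩)
    · exact Or.inl le_rfl
    · exact Or.inl (empty_subset _)
    · exact Or.inr (empty_subset _)
    · exact (le_total b a).imp (fun h => monotone_filter_right _ fun e _ he => h.trans he)
        fun h => monotone_filter_right _ fun e _ he => h.trans he
  have mx : ∀ j, ∃ Q, ProjTight s t κ z Q ∧ L (cross s t Q) ∧ (cross s t Q).card ≤ 2 ^ j ∧
      ∀ B, L B → B.card ≤ 2 ^ j → B ⊆ cross s t Q := fun j => by
    obtain ⟨A, hA, hm⟩ := exists_max_image (univ.filter fun A => L A ∧ A.card ≤ 2 ^ j) card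
      ⟨∅, mem_filter.2 ⟨mem_univ _, Or.inl rfl, by simp⟩⟩
    obtain ⟨-, g1, g2⟩ := mem_filter.1 hA
    obtain ⟨Q, g3, rfl⟩ : ∃ Q, ProjTight s t κ z Q ∧ cross s t Q = A := by
      rcases g1 with rfl | ⟨θ, hθ, rfl⟩
      · exact ⟨⊤, by simp [ProjTight, cross_top, q_top], cross_top s t⟩
      · exact lev θ hθ
    refine ⟨Q, g3, g1, g2, fun B hB hB' => (ch B _ hB g1).elim id fun h => ?_⟩
    exact (eq_of_subset_of_card_le h (hm B (mem_filter.2 ⟨mem_univ _, hB, hB'⟩))).ge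
  choose Pt p1 p2 p3 p4 using mx
  let P : ℕ → Setoid V := fun j => Nat.rec (Pt 0) (fun i R => R ⊓ Pt (i + 1)) j
  have hP : ∀ j, ProjTight s t κ z (P j) ∧ cross s t (P j) = cross s t (Pt j) := fun j => by
    induction j with
    | zero => exact ⟨p1 0, rfl⟩
    | succ j ih =>
      refine ⟨(proj_uncross hκ hz h0 ih.1 (p1 _)).1, (cross_inf s t _ _).trans ?_⟩
      refine union_eq_right.2 (ih.2.le.trans (p4 _ _ (p2 j) ((p3 j).trans ?_)))
      exact Nat.pow_le_pow_right two_pos j.le_succ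
  refine ⟨hw, P, antitone_nat_of_succ_le fun j => inf_le_left, fun j => (hP j).2 ▸ p3 j,
    fun j => st _ (hP j).1, fun θ hθ A hA hne => ⟨⟨Nat.log 2 A.card + 1, ?_, ?_⟩, ?_⟩⟩
  · exact (p4 _ A (Or.inr ⟨θ, hθ, hA⟩) (Nat.lt_pow_succ_log_self one_lt_two _).le).trans
      (hP (Nat.log 2 A.card + 1)).2.ge
  · rw [pow_succ']
    exact Nat.mul_le_mul_left 2 (Nat.pow_log_le_self 2 hne.card_pos.ne')
  · obtain ⟨Q, g1, g2⟩ := lev θ hθ
    rw [← hA] at g2
    exact ⟨Q, g2, g2 ▸ (sum_le_sum fun e _ => hw e).trans g1⟩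

end Vale.Agent.P061
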