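import Vale.Agent.P061.Chain2
import Vale.Agent.P061.Proj
import Vale.Agent.Lib.Brouwer

/-! The edges of small resistance form a strong subgraph (fixed point argument). -/

namespace Vale.Agent.P061

open Finset Matrix

theorem gd_proj {ι : Type} [Fintype ι] {K : Set (ι → ℝ)} (hne : K.Nonempty) (hcl : IsClosed K)
    (hcv : Convex ℝ K) : ∃ π : (ι → ℝ) → ι → ℝ, Continuous π ∧ (∀ u, π u ∈ K) ∧
      ∀ u, ∀ w ∈ K, ∑ i, (u i - π u i) * (w i - π u i) ≤ 0 := by
  let L := EuclideanSpace.equiv ι ℝ
  have h1 : (L ⁻¹' K).Nonempty := ⟨L.symm hne.choose, by simpa using hne.choose_spec⟩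
  have h2 : IsClosed (L ⁻¹' K) := hcl.preimage L.continuous
  have h3 : Convex ℝ (L ⁻¹' K) := hcv.linear_preimage L.toLinearEquiv.toLinearMap
  choose p hp hp' using exists_norm_eq_iInf_of_complete_convex h1 h2.isComplete h3
  have hv := fun u => (norm_eq_iInf_iff_real_inner_le_zero h3 (hp u)).1 (hp' u)
  have hlip : LipschitzWith 1 p := by
    refine LipschitzWith.of_dist_le_mul fun u v => ?_
    rw [NNReal.coe_one, one_mul, dist_eq_norm, dist_eq_norm]
    have a1 := hv u (p v) (hp v)
    have a2 := hv v (p u) (hp u)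
    have a3 : ‖p u - p v‖ ^ 2 ≤ inner ℝ (u - v) (p u - p v) := by
      rw [← real_inner_self_eq_norm_sq]
      simp only [inner_sub_left, inner_sub_right] at a1 a2 ⊢
      linarith
    have a4 := a3.trans (real_inner_le_norm _ _)
    rcases (norm_nonneg (p u - p v)).eq_or_lt with h | h
    · rw [← h]
      exact norm_nonneg _
    · nlinarith
  refine ⟨fun u => L (p (L.symm u)), L.continuous.comp (hlip.continuous.comp L.symm.continuous),
    fun u => hp _, fun u w hw => ?_⟩
  have := hv (L.symm u) (L.symm w) (by simpa using hw)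
  rw [PiLp.inner_apply] at this
  refine le_trans (le_of_eq (sum_congr rfl fun i _ => ?_)) this
  simp [L, mul_comm]

theorem gd_layer {E : Type} [Fintype E] (a : E → ℝ) (n : ℕ) :
    ∀ w : E → ℝ, (univ.filter fun e => 0 < w e).card ≤ n → (∀ e, 0 ≤ w e) →
      (∀ θ : ℝ, 0 < θ → 0 ≤ ∑ e ∈ univ.filter fun e => θ ≤ w e, a e) → 0 ≤ ∑ e, w e * a e := by
  induction n with
  | zero =>
    intro w hw h0 _
    refine sum_nonneg fun e _ => le_of_eq ?_
    have : ¬ 0 < w e := by
      simpa using filter_eq_empty_iff.1 (card_eq_zero.1 (Nat.le_zero.1 hw)) (mem_univ e)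
    rw [le_antisymm (not_lt.1 this) (h0 e), zero_mul]
  | succ n ih =>
    intro w hw h0 h
    rcases (univ.filter fun e => 0 < w e).eq_empty_or_nonempty with he | he
    · exact ih w (by simp [he]) h0 h
    obtain ⟨e₀, he₀, hmin⟩ := exists_min_image _ w he
    have hμ : 0 < w e₀ := (mem_filter.1 he₀).2
    have h1 := ih (fun e => max (w e - w e₀) 0) (by
      have : (univ.filter fun e => 0 < max (w e - w e₀) 0) ⊂ univ.filter fun e => 0 < w e := by
        refine (ssubset_iff_of_subset fun e he => ?_).2 ⟨e₀, he₀, by simp⟩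
        simp only [mem_filter, mem_univ, true_and, lt_max_iff, lt_self_iff_false, or_false] at he ⊢
        linarith
      have := card_lt_card this
      omega) (fun e => le_max_right _ _) (fun θ hθ => by
      have := h (θ + w e₀) (by linarith)
      refine this.trans (le_of_eq (sum_congr (filter_congr fun e _ => ?_) fun _ _ => rfl))
      rw [le_max_iff, or_iff_left (not_le.2 hθ), le_sub_iff_add_le])
    have h2 := mul_nonneg hμ.le (h _ hμ)
    rw [sum_filter, mul_sum] at h2
    refine (add_nonneg h1 h2).trans (le_of_eq ?_)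
    rw [← sum_add_distrib]
    refine sum_congr rfl fun e _ => ?_
    split_ifs with hh
    · rw [max_eq_left (by linarith)]
      ring
    · have : ¬ 0 < w e := fun h' => hh (hmin e (mem_filter.2 ⟨mem_univ _, h'⟩))
      rw [max_eq_right (by linarith), le_antisymm (not_lt.1 this) (h0 e)]
      ring

variable {V E : Type} [Fintype V] [DecidableEq V] [Fintype E] [DecidableEq E]

open Classical in
theorem good_set (s t : E → V) {κ ε ρ τ l : ℝ} (hG : Strength s t univ κ) (hε : 0 < ε)
    (hε2 : ε ≤ 1 / 2) (hρ : 0 < ρ) (hτ : 1 ≤ τ) (hK : 10 ^ 7 * τ ^ 10 ≤ κ / 4)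
    (hgap : 64 / τ < ρ * ε) (hl : 0 < l) :
    ∃ x : V × V → ℝ, (∀ p, 0 ≤ x p) ∧
      (∀ S : Finset V, S.Nonempty → S ≠ univ → xcut x S ≤ 4 / τ * (cutS s t S).card) ∧
      Strength s t (univ.filter fun e => Res (Mx s t x l) (bv (s e) (t e)) ≤ 2 * ρ)
        ((1 - ε) * κ) := by
  have hτ0 : 0 < τ := by linarith
  have hκ : 0 < κ := by
    have : 0 < 10 ^ 7 * τ ^ 10 := by positivity
    linarith
  have hκ' : 0 < (1 - ε) * κ := mul_pos (by linarith) hκ
  rcases isEmpty_or_nonempty V with hV | hV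
  · refine ⟨0, fun _ => le_rfl, fun S hS => (hV.false hS.choose).elim, fun P => ?_⟩
    have h1 := q_le_card P
    rw [Fintype.card_eq_zero] at h1
    rw [Nat.le_zero.1 h1]
    have := Nat.cast_nonneg (α := ℝ)
      ((univ.filter fun e => Res (Mx s t 0 l) (bv (s e) (t e)) ≤ 2 * ρ) ∩ cross s t P).card
    push_cast
    linarith
  have hq : ∀ P : Setoid V, (0 : ℝ) ≤ (q P : ℝ) - 1 := fun P => by
    have : (1 : ℝ) ≤ q P := by exact_mod_cast q_pos P
    linarith
  have hG1 : ∀ P : Setoid V, κ * ((q P : ℝ) - 1) ≤ (cross s t P).card := fun P => by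
    simpa using hG P
  have hG' : Strength s t univ ((1 - ε) * κ) := fun P => by
    refine le_trans ?_ (hG P)
    nlinarith [mul_nonneg hκ.le (hq P)]
  set Ks : Set (V × V → ℝ) := {x | (∀ p, 0 ≤ x p) ∧ (∀ a, x (a, a) = 0) ∧
    ∀ S : Finset V, S.Nonempty → S ≠ univ → xcut x S ≤ 4 / τ * (cutS s t S).card} with hKs
  obtain ⟨πK, hKc, hKm, hKv⟩ := gd_proj (K := Ks)
    ⟨0, fun _ => le_rfl, fun _ => rfl, fun S _ _ => by simp only [c2_xcut]; simp; positivity⟩
    (by
      simp only [hKs, Set.ofPred_and, Set.ofPred_forall, c2_xcut]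
      refine (isClosed_iInter fun p => isClosed_le continuous_const (continuous_apply p)).inter
        ((isClosed_iInter fun a => isClosed_eq (continuous_apply _) continuous_const).inter
          (isClosed_iInter fun S => isClosed_iInter fun _ => isClosed_iInter fun _ =>
            isClosed_le (by fun_prop) continuous_const)))
    (fun x hx y hy a b ha hb hab => ⟨fun p => add_nonneg (mul_nonneg ha (hx.1 p))
      (mul_nonneg hb (hy.1 p)), fun v => by simp [hx.2.1 v, hy.2.1 v], fun S h1 h2 => by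
        have a1 := mul_le_mul_of_nonneg_left (hx.2.2 S h1 h2) ha
        have a2 := mul_le_mul_of_nonneg_left (hy.2.2 S h1 h2) hb
        have a3 : a * (4 / τ * (cutS s t S).card) + b * (4 / τ * (cutS s t S).card)
            = 4 / τ * (cutS s t S).card := by rw [← add_mul, hab, one_mul]
        simp only [c2_xcut, Pi.add_apply, Pi.smul_apply, smul_eq_mul, add_mul, sum_add_distrib,
          mul_assoc, ← mul_sum] at a1 a2 ⊢
        linarith⟩)
  obtain ⟨πQ, hQc, hQm, hQv⟩ := gd_proj (K := Qset s t ((1 - ε) * κ))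
    ⟨fun _ => 1, fun P => by simpa using hG' P⟩
    (by
      simp only [Qset, Set.ofPred_forall]
      exact isClosed_iInter fun P => isClosed_le continuous_const (by fun_prop))
    (fun x hx y hy a b ha hb hab P => by
      have a1 := mul_le_mul_of_nonneg_left (hx P) ha
      have a2 := mul_le_mul_of_nonneg_left (hy P) hb
      have a3 : a * ((1 - ε) * κ * ((q P : ℝ) - 1)) + b * ((1 - ε) * κ * ((q P : ℝ) - 1))
          = (1 - ε) * κ * ((q P : ℝ) - 1) := by rw [← add_mul, hab, one_mul]
      simp only [Pi.add_apply, Pi.smul_apply, smul_eq_mul, sum_add_distrib, ← mul_sum]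
      linarith)
  set φ : (V × V → ℝ) → E → V → ℝ := fun x e => (Mx s t x l)⁻¹ *ᵥ bv (s e) (t e) with hφ
  set γ : (V × V → ℝ) → E → ℝ := fun x e =>
    max 0 (min 1 (2 - Res (Mx s t x l) (bv (s e) (t e)) / ρ)) with hγ
  set g : (V × V → ℝ) → V × V → ℝ := fun x p =>
    ∑ e, (πQ (γ x) e - γ x e) * (φ x e p.1 - φ x e p.2) ^ 2 with hg
  have c1 : ∀ e, Continuous fun y => φ (πK y) e := fun e =>
    (continuousOn_inv_mulVec s t hl (bv (s e) (t e))).comp_continuous hKc fun y => (hKm y).1
  have c2 : Continuous fun y => γ (πK y) := by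
    refine continuous_pi fun e => continuous_const.max (continuous_const.min
      (continuous_const.sub (Continuous.div_const ?_ _)))
    exact continuous_const.dotProduct (c1 e)
  have c3 : Continuous fun y => g (πK y) := by
    refine continuous_pi fun p => continuous_finsetSum _ fun e _ => ?_
    exact (((continuous_apply e).comp (hQc.comp c2)).sub ((continuous_apply e).comp c2)).mul
      ((((continuous_apply p.1).comp (c1 e)).sub ((continuous_apply p.2).comp (c1 e))).pow 2)
  obtain ⟨x, hx⟩ := Lib.Brouwer.exists_fixed (fun y => πK (πK y + g (πK y)))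
    (hKc.comp (hKc.add c3)) (4 / τ * Fintype.card E) (fun y => by
      obtain ⟨a1, a2, a3⟩ := hKm (πK y + g (πK y))
      refine (pi_norm_le_iff_of_nonneg (by positivity)).2 fun p => ?_
      rw [Real.norm_of_nonneg (a1 p)]
      obtain ⟨u, v⟩ := p
      by_cases h : u = v
      · rw [h, a2]
        positivity
      · have b1 := a3 {u} (singleton_nonempty u) fun h' => h (mem_singleton.1 (h' ▸ mem_univ v)).symm
        have b2 := single_le_sum (f := fun p : V × V => πK (πK y + g (πK y)) p * c2Ind {u} p.1 p.2)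
          (fun p _ => mul_nonneg (a1 p) (by unfold c2Ind; split_ifs <;> norm_num)) (mem_univ (u, v))
        have b3 : c2Ind {u} u v = 1 := by simp [c2Ind, Ne.symm h]
        rw [← c2_xcut] at b2
        simp only [b3, mul_one] at b2
        refine b2.trans (b1.trans (mul_le_mul_of_nonneg_left ?_ (by positivity)))
        exact_mod_cast card_le_univ _)
  have hxK : x ∈ Ks := hx ▸ hKm _
  have hxx : πK x = x := by
    have h1 := hKv x x hxK
    funext p
    have h2 := (sum_eq_zero_iff_of_nonneg fun i _ => mul_self_nonneg (x i - πK x i)).1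
      (le_antisymm h1 (sum_nonneg fun i _ => mul_self_nonneg _)) p (mem_univ p)
    linarith [mul_self_eq_zero.1 h2]
  simp only [hxx] at hx
  have hM := Mx_posDef s t hxK.1 hl
  have hγ0 : ∀ e, 0 ≤ γ x e := fun e => le_max_left _ _
  have hγ1 : ∀ e, γ x e ≤ 1 := fun e => max_le zero_le_one (min_le_left _ _)
  obtain ⟨hw, P, hP, hc, hst, hlev⟩ := levels s t hκ' hG' (γ x) (πQ (γ x)) hγ0 hγ1 (hQm _) (hQv _)
  refine ⟨x, hxK.1, hxK.2.2, ?_⟩
  by_cases hz : ∀ e, πQ (γ x) e - γ x e = 0
  · intro Q
    refine (hQm (γ x) Q).trans ?_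
    rw [inter_comm, ← filter_mem_eq_inter, card_eq_sum_ones, sum_filter]
    push_cast
    refine sum_le_sum fun e _ => ?_
    rw [sub_eq_zero.1 (hz e)]
    split_ifs with h
    · exact hγ1 e
    · simp only [mem_filter, mem_univ, true_and, not_le] at h
      refine max_le le_rfl ((min_le_right _ _).trans ?_)
      rw [sub_nonpos, le_div_iff₀ hρ]
      exact h.le
  exfalso
  push Not at hz
  obtain ⟨x', b1, b2, b3, b4⟩ := chain s t P hP hc hτ hK hl
    (fun Q _ => by
      rw [cross_top, sdiff_empty, q_top]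
      refine le_trans ?_ (hG1 Q)
      push_cast
      nlinarith [mul_nonneg hκ.le (hq Q)])
    (fun j Q hQ => by
      refine le_trans (mul_le_mul_of_nonneg_right (by nlinarith) ?_) (hst j Q hQ)
      have : (q (P j) : ℝ) ≤ q Q := by exact_mod_cast q_anti hQ
      linarith)
  have hM' := Mx_posDef s t b1 hl
  have hw0 : ∀ e, 0 ≤ πQ (γ x) e - γ x e := fun e => sub_nonneg.2 (hw e)
  have h1 : ∑ e, (πQ (γ x) e - γ x e) * (Res (Mx s t x l) (bv (s e) (t e))
      - Res (Mx s t x' l) (bv (s e) (t e))) ≤ 0 := by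
    have a1 := hKv (x + g x) x' ⟨b1, b2, b3⟩
    rw [hx] at a1
    simp only [Pi.add_apply, add_sub_cancel_left, hg, sum_mul] at a1
    rw [sum_comm] at a1
    refine le_trans (sum_le_sum fun e _ => ?_) a1
    simp only [mul_assoc]
    rw [← mul_sum]
    refine mul_le_mul_of_nonneg_left ?_ (hw0 e)
    have a2 := res_var hM' (bv (s e) (t e)) (φ x e)
    have a3 := res_eq hM (bv (s e) (t e))
    rw [Mx_form] at a2 a3
    simp only [sub_mul, sum_sub_distrib, mul_comm ((φ x e _ - φ x e _) ^ 2)]
    simp only [hφ] at a2 ⊢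
    linarith
  have h2 := gd_layer (fun e => Res (Mx s t x l) (bv (s e) (t e))
    - Res (Mx s t x' l) (bv (s e) (t e)) - (ρ * ε - 64 / τ)) _ (fun e => πQ (γ x) e - γ x e) le_rfl
    hw0 fun θ hθ => by
      rcases (univ.filter fun e => θ ≤ πQ (γ x) e - γ x e).eq_empty_or_nonempty with he | he
      · rw [he, sum_empty]
      obtain ⟨⟨j, a1, a2⟩, Q, a3, a4⟩ := hlev θ hθ _ rfl he
      set A := univ.filter fun e => θ ≤ πQ (γ x) e - γ x e
      have a5 : ∑ e ∈ A, Res (Mx s t x' l) (bv (s e) (t e)) ≤ 64 / τ * A.card := by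
        refine (sum_le_sum_of_subset_of_nonneg a1 fun _ _ _ => res_nonneg hM' _).trans
          ((b4 j).trans ?_)
        have a6 : (2 : ℝ) ^ j ≤ 2 * A.card := by exact_mod_cast a2
        calc 32 / τ * 2 ^ j ≤ 32 / τ * (2 * A.card) := by gcongr
          _ = _ := by ring
      have a7 : ∑ e ∈ A, ρ * (1 - γ x e) ≤ ∑ e ∈ A, Res (Mx s t x l) (bv (s e) (t e)) := by
        refine sum_le_sum fun e _ => ?_
        have c0 := res_nonneg hM (bv (s e) (t e))
        rcases min_le_iff.1 (le_max_right 0 _ : min 1 _ ≤ γ x e) with h | h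
        · nlinarith
        · have := (le_div_iff₀ hρ).1 (show 2 - γ x e ≤ _ by linarith)
          nlinarith
      have a8 := hG1 Q
      rw [a3] at a8
      rw [← mul_sum, sum_sub_distrib, sum_const, nsmul_eq_mul, mul_one] at a7
      rw [sum_sub_distrib, sum_sub_distrib, sum_const, nsmul_eq_mul]
      have a9 : ∑ e ∈ A, γ x e ≤ (1 - ε) * A.card := by
        refine a4.trans ?_
        rw [mul_assoc]
        exact mul_le_mul_of_nonneg_left a8 (by linarith)
      nlinarith
  obtain ⟨e₀, he₀⟩ := hz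
  have h3 : 0 < ∑ e, (πQ (γ x) e - γ x e) :=
    sum_pos' (fun e _ => hw0 e) ⟨e₀, mem_univ _, lt_of_le_of_ne (hw0 e₀) he₀.symm⟩
  simp only [mul_sub (πQ (γ x) _ - γ x _) (_ - _) (ρ * ε - 64 / τ), sum_sub_distrib,
    ← sum_mul] at h2
  rw [← sum_sub_distrib] at h2
  nlinarith

end Vale.Agent.P061
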