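import Vale.Agent.P061.Core

/-! A spread subspace of edge functions that certifies strength. -/

namespace Vale.Agent.P061

open Finset Matrix

theorem low_q_comap {V U : Type} {f : V → U} (hf : Function.Surjective f) (Q : Setoid U) :
    q (Q.comap f) = q Q := by
  rw [Setoid.comap_eq]
  exact Nat.card_congr (Setoid.quotientKerEquivOfSurjective _ (Quotient.mk''_surjective.comp hf))

theorem low_cross_comap {V U E : Type} [Fintype E] (s t : E → V) (f : V → U) (Q : Setoid U) :
    cross (f ∘ s) (f ∘ t) Q = cross s t (Q.comap f) := by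
  ext e; simp only [mem_cross]; rfl

/-- Potential differences along the edges of `C`. -/
def lowGrad {V E : Type} [DecidableEq E] (s t : E → V) (C : Finset E) :
    (V → ℝ) →ₗ[ℝ] (E → ℝ) where
  toFun φ e := if e ∈ C then φ (s e) - φ (t e) else 0
  map_add' φ ψ := by funext e; by_cases h : e ∈ C <;> simp [h]; ring
  map_smul' c φ := by funext e; by_cases h : e ∈ C <;> simp [h]; ring

theorem low_count {V E : Type} [Fintype V] [Fintype E] [DecidableEq E] (s t : E → V)
    (C H : Finset E) {θ : ℝ} (Q : Setoid V)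
    (h : ∀ φ, θ * ∑ f, lowGrad s t C φ f ^ 2 ≤ ∑ f ∈ H, lowGrad s t C φ f ^ 2) :
    θ * ((C ∩ cross s t Q).card : ℝ) ≤ ((H ∩ (C ∩ cross s t Q)).card : ℝ) := by
  classical
  have : Fintype (Quotient Q) := Fintype.ofFinite _
  have key : ∀ f, ∑ c : Quotient Q,
      lowGrad s t C (fun v => if Quotient.mk Q v = c then 1 else 0) f ^ 2 =
        2 * if f ∈ C ∩ cross s t Q then 1 else 0 := by
    intro f
    by_cases h1 : f ∈ C
    · by_cases h2 : Q (s f) (t f)
      · simp [lowGrad, h1, h2, Quotient.sound h2]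
      · have h3 : Quotient.mk Q (s f) ≠ Quotient.mk Q (t f) := fun e => h2 (Quotient.exact e)
        have : ∀ c : Quotient Q, ((if Quotient.mk Q (s f) = c then (1 : ℝ) else 0) -
            if Quotient.mk Q (t f) = c then 1 else 0) ^ 2 =
            (if Quotient.mk Q (s f) = c then 1 else 0) +
              if Quotient.mk Q (t f) = c then 1 else 0 := fun c => by
          split_ifs with a b b
          · exact absurd (a.trans b.symm) h3
          all_goals norm_num
        simp only [lowGrad, LinearMap.coe_mk, AddHom.coe_mk, h1, if_true, this, sum_add_distrib,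
          sum_ite_eq, mem_univ, mem_inter, mem_cross, h2, not_false_eq_true, and_self]
        norm_num
    · simp [lowGrad, h1]
  have := sum_le_sum fun (c : Quotient Q) (_ : c ∈ univ) =>
    h fun v => if Quotient.mk Q v = c then 1 else 0
  rw [← mul_sum, sum_comm, sum_comm (s := univ) (t := H)] at this
  simp only [key, ← mul_sum, sum_ite_mem, univ_inter, sum_const, nsmul_eq_mul, mul_one] at this
  linarith

theorem lower_system {E : Type} [Fintype E] [DecidableEq E] {κ β : ℝ} (hβ : 2 ≤ β)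
    (hκ : 1 < κ - β * Real.log (2 * κ + 2)) (hκ0 : 1 < κ) (F : Finset E)
    (V : Type) [Fintype V] [DecidableEq V] (s t : E → V) (hF : Strength s t F κ) :
    ∃ F' ⊆ F, ∃ W : Submodule ℝ (E → ℝ), (∀ x ∈ W, ∀ e, e ∉ F' → x e = 0) ∧
      (∀ x ∈ W, ∀ e, x e ^ 2 ≤ 2 / β * ∑ f, x f ^ 2) ∧
      ∀ H ⊆ F', ∀ θ : ℝ, 0 ≤ θ → (∀ x ∈ W, θ * ∑ f, x f ^ 2 ≤ ∑ f ∈ H, x f ^ 2) →
        Strength s t H (θ * (κ - β * Real.log (2 * κ + 2))) := by
  obtain ⟨n, hn⟩ : ∃ n, Fintype.card V = n := ⟨_, rfl⟩
  induction n using Nat.strong_induction_on generalizing V F with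
  | _ n ih =>
  by_cases hV : Fintype.card V ≤ 1
  · refine ⟨∅, empty_subset _, ⊥, fun x hx e _ => by rw [(Submodule.mem_bot ℝ).1 hx]; rfl,
      fun x hx e => by simp [(Submodule.mem_bot ℝ).1 hx], fun H _ θ hθ _ P => ?_⟩
    have : (q P : ℝ) ≤ 1 := by exact_mod_cast (q_le_card P).trans hV
    exact (mul_nonpos_of_nonneg_of_nonpos (mul_nonneg hθ (by linarith)) (by linarith)).trans
      (Nat.cast_nonneg _)
  classical
  obtain ⟨C, hCF, ⟨e₀, he₀⟩, hne, hres, hstr⟩ := core s t F hβ hκ hκ0 hF (by omega)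
  generalize κ - β * Real.log (2 * κ + 2) = k₂ at *
  have : Fintype (Quotient (gen s t C)) := Fintype.ofFinite _
  have hlt : Fintype.card (Quotient (gen s t C)) < n := by
    by_contra h
    have h1 : q (⊥ : Setoid V) ≤ q (gen s t C) := by
      rw [q_bot, q, Nat.card_eq_fintype_card]; omega
    have h2 := gen_rel (s := s) (t := t) he₀
    rw [← eq_of_le_of_q_le bot_le h1] at h2
    exact hne e₀ he₀ h2
  have hsurj : Function.Surjective (Quotient.mk (gen s t C)) := Quotient.mk_surjective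
  obtain ⟨F₁, hF₁, W₁, w1, w2, w3⟩ := ih _ hlt (F ∩ cross s t (gen s t C)) (Quotient (gen s t C))
    (Quotient.mk _ ∘ s) (Quotient.mk _ ∘ t) (fun Q => by
      have := hF (Q.comap (Quotient.mk _))
      rw [low_q_comap hsurj] at this
      rwa [low_cross_comap, inter_assoc, inter_eq_right.2 (cross_anti s t fun a b h => by
        rw [Setoid.comap_rel, Quotient.sound h])]) rfl
  have hdis : ∀ e ∈ C, e ∉ F₁ := fun e he h =>
    mem_cross.1 (mem_inter.1 (hF₁ h)).2 (gen_rel he)
  have hβ0 : 0 ≤ 2 / β := by positivity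
  refine ⟨C ∪ F₁, union_subset hCF (hF₁.trans inter_subset_left),
    LinearMap.range (lowGrad s t C) ⊔ W₁, fun x hx e he => ?_, fun x hx e => ?_,
    fun H _ θ hθ h Q => ?_⟩
  · obtain ⟨_, ⟨φ, rfl⟩, y, hy, rfl⟩ := Submodule.mem_sup.1 hx
    rw [mem_union, not_or] at he
    simp [lowGrad, he.1, w1 y hy e he.2]
  · obtain ⟨_, ⟨φ, rfl⟩, y, hy, rfl⟩ := Submodule.mem_sup.1 hx
    have e1 : ∑ f, (lowGrad s t C φ + y) f ^ 2 =
        ∑ f ∈ C, (φ (s f) - φ (t f)) ^ 2 + ∑ f, y f ^ 2 := by
      rw [← univ_inter C, ← sum_ite_mem, ← sum_add_distrib]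
      refine sum_congr rfl fun f _ => ?_
      by_cases hf : f ∈ C
      · simp [lowGrad, hf, w1 y hy f (hdis f hf)]
      · simp [lowGrad, hf]
    have a1 := mul_nonneg hβ0 (sum_nonneg fun f (_ : f ∈ C) => sq_nonneg (φ (s f) - φ (t f)))
    have a2 := mul_nonneg hβ0 (sum_nonneg fun f (_ : f ∈ univ) => sq_nonneg (y f))
    rw [e1, mul_add]
    by_cases he : e ∈ C
    · have := hres e he φ
      simp only [lowGrad, LinearMap.coe_mk, AddHom.coe_mk, Pi.add_apply, he, if_true,
        w1 y hy e (hdis e he), add_zero]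
      linarith
    · have := w2 y hy e
      simp only [lowGrad, LinearMap.coe_mk, AddHom.coe_mk, Pi.add_apply, he, if_false, zero_add]
      linarith
  · have a1 := low_count s t C H Q fun φ => h _ (Submodule.mem_sup_left ⟨φ, rfl⟩)
    have a2 := w3 (H ∩ F₁) inter_subset_right θ hθ (fun x hx => by
      refine (h x (Submodule.mem_sup_right hx)).trans_eq (sum_subset inter_subset_left ?_).symm
      intro f h1 h2
      rw [w1 x hx f fun h3 => h2 (mem_inter.2 ⟨h1, h3⟩)]; simp)
      ((Q ⊔ gen s t C).map (Quotient.mk _))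
    rw [← low_q_comap hsurj, low_cross_comap, Setoid.comap_map_of_ker_le _ _
      (fun a b hab => (le_sup_right : gen s t C ≤ _) (Quotient.exact hab))] at a2
    have a3 := mul_le_mul_of_nonneg_left (hstr Q) hθ
    have a4 : (H ∩ (C ∩ cross s t Q)).card + (H ∩ F₁ ∩ cross s t (Q ⊔ gen s t C)).card ≤
        (H ∩ cross s t Q).card := by
      rw [← card_union_of_disjoint (disjoint_left.2 fun e h1 h2 =>
        hdis e (mem_inter.1 (mem_inter.1 h1).2).1 (mem_inter.1 (mem_inter.1 h2).1).2)]
      exact card_le_card (union_subset (inter_subset_inter_left inter_subset_right)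
        (inter_subset_inter inter_subset_left (cross_anti s t le_sup_left)))
    have a5 : (q Q : ℝ) + q (gen s t C) ≤ q (Q ⊓ gen s t C) + q (Q ⊔ gen s t C) := by
      exact_mod_cast q_submod Q (gen s t C)
    have a6 := mul_le_mul_of_nonneg_left a5 (mul_nonneg hθ (by linarith : 0 ≤ k₂))
    have a7 : ((H ∩ (C ∩ cross s t Q)).card : ℝ) +
        (H ∩ F₁ ∩ cross s t (Q ⊔ gen s t C)).card ≤ (H ∩ cross s t Q).card := by exact_mod_cast a4
    linarith

end Vale.Agent.P061
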