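import Vale.Agent.P061.MSSA

/-! Stable multi-affine functions: the averaging operator, barrier and selection. -/

namespace Vale.Agent.P061.MSS

open Filter Topology

variable {K : Type} [DecidableEq K]

/-- Complex coordinate vector. -/
def ec (k : K) : K → ℂ := Pi.single k 1

/-- Real coordinate vector. -/
def er (k : K) : K → ℝ := Pi.single k 1

/-- Complexification of a real point. -/
def cx (z : K → ℝ) : K → ℂ := fun k => z k

omit [DecidableEq K] in
theorem cx_add (z w : K → ℝ) : cx (z + w) = cx z + cx w := by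
  ext k; simp [cx]

omit [DecidableEq K] in
theorem cx_smul (s : ℝ) (z : K → ℝ) : cx (s • z) = (s : ℂ) • cx z := by
  ext k; simp [cx]

theorem cx_er (k : K) : cx (er k) = ec k := by
  ext j
  by_cases h : j = k
  · subst h; simp [cx, er, ec]
  · simp [cx, er, ec, h]

theorem er_nonneg (k : K) : 0 ≤ er k := fun j => by
  by_cases h : j = k
  · subst h; simp [er]
  · simp [er, h]

theorem ec_apply_ne {k j : K} (h : j ≠ k) : ec k j = 0 := by simp [ec, h]

theorem ec_apply_self (k : K) : ec k k = 1 := by simp [ec]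

theorem im_smul_ec {s : ℂ} (hs : 0 ≤ s.im) (k j : K) : 0 ≤ ((s • ec k) j).im := by
  by_cases h : j = k
  · subst h; simpa [ec_apply_self] using hs
  · simp [ec_apply_ne h]

theorem star_ec (k : K) : star (ec k) = ec k := by
  ext j
  by_cases h : j = k
  · subst h; simp [ec]
  · simp [ec, h]

omit [DecidableEq K] in
theorem star_cx (z : K → ℝ) : star (cx z) = cx z := by
  ext j; simp [cx]

/-- Stable functions that are affine in every coordinate except `o`. -/
structure Good (o : K) (g : (K → ℂ) → ℂ) : Prop where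
  aff : ∀ k, k ≠ o → ∀ z (s : ℂ), g (z + s • ec k) = g z + s * (g (z + ec k) - g z)
  stab : ∀ z, 0 < (z o).im → (∀ k, 0 ≤ (z k).im) → g z ≠ 0
  conj : ∀ z, g (star z) = star (g z)
  poly : ∀ z, ∃ q : Polynomial ℂ, ∀ ζ : ℂ, g (z + ζ • ec o) = q.eval ζ
  ev : ∀ z : K → ℝ, ∀ᶠ x : ℝ in atTop, 0 < (g (cx (z + x • er o))).re

/-- Real values. -/
def rv (g : (K → ℂ) → ℂ) (z : K → ℝ) : ℝ := (g (cx z)).re

variable {o : K} {g : (K → ℂ) → ℂ}

theorem Good.real (h : Good o g) (z : K → ℝ) : g (cx z) = (rv g z : ℂ) := by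
  have h1 := h.conj (cx z)
  rw [star_cx] at h1
  exact (Complex.conj_eq_iff_re.1 h1.symm).symm

theorem Good.cont (h : Good o g) (z : K → ℂ) : Continuous fun ζ : ℂ => g (z + ζ • ec o) := by
  obtain ⟨q, hq⟩ := h.poly z
  simp only [hq]
  exact q.continuous

theorem Good.pick_strict (h : Good o g) {k : K} (hk : k ≠ o) {z : K → ℂ} (h0 : 0 < (z o).im)
    (hz : ∀ j, 0 ≤ (z j).im) :
    g (z + ec k) - g z = 0 ∨ ((g (z + ec k) - g z) * star (g z)).im < 0 := by
  obtain ⟨D, hD⟩ : ∃ D, D = g (z + ec k) - g z := ⟨_, rfl⟩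
  rw [← hD]
  by_contra hcon
  push Not at hcon
  obtain ⟨h1, h2⟩ := hcon
  have hs : 0 ≤ (-g z / D).im := by
    rw [Complex.div_im]
    have h3 : 0 < Complex.normSq D := Complex.normSq_pos.2 h1
    rw [← sub_div]
    refine div_nonneg ?_ h3.le
    simp only [Complex.mul_im, Complex.star_def, Complex.conj_re, Complex.conj_im] at h2
    simp only [Complex.neg_im, Complex.neg_re]
    linarith
  refine h.stab (z + (-g z / D) • ec k) ?_ (fun j => ?_) ?_
  · simpa [ec_apply_ne hk.symm] using h0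
  · have := im_smul_ec hs k j
    have h4 := hz j
    simp only [Pi.add_apply, Complex.add_im]
    linarith
  · rw [h.aff k hk, ← hD]
    field_simp
    ring

theorem Good.pick (h : Good o g) {k : K} (hk : k ≠ o) {z : K → ℂ} (hz : ∀ j, 0 ≤ (z j).im) :
    ((g (z + ec k) - g z) * star (g z)).im ≤ 0 := by
  have hc : Continuous fun ε : ℝ => ((g (z + ec k + ((ε : ℂ) * Complex.I) • ec o) -
      g (z + ((ε : ℂ) * Complex.I) • ec o)) * star (g (z + ((ε : ℂ) * Complex.I) • ec o))).im := by
    have hl : Continuous fun ε : ℝ => (ε : ℂ) * Complex.I := by fun_prop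
    exact Complex.continuous_im.comp ((((h.cont _).comp hl).sub ((h.cont _).comp hl)).mul
      ((h.cont _).comp hl).star)
  have ht := (hc.tendsto 0).mono_left (nhdsWithin_le_nhds (s := Set.Ioi 0))
  simp only [Complex.ofReal_zero, zero_mul, zero_smul, add_zero] at ht
  refine le_of_tendsto ht ?_
  filter_upwards [self_mem_nhdsWithin] with ε hε
  have hε' : 0 < ε := hε
  have h1 : 0 < ((z + ((ε : ℂ) * Complex.I) • ec o) o).im := by
    have := hz o
    simp only [Pi.add_apply, Pi.smul_apply, ec_apply_self, smul_eq_mul, mul_one, Complex.add_im,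
      Complex.mul_im, Complex.ofReal_re, Complex.I_im, Complex.ofReal_im, Complex.I_re]
    linarith
  have h2 : ∀ j, 0 ≤ ((z + ((ε : ℂ) * Complex.I) • ec o) j).im := fun j => by
    have := im_smul_ec (s := (ε : ℂ) * Complex.I) (by simpa using hε'.le) o j
    have h4 := hz j
    simp only [Pi.add_apply, Complex.add_im]
    linarith
  rw [add_right_comm z]
  rcases h.pick_strict hk h1 h2 with h3 | h3
  · rw [h3]; simp
  · exact h3.le

/-- The averaging operator. -/
noncomputable def T (p : ℝ) (a b : K) (g : (K → ℂ) → ℂ) : (K → ℂ) → ℂ :=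
  fun z => (1 - (p : ℂ)) * g (z - ec a) + p * g (z - ec b)

theorem rv_T (p : ℝ) (a b : K) (g : (K → ℂ) → ℂ) (z : K → ℝ) :
    rv (T p a b g) z = (1 - p) * rv g (z - er a) + p * rv g (z - er b) := by
  have h : ∀ k, cx (z - er k) = cx z - ec k := fun k => by
    rw [← cx_er]; ext j; simp [cx]
  simp [rv, T, h]

theorem Good.sub (h : Good o g) {k : K} (hk : k ≠ o) (z : K → ℂ) :
    g (z - ec k) = g z - (g (z + ec k) - g z) := by
  have := h.aff k hk z (-1)
  rw [neg_one_smul, ← sub_eq_add_neg] at this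
  rw [this]
  ring

theorem Good.T (h : Good o g) {a b : K} (ha : a ≠ o) (hb : b ≠ o) {p : ℝ} (hp0 : 0 ≤ p)
    (hp1 : p ≤ 1) : Good o (T p a b g) where
  aff k hk z s := by
    simp only [MSS.T]
    rw [add_sub_right_comm z, add_sub_right_comm z, add_sub_right_comm z, add_sub_right_comm z,
      h.aff k hk, h.aff k hk (z - ec b)]
    ring
  stab z h0 hz := by
    intro hT
    simp only [MSS.T] at hT
    rw [h.sub ha, h.sub hb] at hT
    have hg := h.stab z h0 hz
    have hA := h.pick_strict ha h0 hz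
    have hB := h.pick_strict hb h0 hz
    obtain ⟨A, hA'⟩ : ∃ D, D = g (z + ec a) - g z := ⟨_, rfl⟩
    obtain ⟨B, hB'⟩ : ∃ D, D = g (z + ec b) - g z := ⟨_, rfl⟩
    rw [← hA'] at hT hA
    rw [← hB'] at hT hB
    have e1 : g z = (1 - (p : ℂ)) * A + p * B := by linear_combination hT
    have e2 : (1 - p) * (A * star (g z)).im + p * (B * star (g z)).im = 0 := by
      have e3 : g z * star (g z) = ((1 - p : ℝ) : ℂ) * (A * star (g z)) + p * (B * star (g z)) := by
        push_cast
        linear_combination (star (g z)) * e1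
      have e4 := congrArg Complex.im e3
      rw [Complex.add_im, Complex.im_ofReal_mul, Complex.im_ofReal_mul] at e4
      rw [← e4]
      simp [Complex.mul_conj]
    have hA1 : (A * star (g z)).im ≤ 0 := hA.elim (fun h1 => by simp [h1]) le_of_lt
    have hB1 : (B * star (g z)).im ≤ 0 := hB.elim (fun h1 => by simp [h1]) le_of_lt
    have hA2 : (1 - p) * (A * star (g z)).im = 0 := by
      nlinarith [mul_nonneg hp0 (neg_nonneg.2 hB1), mul_nonneg (sub_nonneg.2 hp1) (neg_nonneg.2 hA1)]
    have hB2 : p * (B * star (g z)).im = 0 := by linarith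
    have hA3 : (1 - (p : ℂ)) * A = 0 := by
      rcases mul_eq_zero.1 hA2 with h1 | h1
      · have : (1 - (p : ℂ)) = 0 := by exact_mod_cast h1
        simp [this]
      · rcases hA with h2 | h2
        · simp [h2]
        · exact absurd h1 h2.ne
    have hB3 : (p : ℂ) * B = 0 := by
      rcases mul_eq_zero.1 hB2 with h1 | h1
      · simp [h1]
      · rcases hB with h2 | h2
        · simp [h2]
        · exact absurd h1 h2.ne
    exact hg (by rw [e1, hA3, hB3, add_zero])
  conj z := by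
    simp only [MSS.T]
    rw [← star_ec a, ← star_ec b, ← star_sub, ← star_sub, h.conj, h.conj, star_ec, star_ec]
    simp
  poly z := by
    obtain ⟨q1, hq1⟩ := h.poly (z - ec a)
    obtain ⟨q2, hq2⟩ := h.poly (z - ec b)
    refine ⟨Polynomial.C (1 - (p : ℂ)) * q1 + Polynomial.C (p : ℂ) * q2, fun ζ => ?_⟩
    simp only [MSS.T]
    rw [add_sub_right_comm z, add_sub_right_comm z, hq1, hq2]
    simp
  ev z := by
    filter_upwards [h.ev (z - er a), h.ev (z - er b)] with x h1 h2
    change 0 < rv (MSS.T p a b g) (z + x • er o)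
    change 0 < rv g _ at h1 h2
    rw [rv_T, add_sub_right_comm z, add_sub_right_comm z]
    rcases hp0.eq_or_lt with h3 | h3
    · rw [← h3]; simpa using h1
    · nlinarith [mul_pos h3 h2, mul_nonneg (sub_nonneg.2 hp1) h1.le]

theorem Good.biaff (h : Good o g) {a b : K} (ha : a ≠ o) (hb : b ≠ o) (z : K → ℂ) (s t : ℂ) :
    g (z + s • ec a + t • ec b) = g z + s * (g (z + ec a) - g z) + t * (g (z + ec b) - g z) +
      s * t * (g (z + ec a + ec b) - g (z + ec a) - g (z + ec b) + g z) := by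
  rw [h.aff b hb, add_right_comm z (s • ec a) (ec b), h.aff a ha, h.aff a ha (z + ec b),
    add_right_comm z (ec b)]
  ring

theorem Good.biaff_cx (h : Good o g) {a b : K} (ha : a ≠ o) (hb : b ≠ o) (z : K → ℝ) (s t : ℂ) :
    g (cx z + s • ec a + t • ec b) = rv g z + s * (rv g (z + er a) - rv g z) +
      t * (rv g (z + er b) - rv g z) +
      s * t * (rv g (z + er a + er b) - rv g (z + er a) - rv g (z + er b) + rv g z) := by
  rw [h.biaff ha hb]
  simp only [← h.real, cx_add, cx_er]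

theorem Good.biaff_rv (h : Good o g) {a b : K} (ha : a ≠ o) (hb : b ≠ o) (z : K → ℝ) (s t : ℝ) :
    rv g (z + s • er a + t • er b) = rv g z + s * (rv g (z + er a) - rv g z) +
      t * (rv g (z + er b) - rv g z) +
      s * t * (rv g (z + er a + er b) - rv g (z + er a) - rv g (z + er b) + rv g z) := by
  have h1 := h.biaff_cx ha hb z s t
  rw [← cx_er, ← cx_er, ← cx_smul, ← cx_smul, ← cx_add, ← cx_add, h.real] at h1
  exact_mod_cast h1

theorem slope_nonneg {α β : ℝ} (h : ∀ s, 0 ≤ s → 0 ≤ α + s * β) : 0 ≤ β := by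
  by_contra hneg
  push Not at hneg
  have h0 : 0 ≤ α := by simpa using h 0 le_rfl
  have h1 := h (-(α + 1) / β) (div_nonneg_of_nonpos (by linarith) hneg.le)
  rw [div_mul_cancel₀ _ hneg.ne] at h1
  linarith

/-- The barrier invariant at all points above `z`. -/
def Inv (o : K) (θ : ℝ) (g : (K → ℂ) → ℂ) (z : K → ℝ) : Prop :=
  ∀ w, z ≤ w → 0 < rv g w ∧ ∀ v, v ≠ o → rv g (w + er v) - rv g w ≤ θ * rv g w

theorem Good.step (h : Good o g) {a b : K} (ha : a ≠ o) (hb : b ≠ o) {c θ : ℝ} (hc : 0 < c)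
    (hθ : c * (1 - θ) = 1) {z : K → ℝ} (hz : Inv o θ g z) :
    Inv o θ (MSS.T (1 / 2) a b g) (z + (c / 2) • er a + (c / 2) • er b) := by
  intro w' hw'
  obtain ⟨w, rfl⟩ : ∃ w, w' = w + (c / 2) • er a + (c / 2) • er b :=
    ⟨w' - (c / 2) • er a - (c / 2) • er b, by abel⟩
  have hw : z ≤ w := by simpa using hw'
  have hup : ∀ s t : ℝ, 0 ≤ s → 0 ≤ t → z ≤ w + s • er a + t • er b := fun s t hs ht =>
    le_add_of_le_of_nonneg (le_add_of_le_of_nonneg hw (smul_nonneg hs (er_nonneg a)))
      (smul_nonneg ht (er_nonneg b))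
  have hTv : ∀ y : K → ℝ, rv (MSS.T (1 / 2) a b g) (y + (c / 2) • er a + (c / 2) • er b) =
      (rv g (y + (c / 2 - 1) • er a + (c / 2) • er b) +
        rv g (y + (c / 2) • er a + (c / 2 - 1) • er b)) / 2 := fun y => by
    have e1 : y + (c / 2) • er a + (c / 2) • er b - er a =
        y + (c / 2 - 1) • er a + (c / 2) • er b := by module
    have e2 : y + (c / 2) • er a + (c / 2) • er b - er b =
        y + (c / 2) • er a + (c / 2 - 1) • er b := by module
    rw [rv_T, e1, e2]
    ring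
  have hc2 : 0 ≤ c / 2 := by linarith
  obtain ⟨hpos, hD⟩ := hz _ (hup _ _ hc2 hc2)
  have hDa := hD a ha
  have hDb := hD b hb
  have e3 : w + (c / 2) • er a + (c / 2) • er b + er a =
      w + (c / 2 + 1) • er a + (c / 2) • er b := by module
  have e4 : w + (c / 2) • er a + (c / 2) • er b + er b =
      w + (c / 2) • er a + (c / 2 + 1) • er b := by module
  rw [e3] at hDa
  rw [e4] at hDb
  have hQ := h.biaff_rv ha hb w
  obtain ⟨P0, hP0⟩ : ∃ x, x = rv g w := ⟨_, rfl⟩
  obtain ⟨c1, hc1⟩ : ∃ x, x = rv g (w + er a) - rv g w := ⟨_, rfl⟩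
  obtain ⟨c2, hc2'⟩ : ∃ x, x = rv g (w + er b) - rv g w := ⟨_, rfl⟩
  obtain ⟨c3, hc3⟩ : ∃ x, x = rv g (w + er a + er b) - rv g (w + er a) - rv g (w + er b) +
    rv g w := ⟨_, rfl⟩
  have hQc := h.biaff_cx ha hb w
  have hQc' : ∀ s t : ℂ, g (cx w + s • ec a + t • ec b) =
      P0 + s * c1 + t * c2 + s * t * c3 := fun s t => by
    rw [hQc, hP0, hc1, hc2', hc3]; push_cast; ring
  rw [← hc3, ← hc1, ← hc2', ← hP0] at hQ
  have hQpos : ∀ s t : ℝ, 0 ≤ s → 0 ≤ t → 0 < P0 + s * c1 + t * c2 + s * t * c3 :=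
    fun s t hs ht => hQ s t ▸ (hz _ (hup s t hs ht)).1
  have hP0pos : 0 < P0 := by simpa using hQpos 0 0 le_rfl le_rfl
  have hc1n : 0 ≤ c1 := slope_nonneg (α := P0) fun s hs => by simpa using (hQpos s 0 hs le_rfl).le
  have hc2n : 0 ≤ c2 := slope_nonneg (α := P0) fun s hs => by simpa using (hQpos 0 s le_rfl hs).le
  have hc3n : 0 ≤ c3 := slope_nonneg (α := c1) fun t ht =>
    slope_nonneg (α := P0 + t * c2) fun s hs => by have := hQpos s t hs ht; linarith
  rw [hQ, hQ] at hDa hDb
  rw [hQ] at hpos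
  have hθ1 : θ < 1 := by
    by_contra hneg
    push Not at hneg
    nlinarith [mul_nonneg hc.le (sub_nonneg.2 hneg)]
  refine ⟨?_, fun v hv => ?_⟩
  · rw [hTv, hQ, hQ]
    nlinarith [mul_pos (sub_pos.2 hθ1) hpos]
  · have e5 : w + (c / 2) • er a + (c / 2) • er b + er v =
        w + er v + (c / 2) • er a + (c / 2) • er b := by abel
    rw [e5, hTv, hTv, hQ, hQ]
    have hR := h.biaff_rv ha hb (w + er v)
    have hRc := h.biaff_cx ha hb (w + er v)
    obtain ⟨R0, hR0⟩ : ∃ x, x = rv g (w + er v) := ⟨_, rfl⟩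
    obtain ⟨d1, hd1⟩ : ∃ x, x = rv g (w + er v + er a) - rv g (w + er v) := ⟨_, rfl⟩
    obtain ⟨d2, hd2⟩ : ∃ x, x = rv g (w + er v + er b) - rv g (w + er v) := ⟨_, rfl⟩
    obtain ⟨d3, hd3⟩ : ∃ x, x = rv g (w + er v + er a + er b) - rv g (w + er v + er a) -
      rv g (w + er v + er b) + rv g (w + er v) := ⟨_, rfl⟩
    have hRc' : ∀ s t : ℂ, g (cx w + s • ec a + t • ec b + ec v) =
        R0 + s * d1 + t * d2 + s * t * d3 := fun s t => by
      have e6 : cx w + s • ec a + t • ec b + ec v = cx (w + er v) + s • ec a + t • ec b := by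
        rw [cx_add, cx_er]; abel
      rw [e6, hRc, hR0, hd1, hd2, hd3]; push_cast; ring
    rw [← hd3, ← hd1, ← hd2, ← hR0] at hR
    rw [hR, hR]
    have hn : R0 - P0 ≤ θ * P0 := by rw [hR0, hP0]; exact (hz w hw).2 v hv
    have hW : ∀ x : ℝ, ((d1 + d2 - (c1 + c2)) / 2 * P0 - (R0 - P0) * ((c1 + c2) / 2)) +
        2 * ((d3 - c3) / 4 * P0 - (R0 - P0) * (c3 / 4)) * x +
        ((d3 - c3) / 4 * ((c1 + c2) / 2) - (d1 + d2 - (c1 + c2)) / 2 * (c3 / 4)) * x ^ 2 ≤ 0 := by
      intro x
      have key : ∀ y : ℝ, 0 < y →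
          ((d1 + d2 - (c1 + c2)) / 2 * P0 - (R0 - P0) * ((c1 + c2) / 2)) +
          2 * ((d3 - c3) / 4 * P0 - (R0 - P0) * (c3 / 4)) * x +
          ((d3 - c3) / 4 * ((c1 + c2) / 2) - (d1 + d2 - (c1 + c2)) / 2 * (c3 / 4)) *
            (x ^ 2 + y ^ 2) ≤ 0 := by
        intro y hy
        obtain ⟨ζ, hζ⟩ : ∃ ζ : ℂ, ζ = ⟨x / 2, y / 2⟩ := ⟨_, rfl⟩
        have hre : ζ.re = x / 2 := by rw [hζ]
        have him : ζ.im = y / 2 := by rw [hζ]
        have h1 := h.pick hv (z := cx w + ζ • ec a + ζ • ec b) fun j => by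
          have h2 := im_smul_ec (s := ζ) (by rw [him]; linarith) a j
          have h3 := im_smul_ec (s := ζ) (by rw [him]; linarith) b j
          simp only [Pi.add_apply, Complex.add_im, cx, Complex.ofReal_im]
          linarith
        rw [hRc', hQc'] at h1
        simp only [Complex.mul_im, Complex.mul_re, Complex.sub_re, Complex.sub_im, Complex.add_re,
          Complex.add_im, Complex.star_def, Complex.conj_re, Complex.conj_im, Complex.ofReal_re,
          Complex.ofReal_im, hre, him] at h1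
        refine le_of_mul_le_mul_left ?_ hy
        linarith
      have hc' : Continuous fun y : ℝ =>
          ((d1 + d2 - (c1 + c2)) / 2 * P0 - (R0 - P0) * ((c1 + c2) / 2)) +
          2 * ((d3 - c3) / 4 * P0 - (R0 - P0) * (c3 / 4)) * x +
          ((d3 - c3) / 4 * ((c1 + c2) / 2) - (d1 + d2 - (c1 + c2)) / 2 * (c3 / 4)) *
            (x ^ 2 + y ^ 2) := by fun_prop
      have ht := (hc'.tendsto 0).mono_left (nhdsWithin_le_nhds (s := Set.Ioi 0))
      have := le_of_tendsto ht (eventually_mem_nhdsWithin.mono fun y hy => key y hy)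
      simpa using this
    have := real_step (P1 := (c1 + c2) / 2) (P2 := c3 / 4) (n1 := (d1 + d2 - (c1 + c2)) / 2)
      (n2 := (d3 - c3) / 4) hP0pos (by linarith) (by linarith) hc hθ hW hn (by linarith)
    linarith

theorem Good.ray_mono (h : Good o g) (z : K → ℝ) (hpos : ∀ x : ℝ, 0 ≤ x → 0 < rv g (z + x • er o))
    {x : ℝ} (hx : 0 ≤ x) : rv g (z + (0 : ℝ) • er o) ≤ rv g (z + x • er o) := by
  obtain ⟨q, hq⟩ := h.poly (cx z)
  have hr : ∀ y : ℝ, q.eval (y : ℂ) = rv g (z + y • er o) := fun y => by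
    rw [← hq, ← h.real, cx_add, cx_smul, cx_er]
  have hup : ∀ ζ : ℂ, 0 < ζ.im → g (cx z + ζ • ec o) ≠ 0 := fun ζ hζ =>
    h.stab _ (by simpa [cx, ec_apply_self] using hζ) fun j => by
      have := im_smul_ec hζ.le o j
      simpa [cx] using this
  have hroot : ∀ ζ : ℂ, q.eval ζ = 0 → ζ.re < 0 := fun ζ hζ => by
    rcases lt_trichotomy ζ.im 0 with h1 | h1 | h1
    · refine absurd ?_ (hup (star ζ) (by simpa using h1))
      have h2 := h.conj (cx z + ζ • ec o)
      rw [star_add, star_smul, star_cx, star_ec, hq ζ, hζ, star_zero] at h2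
      exact h2
    · by_contra hneg
      push Not at hneg
      have h2 : ζ = (ζ.re : ℂ) := Complex.ext rfl (by simpa using h1)
      rw [h2, hr] at hζ
      exact (hpos _ hneg).ne' (by exact_mod_cast hζ)
    · exact absurd (hq ζ ▸ hζ) (hup ζ h1)
  have h1 := norm_eval_mono q hroot hx
  rw [← Complex.ofReal_zero, hr, hr, Complex.norm_real, Complex.norm_real,
    Real.norm_of_nonneg (hpos 0 le_rfl).le, Real.norm_of_nonneg (hpos x hx).le] at h1
  exact h1

theorem Good.cont_rv (h : Good o g) (z : K → ℝ) : Continuous fun x : ℝ => rv g (z + x • er o) := by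
  simp only [rv, cx_add, cx_smul, cx_er]
  exact Complex.continuous_re.comp ((h.cont _).comp Complex.continuous_ofReal)

theorem Good.choose (h : Good o g) {a b : K} (ha : a ≠ o) (hb : b ≠ o) (z : K → ℝ)
    (hpos : ∀ x : ℝ, 0 ≤ x → 0 < rv (MSS.T (1 / 2) a b g) (z + x • er o)) :
    (∀ x : ℝ, 0 ≤ x → 0 < rv g (z - er a + x • er o)) ∨
      ∀ x : ℝ, 0 ≤ x → 0 < rv g (z - er b + x • er o) := by
  have hT : ∀ p x : ℝ, rv (MSS.T p a b g) (z + x • er o) =
      (1 - p) * rv g (z - er a + x • er o) + p * rv g (z - er b + x • er o) := fun p x => by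
    rw [rv_T, add_sub_right_comm z, add_sub_right_comm z]
  refine select (h.cont_rv _) (h.cont_rv _) (h.ev _) (h.ev _) (fun p hp0 hp1 hp x hx => ?_)
    fun x hx => ?_
  · rw [← hT, ← hT]
    exact (h.T ha hb hp0 hp1).ray_mono z (fun y hy => by rw [hT]; exact hp y hy) hx
  · have := hpos x hx
    rw [hT] at this
    linarith

/-- Abstract form of the selection theorem. -/
theorem abstract_mss {α : Type} [DecidableEq α] (a b : α → K) (ha : ∀ e, a e ≠ o)
    (hb : ∀ e, b e ≠ o) (h : Good o g) {c θ : ℝ} (hc : 0 < c) (hθ : c * (1 - θ) = 1)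
    {z : K → ℝ} (hz : Inv o θ g z) (F : Finset α) :
    ∃ H ⊆ F, ∀ x : ℝ, 0 ≤ x → 0 < rv g (z + (c / 2) • ∑ e ∈ F, (er (a e) + er (b e)) -
      (∑ e ∈ H, er (a e) + ∑ e ∈ F \ H, er (b e)) + x • er o) := by
  have main : ∀ F : Finset α, ∃ G, Good o G ∧
      Inv o θ G (z + (c / 2) • ∑ e ∈ F, (er (a e) + er (b e))) ∧
      ∀ y : K → ℝ, (∀ x : ℝ, 0 ≤ x → 0 < rv G (y + x • er o)) → ∃ H ⊆ F, ∀ x : ℝ, 0 ≤ x →
        0 < rv g (y - (∑ e ∈ H, er (a e) + ∑ e ∈ F \ H, er (b e)) + x • er o) := by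
    intro F
    induction F using Finset.induction_on with
    | empty => exact ⟨g, h, by simpa using hz, fun y hy => ⟨∅, by simp, by simpa using hy⟩⟩
    | insert e F he ih =>
      obtain ⟨G, hG, hI, hS⟩ := ih
      refine ⟨T (1 / 2) (a e) (b e) G, hG.T (ha e) (hb e) (by norm_num) (by norm_num), ?_,
        fun y hy => ?_⟩
      · have := hG.step (ha e) (hb e) hc hθ hI
        convert this using 1
        rw [Finset.sum_insert he]
        module
      · rcases hG.choose (ha e) (hb e) y hy with h1 | h1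
        · obtain ⟨H, hH, hx⟩ := hS _ h1
          have heH : e ∉ H := fun h' => he (hH h')
          refine ⟨insert e H, Finset.insert_subset_insert e hH, fun x hx0 => ?_⟩
          have e1 : insert e F \ insert e H = F \ H := by
            rw [Finset.insert_sdiff_insert, Finset.sdiff_insert_of_notMem he]
          convert hx x hx0 using 3
          rw [e1, Finset.sum_insert heH]
          abel
        · obtain ⟨H, hH, hx⟩ := hS _ h1
          have heH : e ∉ H := fun h' => he (hH h')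
          refine ⟨H, hH.trans (Finset.subset_insert e F), fun x hx0 => ?_⟩
          convert hx x hx0 using 3
          rw [Finset.insert_sdiff_of_notMem _ heH,
            Finset.sum_insert fun h' => he (Finset.mem_sdiff.1 h').1]
          abel
  obtain ⟨G, -, hI, hS⟩ := main F
  exact hS _ fun x hx => (hI _ (le_add_of_nonneg_right (smul_nonneg hx (er_nonneg o)))).1

end Vale.Agent.P061.MSS
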