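import Vale.Agent.P061.Res
import Vale.Agent.P061.MSSB

/-! The Marcus, Spielman, Srivastava selection theorem for two point rank one choices. -/

namespace Vale.Agent.P061

open Finset Matrix

namespace MSS

open Filter Topology

variable {ι : Type} [Fintype ι] [DecidableEq ι]

theorem dom {N : Matrix ι ι ℝ} (hN : N.PosDef) (X : Matrix ι ι ℝ) :
    ∃ C, 0 ≤ C ∧ ∀ φ, φ ⬝ᵥ X *ᵥ φ ≤ C * (φ ⬝ᵥ N *ᵥ φ) := by
  have h1 : ∀ i φ, φ i ^ 2 ≤ Res N (Pi.single i 1) * (φ ⬝ᵥ N *ᵥ φ) := fun i φ => by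
    simpa using sq_le_res hN (Pi.single i 1) φ
  refine ⟨∑ i, ∑ j, |X i j| * (Res N (Pi.single i 1) + Res N (Pi.single j 1)),
    sum_nonneg fun i _ => sum_nonneg fun j _ => mul_nonneg (abs_nonneg _)
      (add_nonneg (res_nonneg hN _) (res_nonneg hN _)), fun φ => ?_⟩
  obtain ⟨n, hn⟩ : ∃ n, n = φ ⬝ᵥ N *ᵥ φ := ⟨_, rfl⟩
  have h2 : ∀ i, φ i ^ 2 ≤ Res N (Pi.single i 1) * n := fun i => hn ▸ h1 i φ
  rw [← hn, sum_mul]
  simp only [dotProduct, mulVec]
  refine sum_le_sum fun i _ => ?_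
  rw [mul_sum, sum_mul]
  refine sum_le_sum fun j _ => ?_
  have h3 : φ i * (X i j * φ j) ≤ |X i j| * (φ i ^ 2 + φ j ^ 2) := by
    rcases abs_cases (X i j) with ⟨h, h'⟩ | ⟨h, h'⟩ <;> rw [h]
    · nlinarith [mul_nonneg h' (sq_nonneg (φ i - φ j)), mul_nonneg h' (sq_nonneg (φ i)),
        mul_nonneg h' (sq_nonneg (φ j))]
    · have h'' := (neg_pos.2 h').le
      nlinarith [mul_nonneg h'' (sq_nonneg (φ i + φ j)), mul_nonneg h'' (sq_nonneg (φ i)),
        mul_nonneg h'' (sq_nonneg (φ j))]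
  nlinarith [mul_le_mul_of_nonneg_left (add_le_add (h2 i) (h2 j)) (abs_nonneg (X i j))]

omit [DecidableEq ι] in
theorem form_pos {N : Matrix ι ι ℝ} (hN : N.PosDef) {φ : ι → ℝ} (hφ : φ ≠ 0) :
    0 < φ ⬝ᵥ N *ᵥ φ := by simpa using hN.dotProduct_mulVec_pos hφ

omit [DecidableEq ι] in
theorem form_nonneg {N : Matrix ι ι ℝ} (hN : N.PosDef) (φ : ι → ℝ) : 0 ≤ φ ⬝ᵥ N *ᵥ φ := by
  simpa using hN.posSemidef.dotProduct_mulVec_nonneg φ

omit [DecidableEq ι] in
theorem form_add_smul (Y M : Matrix ι ι ℝ) (x : ℝ) (φ : ι → ℝ) :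
    φ ⬝ᵥ (Y + x • M) *ᵥ φ = φ ⬝ᵥ Y *ᵥ φ + x * (φ ⬝ᵥ M *ᵥ φ) := by
  rw [add_mulVec, dotProduct_add, smul_mulVec, dotProduct_smul, smul_eq_mul]

omit [Fintype ι] [DecidableEq ι] in
theorem herm_add_smul {Y M : Matrix ι ι ℝ} (hY : Y.IsHermitian) (hM : M.IsHermitian) (x : ℝ) :
    (Y + x • M).IsHermitian := by
  refine hY.add ?_
  rw [IsHermitian, conjTranspose_smul, hM.eq, star_trivial]

theorem ev_posDef {Y M : Matrix ι ι ℝ} (hY : Y.IsHermitian) (hM : M.PosDef) :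
    ∀ᶠ x : ℝ in atTop, (Y + x • M).PosDef := by
  obtain ⟨C, -, hC⟩ := dom hM (-Y)
  filter_upwards [eventually_gt_atTop C] with x hx
  refine PosDef.of_dotProduct_mulVec_pos (herm_add_smul hY hM.1 x) fun φ hφ => ?_
  have h1 := hC φ
  rw [neg_mulVec, dotProduct_neg] at h1
  rw [star_trivial, form_add_smul]
  nlinarith [mul_pos (sub_pos.2 hx) (form_pos hM hφ)]

theorem psd_of_det_pos {Y M : Matrix ι ι ℝ} (hY : Y.IsHermitian) (hM : M.PosDef)
    (h : ∀ x : ℝ, 0 ≤ x → 0 < (Y + x • M).det) (φ : ι → ℝ) : 0 ≤ φ ⬝ᵥ Y *ᵥ φ := by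
  let S : Set ℝ := {x | 0 ≤ x ∧ ∀ ψ, 0 ≤ ψ ⬝ᵥ Y *ᵥ ψ + x * (ψ ⬝ᵥ M *ᵥ ψ)}
  have hne : S.Nonempty := by
    obtain ⟨x, hx1, hx2⟩ := ((ev_posDef hY hM).and (eventually_ge_atTop 0)).exists
    exact ⟨x, hx2, fun ψ => form_add_smul Y M x ψ ▸ form_nonneg hx1 ψ⟩
  have hcl : IsClosed S := by
    have e : S = Set.Ici 0 ∩ ⋂ ψ, {x : ℝ | 0 ≤ ψ ⬝ᵥ Y *ᵥ ψ + x * (ψ ⬝ᵥ M *ᵥ ψ)} := by
      ext x
      simp [S]
    rw [e]
    exact isClosed_Ici.inter
      (isClosed_iInter fun ψ => isClosed_le continuous_const (by fun_prop))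
  have hbd : BddBelow S := ⟨0, fun x hx => hx.1⟩
  obtain ⟨hs0, hs⟩ := hcl.csInf_mem hne hbd
  rcases hs0.eq_or_lt with h0 | h0
  · have := hs φ
    rw [← h0] at this
    simpa using this
  · exfalso
    have hP : (Y + sInf S • M).PosDef := by
      refine (PosSemidef.posDef_iff_det_ne_zero ?_).2 (h _ hs0).ne'
      exact PosSemidef.of_dotProduct_mulVec_nonneg (herm_add_smul hY hM.1 _) fun ψ => by
        rw [star_trivial, form_add_smul]; exact hs ψ
    obtain ⟨C, hC0, hC⟩ := dom hP M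
    obtain ⟨η, hη⟩ : ∃ η, η = min (sInf S) (1 / (C + 1)) := ⟨_, rfl⟩
    have hη0 : 0 < η := hη ▸ lt_min h0 (by positivity)
    have hη1 : η ≤ sInf S := hη ▸ min_le_left _ _
    have hη2 : η * (C + 1) ≤ 1 := by
      rw [← le_div_iff₀ (by positivity)]
      exact hη ▸ min_le_right _ _
    have hmem : sInf S - η ∈ S := by
      refine ⟨by linarith, fun ψ => ?_⟩
      have h1 := hC ψ
      have h2 := hs ψ
      rw [form_add_smul] at h1
      nlinarith [mul_le_mul_of_nonneg_left h1 hη0.le, mul_le_mul_of_nonneg_right hη2 h2,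
        mul_nonneg hη0.le h2]
    have := csInf_le hbd hmem
    linarith

theorem det_aff (X : Matrix ι ι ℂ) (u : ι → ℂ) (s : ℂ) :
    (X + s • vecMulVec u u).det = X.det + s * ((X + vecMulVec u u).det - X.det) := by
  have key : ∀ s : ℂ, (X + s • vecMulVec u u).det =
      ((fromBlocks X (replicateCol Unit u) 0 (1 : Matrix Unit Unit ℂ)).updateRow (Sum.inr ())
        (Sum.elim (fun _ => 0) (fun _ => 1) + s • Sum.elim (-u) (fun _ => 0))).det := fun s => by
    have e1 : (fromBlocks X (replicateCol Unit u) 0 (1 : Matrix Unit Unit ℂ)).updateRow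
        (Sum.inr ()) (Sum.elim (fun _ => 0) (fun _ => 1) + s • Sum.elim (-u) (fun _ => 0)) =
        fromBlocks X (replicateCol Unit u) (replicateRow Unit (-(s • u))) 1 := by
      ext (i | i) (j | j) <;> simp [updateRow_apply]
    rw [e1, det_fromBlocks_one₂₂]
    congr 1
    ext i j
    simp [vecMulVec_apply, Matrix.mul_apply]
    ring
  have h0 := key 0
  have h1 := key 1
  rw [zero_smul, add_zero] at h0
  rw [one_smul] at h1
  rw [key s, h0, h1]
  simp only [det_updateRow_add, det_updateRow_smul]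
  ring

variable {K : Type} [DecidableEq K]

/-- The matrix attached to a coordinate. -/
def Bm (o : K) (M : Matrix ι ι ℝ) (w : K → ι → ℝ) (k : K) : Matrix ι ι ℝ :=
  if k = o then M else vecMulVec (w k) (w k)

/-- Real pencil. -/
def XR (S : Finset K) (B : K → Matrix ι ι ℝ) (z : K → ℝ) : Matrix ι ι ℝ := ∑ k ∈ S, z k • B k

/-- Complex pencil. -/
noncomputable def XC (S : Finset K) (B : K → Matrix ι ι ℝ) (z : K → ℂ) : Matrix ι ι ℂ :=
  ∑ k ∈ S, z k • (B k).map Complex.ofReal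

variable {S : Finset K} {B : K → Matrix ι ι ℝ}

omit [Fintype ι] [DecidableEq ι] [DecidableEq K] in
theorem XC_cx (z : K → ℝ) : XC S B (cx z) = (XR S B z).map Complex.ofReal := by
  ext i j
  simp [XC, XR, cx, Matrix.sum_apply]

omit [Fintype ι] [DecidableEq ι] in
theorem XC_add (z : K → ℂ) (s : ℂ) (k : K) : XC S B (z + s • ec k) =
    XC S B z + s • if k ∈ S then (B k).map Complex.ofReal else 0 := by
  simp only [XC, Pi.add_apply, add_smul, sum_add_distrib, Pi.smul_apply, smul_assoc, ← smul_sum]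
  congr 2
  simp [ec, Pi.single_apply, ite_smul]

omit [Fintype ι] [DecidableEq ι] in
theorem XR_add (z : K → ℝ) (s : ℝ) (k : K) : XR S B (z + s • er k) =
    XR S B z + s • if k ∈ S then B k else 0 := by
  simp only [XR, Pi.add_apply, add_smul, sum_add_distrib, Pi.smul_apply, smul_assoc, ← smul_sum]
  congr 2
  simp [er, Pi.single_apply, ite_smul]

omit [DecidableEq ι] [DecidableEq K] in
theorem XR_form (z : K → ℝ) (φ : ι → ℝ) :
    φ ⬝ᵥ XR S B z *ᵥ φ = ∑ k ∈ S, z k * (φ ⬝ᵥ B k *ᵥ φ) := by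
  simp only [XR, sum_mulVec, dotProduct_sum, smul_mulVec, dotProduct_smul, smul_eq_mul]

omit [DecidableEq K] in
theorem rv_det (z : K → ℝ) : rv (fun z => (XC S B z).det) z = (XR S B z).det := by
  have := RingHom.map_det Complex.ofRealHom (XR S B z)
  simp only [rv, XC_cx]
  change ((Complex.ofRealHom.mapMatrix (XR S B z)).det).re = _
  rw [← this]
  simp

variable {o : K} {M : Matrix ι ι ℝ} {w : K → ι → ℝ}

omit [Fintype ι] [DecidableEq ι] in
theorem XR_herm (hM : M.IsHermitian) (z : K → ℝ) : (XR S (Bm o M w) z).IsHermitian := by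
  ext i j
  simp only [XR, conjTranspose_apply, star_trivial, Matrix.sum_apply, Matrix.smul_apply]
  refine sum_congr rfl fun k _ => ?_
  by_cases h : k = o
  · simpa [Bm, h] using Or.inl (hM.apply i j)
  · simp [Bm, h, vecMulVec_apply, mul_comm]

omit [DecidableEq ι] in
theorem XR_ge (hM : M.PosDef) (ho : o ∈ S) {z : K → ℝ} (hz : ∀ k, 0 ≤ z k) (φ : ι → ℝ) :
    z o * (φ ⬝ᵥ M *ᵥ φ) ≤ φ ⬝ᵥ XR S (Bm o M w) z *ᵥ φ := by
  rw [XR_form]
  have h1 : z o * (φ ⬝ᵥ M *ᵥ φ) = z o * (φ ⬝ᵥ Bm o M w o *ᵥ φ) := by simp [Bm]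
  rw [h1]
  refine single_le_sum (f := fun k => z k * (φ ⬝ᵥ Bm o M w k *ᵥ φ)) (fun k _ => ?_) ho
  refine mul_nonneg (hz k) ?_
  by_cases h : k = o
  · simpa [Bm, h] using form_nonneg hM φ
  · simp only [Bm, h, if_false, vecMulVec_form]
    exact sq_nonneg _

omit [DecidableEq ι] in
theorem XR_posDef (hM : M.PosDef) (ho : o ∈ S) {z : K → ℝ} (h0 : 0 < z o) (hz : ∀ k, 0 ≤ z k) :
    (XR S (Bm o M w) z).PosDef :=
  PosDef.of_dotProduct_mulVec_pos (XR_herm hM.1 z) fun φ hφ => by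
    rw [star_trivial]
    exact (mul_pos h0 (form_pos hM hφ)).trans_le (XR_ge hM ho hz φ)

theorem det_ne_zero {X Y : Matrix ι ι ℝ} (hX : X.IsHermitian) (hY : Y.PosDef) :
    (X.map Complex.ofReal + Complex.I • Y.map Complex.ofReal).det ≠ 0 := by
  intro h
  obtain ⟨v, hv0, hv⟩ := exists_mulVec_eq_zero_iff.2 h
  let x : ι → ℝ := fun i => (v i).re
  let y : ι → ℝ := fun i => (v i).im
  have h1 : X *ᵥ x = Y *ᵥ y := by
    ext i
    have := congrArg Complex.re (congrFun hv i)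
    simp only [mulVec, dotProduct, Complex.re_sum, Matrix.add_apply, Matrix.smul_apply, map_apply,
      smul_eq_mul, Pi.zero_apply, Complex.zero_re] at this
    rw [← sub_eq_zero, ← this]
    simp only [mulVec, dotProduct, ← sum_sub_distrib]
    exact sum_congr rfl fun j _ => by simp [x, y]
  have h2 : X *ᵥ y = -(Y *ᵥ x) := by
    ext i
    have := congrArg Complex.im (congrFun hv i)
    simp only [mulVec, dotProduct, Complex.im_sum, Matrix.add_apply, Matrix.smul_apply, map_apply,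
      smul_eq_mul, Pi.zero_apply, Complex.zero_im] at this
    rw [Pi.neg_apply, eq_neg_iff_add_eq_zero, ← this]
    simp only [mulVec, dotProduct, ← sum_add_distrib]
    exact sum_congr rfl fun j _ => by simp [x, y]
  have h3 : y ⬝ᵥ X *ᵥ x = x ⬝ᵥ X *ᵥ y := by
    have hT : Xᵀ = X := by simpa using hX.eq
    rw [dotProduct_mulVec, ← mulVec_transpose, hT, dotProduct_comm]
  rw [h1, h2, dotProduct_neg] at h3
  have h4 := form_nonneg hY x
  have h5 := form_nonneg hY y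
  have hx : x = 0 := by
    by_contra hx
    linarith [form_pos hY hx]
  have hy : y = 0 := by
    by_contra hy
    linarith [form_pos hY hy]
  exact hv0 (funext fun i => Complex.ext (congrFun hx i) (congrFun hy i))

theorem good_det (hM : M.PosDef) (ho : o ∈ S) : Good o fun z => (XC S (Bm o M w) z).det where
  aff k hk z s := by
    have h1 := XC_add (S := S) (B := Bm o M w) z 1 k
    rw [one_smul, one_smul] at h1
    simp only [XC_add, h1]
    by_cases h : k ∈ S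
    · have e : (Bm o M w k).map Complex.ofReal =
          vecMulVec (fun i => (w k i : ℂ)) fun i => (w k i : ℂ) := by
        ext i j
        simp [Bm, hk, vecMulVec_apply]
      simp only [h, if_true, e]
      exact det_aff _ _ _
    · simp [h]
  stab z h0 hz := by
    have e : XC S (Bm o M w) z = (XR S (Bm o M w) fun k => (z k).re).map Complex.ofReal +
        Complex.I • (XR S (Bm o M w) fun k => (z k).im).map Complex.ofReal := by
      ext i j
      simp only [XC, XR, Matrix.sum_apply, Matrix.smul_apply, map_apply, Matrix.add_apply, smul_eq_mul,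
        Complex.ofReal_sum, Complex.ofReal_mul, mul_sum, ← sum_add_distrib]
      refine sum_congr rfl fun k _ => ?_
      conv_lhs => rw [← Complex.re_add_im (z k)]
      ring
    simp only [e]
    exact det_ne_zero (XR_herm hM.1 _) (XR_posDef hM ho h0 hz)
  conj z := by
    have e : XC S (Bm o M w) (star z) = (starRingEnd ℂ).mapMatrix (XC S (Bm o M w) z) := by
      ext i j
      simp [XC, Matrix.sum_apply]
    simp only [e, ← RingHom.map_det]
    rfl
  poly z := by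
    refine ⟨((XC S (Bm o M w) z).map Polynomial.C + (Polynomial.X : Polynomial ℂ) •
      (M.map Complex.ofReal).map Polynomial.C).det, fun ζ => ?_⟩
    have e : Bm o M w o = M := if_pos rfl
    rw [← Polynomial.coe_evalRingHom, RingHom.map_det, XC_add, if_pos ho, e]
    congr 1
    ext i j
    simp only [Matrix.add_apply, Matrix.smul_apply, RingHom.mapMatrix_apply, map_apply,
      smul_eq_mul, map_add, Polynomial.eval_mul, Polynomial.coe_evalRingHom, Polynomial.eval_C,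
      Polynomial.eval_X]
  ev z := by
    filter_upwards [ev_posDef (XR_herm (S := S) (o := o) (w := w) hM.1 z) hM] with x hx
    change 0 < rv (fun z => (XC S (Bm o M w) z).det) _
    rw [rv_det, XR_add, if_pos ho]
    have e : Bm o M w o = M := if_pos rfl
    rw [e]
    exact hx.det_pos

theorem inv_det (hM : M.PosDef) (ho : o ∈ S) {δ r θ : ℝ} (hr : 0 < r) (hθ0 : 0 ≤ θ)
    (hθ : δ = θ * r) (hw : ∀ k ∈ S, k ≠ o → ∀ φ, (w k ⬝ᵥ φ) ^ 2 ≤ δ * (φ ⬝ᵥ M *ᵥ φ)) :
    Inv o θ (fun z => (XC S (Bm o M w) z).det) (r • er o) := by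
  intro z hz
  have h0 : r ≤ z o := by simpa [er] using hz o
  have hz0 : ∀ k, 0 ≤ z k := fun k => (smul_nonneg hr.le (er_nonneg o) k).trans (hz k)
  have hP : (XR S (Bm o M w) z).PosDef := XR_posDef hM ho (hr.trans_le h0) hz0
  simp only [rv_det]
  refine ⟨hP.det_pos, fun v hv => ?_⟩
  have h1 := XR_add (S := S) (B := Bm o M w) z 1 v
  rw [one_smul, one_smul] at h1
  rw [h1]
  by_cases h : v ∈ S
  · have h2 : Res (XR S (Bm o M w) z) (w v) ≤ θ := by
      refine res_le hP _ hθ0 fun φ => (hw v h hv φ).trans ?_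
      have h3 := XR_ge (w := w) hM ho hz0 φ
      have h4 := mul_le_mul_of_nonneg_right h0 (form_nonneg hM φ)
      rw [hθ, mul_assoc]
      exact mul_le_mul_of_nonneg_left (h4.trans h3) hθ0
    have h3 : (XR S (Bm o M w) z + vecMulVec (w v) (w v)).det =
        (XR S (Bm o M w) z).det * (1 + Res (XR S (Bm o M w) z) (w v)) := by
      rw [vecMulVec_eq Unit, det_add_replicateCol_mul_replicateRow hP.det_pos.ne'.isUnit,
        Matrix.mul_assoc, ← replicateCol_mulVec, det_unique (n := Unit), Matrix.add_apply,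
        one_apply_eq, replicateRow_mul_replicateCol_apply, Res]
    simp only [h, if_true, Bm, hv, if_false]
    rw [h3]
    nlinarith [mul_le_mul_of_nonneg_left h2 hP.det_pos.le]
  · simpa [h] using mul_nonneg hθ0 hP.det_pos.le

end MSS

open MSS in
theorem mss {ι α : Type} [Fintype ι] [DecidableEq ι] [DecidableEq α] (F : Finset α)
    (a b : α → ι → ℝ) {M : Matrix ι ι ℝ} (hM : M.PosDef) {δ : ℝ} (hδ : 0 < δ)
    (hsum : ∀ φ, ∑ e ∈ F, ((a e ⬝ᵥ φ) ^ 2 + (b e ⬝ᵥ φ) ^ 2) ≤ 2 * (φ ⬝ᵥ M *ᵥ φ))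
    (ha : ∀ e ∈ F, ∀ φ, (a e ⬝ᵥ φ) ^ 2 ≤ δ * (φ ⬝ᵥ M *ᵥ φ))
    (hb : ∀ e ∈ F, ∀ φ, (b e ⬝ᵥ φ) ^ 2 ≤ δ * (φ ⬝ᵥ M *ᵥ φ)) :
    ∃ H ⊆ F, ∀ φ, ∑ e ∈ H, (a e ⬝ᵥ φ) ^ 2 + ∑ e ∈ F \ H, (b e ⬝ᵥ φ) ^ 2 ≤
      (∑ e ∈ F, ((a e ⬝ᵥ φ) ^ 2 + (b e ⬝ᵥ φ) ^ 2)) / 2 +
        (2 * √δ + δ) * (φ ⬝ᵥ M *ᵥ φ) := by
  let w : Option (α ⊕ α) → ι → ℝ := fun k => k.elim 0 (Sum.elim a b)
  let S : Finset (Option (α ⊕ α)) := (F.disjSum F).insertNone
  have ho : none ∈ S := by simp [S]
  have hs : 0 < √δ := Real.sqrt_pos.2 hδ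
  have hs2 : √δ * √δ = δ := Real.mul_self_sqrt hδ.le
  have hI := inv_det (w := w) hM ho (δ := δ) (r := √δ + δ) (θ := √δ / (1 + √δ)) (by positivity)
    (by positivity) (by field_simp; nlinarith) (by
      rintro (_ | e | e) hk hk' φ
      · exact absurd rfl hk'
      · exact ha e (by simpa [S] using hk) φ
      · exact hb e (by simpa [S] using hk) φ)
  obtain ⟨H, hH, hx⟩ := abstract_mss (fun e => some (Sum.inl e)) (fun e => some (Sum.inr e))
    (fun _ => by simp) (fun _ => by simp) (good_det (w := w) hM ho) (c := 1 + √δ) (by positivity)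
    (by field_simp; ring) hI F
  refine ⟨H, hH, fun φ => ?_⟩
  have h1 := psd_of_det_pos (XR_herm (S := S) (o := none) (w := w) hM.1 _) hM (fun x hx0 => by
    have h2 := hx x hx0
    rw [rv_det, XR_add] at h2
    simpa only [ho, if_true, Bm] using h2) φ
  let L : (Option (α ⊕ α) → ℝ) →ₗ[ℝ] ℝ :=
    { toFun := fun z => ∑ k ∈ S, z k * (φ ⬝ᵥ Bm none M w k *ᵥ φ)
      map_add' := fun z z' => by simp [add_mul, sum_add_distrib]
      map_smul' := fun s z => by simp [mul_sum, mul_assoc] }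
  have hL : ∀ k ∈ S, L (er k) = φ ⬝ᵥ Bm none M w k *ᵥ φ := fun k hk => by
    simp [L, er, Pi.single_apply, hk]
  have hLa : ∀ e ∈ F, L (er (some (Sum.inl e))) = (a e ⬝ᵥ φ) ^ 2 := fun e he => by
    rw [hL _ (by simpa [S] using he)]
    simp [Bm, w, vecMulVec_form]
  have hLb : ∀ e ∈ F, L (er (some (Sum.inr e))) = (b e ⬝ᵥ φ) ^ 2 := fun e he => by
    rw [hL _ (by simpa [S] using he)]
    simp [Bm, w, vecMulVec_form]
  have hL0 : L (er none) = φ ⬝ᵥ M *ᵥ φ := by rw [hL _ ho]; simp [Bm]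
  rw [XR_form] at h1
  change 0 ≤ L _ at h1
  simp only [map_sub, map_add, map_smul, map_sum, smul_eq_mul, hL0] at h1
  rw [sum_congr rfl fun e he => congrArg₂ (· + ·) (hLa e he) (hLb e he),
    sum_congr rfl fun e he => hLa e (hH he),
    sum_congr rfl fun e he => hLb e (mem_sdiff.1 he).1] at h1
  nlinarith [mul_le_mul_of_nonneg_left (hsum φ) hs.le]

end Vale.Agent.P061
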