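import Vale.Agent.P061.Good
import Vale.Agent.P061.Lower
import Vale.Agent.P061.MSS

/-! Halving a strong graph. -/

namespace Vale.Agent.P061

open Finset Matrix

theorem halve_core {V E : Type} [Fintype V] [DecidableEq V] [Fintype E] [DecidableEq E]
    (F : Finset E) (a : E → V → ℝ) {M : Matrix V V ℝ} (hM : M.PosDef) (W : Submodule ℝ (E → ℝ))
    {δ : ℝ} (hδ : 0 < δ) (hs : ∀ φ, ∑ e ∈ F, (a e ⬝ᵥ φ) ^ 2 ≤ φ ⬝ᵥ M *ᵥ φ)
    (ha : ∀ e ∈ F, ∀ φ, 2 * (a e ⬝ᵥ φ) ^ 2 ≤ δ * (φ ⬝ᵥ M *ᵥ φ))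
    (hW : ∀ x ∈ W, ∀ e, 2 * x e ^ 2 ≤ δ * ∑ f, x f ^ 2) :
    ∃ H ⊆ F, (∀ φ, 2 * ∑ e ∈ H, (a e ⬝ᵥ φ) ^ 2 ≤
        ∑ e ∈ F, (a e ⬝ᵥ φ) ^ 2 + (2 * √δ + δ) * (φ ⬝ᵥ M *ᵥ φ)) ∧
      ∀ x ∈ W, 2 * ∑ e ∈ F \ H, x e ^ 2 ≤ ∑ e ∈ F, x e ^ 2 + (2 * √δ + δ) * ∑ e, x e ^ 2 := by
  let b := Module.finBasis ℝ W
  let u : E → Fin (Module.finrank ℝ W) → ℝ := fun e j => (b j : E → ℝ) e
  have hu : ∀ c e, u e ⬝ᵥ c = (b.equivFun.symm c : E → ℝ) e := fun c e => by
    simp [u, dotProduct, mul_comm]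
  let N : Matrix (V ⊕ Fin (Module.finrank ℝ W)) (V ⊕ Fin (Module.finrank ℝ W)) ℝ :=
    fromBlocks M 0 0 (∑ e, vecMulVec (u e) (u e))
  have hN : ∀ φ, φ ⬝ᵥ N *ᵥ φ = (φ ∘ Sum.inl) ⬝ᵥ M *ᵥ (φ ∘ Sum.inl) +
      ∑ e, (b.equivFun.symm (φ ∘ Sum.inr) : E → ℝ) e ^ 2 := fun φ => by
    rw [fromBlocks_mulVec, ← Sum.elim_comp_inl_inr φ, sumElim_dotProduct_sumElim]
    simp only [zero_mulVec, add_zero, zero_add, sum_mulVec, dotProduct_sum, vecMulVec_form, hu,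
      Sum.elim_comp_inl, Sum.elim_comp_inr]
  have p1 : ∀ φ, 0 ≤ φ ⬝ᵥ M *ᵥ φ := fun φ => hM.posSemidef.dotProduct_mulVec_nonneg φ
  have p2 : ∀ x : E → ℝ, 0 ≤ ∑ e, x e ^ 2 := fun x => sum_nonneg fun _ _ => sq_nonneg _
  have hNp : N.PosDef := by
    refine PosDef.of_dotProduct_mulVec_pos (hM.1.fromBlocks (by simp) ?_) fun φ hφ => ?_
    · ext i j
      simp [Matrix.sum_apply, vecMulVec_apply, mul_comm]
    · rw [star_trivial, hN]
      by_cases h : φ ∘ Sum.inl = 0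
      · have h1 : φ ∘ Sum.inr ≠ 0 := fun H => hφ (by
          rw [← Sum.elim_comp_inl_inr φ, h, H, Sum.elim_zero_zero])
        have h2 : (b.equivFun.symm (φ ∘ Sum.inr) : E → ℝ) ≠ 0 := fun H =>
          h1 (b.equivFun.symm.map_eq_zero_iff.1 (Subtype.ext H))
        obtain ⟨e, he⟩ := Function.ne_iff.1 h2
        exact add_pos_of_nonneg_of_pos (p1 _)
          (sum_pos' (fun _ _ => sq_nonneg _) ⟨e, mem_univ _, sq_pos_of_ne_zero he⟩)
      · exact add_pos_of_pos_of_nonneg (hM.dotProduct_mulVec_pos h) (p2 _)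
  have e1 : ∀ e φ, ((√2 • Sum.elim (a e) (0 : Fin (Module.finrank ℝ W) → ℝ)) ⬝ᵥ φ) ^ 2 =
      2 * (a e ⬝ᵥ (φ ∘ Sum.inl)) ^ 2 := fun e φ => by
    rw [smul_dotProduct, smul_eq_mul, mul_pow, Real.sq_sqrt zero_le_two]
    simp [dotProduct]
  have e2 : ∀ e φ, ((√2 • Sum.elim (0 : V → ℝ) (u e)) ⬝ᵥ φ) ^ 2 =
      2 * (b.equivFun.symm (φ ∘ Sum.inr) : E → ℝ) e ^ 2 := fun e φ => by
    rw [smul_dotProduct, smul_eq_mul, mul_pow, Real.sq_sqrt zero_le_two, ← hu]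
    simp [dotProduct]
  obtain ⟨H, h1, h2⟩ := mss F (fun e => √2 • Sum.elim (a e) 0)
    (fun e => √2 • Sum.elim (0 : V → ℝ) (u e)) hNp hδ (fun φ => by
      simp only [e1, e2, sum_add_distrib, ← mul_sum, hN, mul_add]
      exact add_le_add (mul_le_mul_of_nonneg_left (hs _) zero_le_two) (mul_le_mul_of_nonneg_left
        (sum_le_sum_of_subset_of_nonneg (subset_univ _) fun _ _ _ => sq_nonneg _) zero_le_two))
    (fun e he φ => by
      rw [e1, hN, mul_add]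
      exact (ha e he _).trans (le_add_of_nonneg_right (mul_nonneg hδ.le (p2 _))))
    (fun e _ φ => by
      rw [e2, hN, mul_add]
      exact (hW _ (Subtype.mem _) e).trans (le_add_of_nonneg_left (mul_nonneg hδ.le (p1 _))))
  simp only [e1, e2, sum_add_distrib, ← mul_sum, hN] at h2
  refine ⟨H, h1, fun φ => ?_, fun x hx => ?_⟩
  · have := h2 (Sum.elim φ 0)
    simp only [Sum.elim_comp_inl, Sum.elim_comp_inr, map_zero, Submodule.coe_zero, Pi.zero_apply,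
      ne_eq, OfNat.ofNat_ne_zero, not_false_eq_true, zero_pow, sum_const_zero] at this
    linarith
  · have := h2 (Sum.elim 0 (b.equivFun ⟨x, hx⟩))
    simp only [Sum.elim_comp_inl, Sum.elim_comp_inr, dotProduct_zero, zero_dotProduct, ne_eq,
      OfNat.ofNat_ne_zero, not_false_eq_true, zero_pow, sum_const_zero,
      LinearEquiv.symm_apply_apply] at this
    linarith

theorem halve_log {κ κ' σ : ℝ} (hσ : 1 ≤ σ) (hκ : 10 ^ 58 * σ ^ 30 ≤ κ) (h0 : 0 ≤ κ')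
    (h1 : κ' ≤ κ) : 324 * σ ^ 2 * Real.log (2 * κ' + 2) ≤ κ / (4 * σ) := by
  have h2 : σ ^ 6 ≤ σ ^ 30 := pow_le_pow_right₀ hσ (by norm_num)
  have h3 : 1 ≤ σ ^ 3 := one_le_pow₀ hσ
  have h4 : 10 ^ 4 * σ ^ 3 ≤ √κ := Real.le_sqrt_of_sq_le (by nlinarith)
  have h5 : √κ ^ 2 = κ := Real.sq_sqrt (by nlinarith)
  generalize √κ = r at h4 h5
  have h6 : Real.log (2 * κ' + 2) ≤ Real.log ((2 * r) ^ 2) :=
    Real.log_le_log (by linarith) (by nlinarith)
  have h7 := Real.log_le_sub_one_of_pos (show 0 < 2 * r by linarith)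
  rw [Real.log_pow] at h6
  have h8 : Real.log (2 * κ' + 2) ≤ 4 * r := by push_cast at h6; linarith
  rw [le_div_iff₀ (by linarith), ← h5]
  have h9 := mul_le_mul_of_nonneg_left h8 (show 0 ≤ 1296 * σ ^ 3 by linarith)
  nlinarith

theorem Strength.halve_mono {V E : Type} [Fintype V] [Fintype E] [DecidableEq E] {s t : E → V}
    {F : Finset E} {κ κ' : ℝ} (h : Strength s t F κ) (h0 : 0 ≤ κ') (h1 : κ' ≤ κ) :
    Strength s t F κ' := fun P => by
  rcases Nat.eq_zero_or_pos (q P) with H | H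
  · rw [H]
    exact (mul_nonpos_of_nonneg_of_nonpos h0 (by norm_num)).trans (Nat.cast_nonneg _)
  · exact (mul_le_mul_of_nonneg_right h1 (sub_nonneg.2 (by exact_mod_cast H))).trans (h P)

theorem halving {V E : Type} [Fintype V] [DecidableEq V] [Fintype E] [DecidableEq E]
    (s t : E → V) {κ σ : ℝ} (hσ : 1 ≤ σ) (hκ : 10 ^ 58 * σ ^ 30 ≤ κ)
    (hG : Strength s t univ κ) :
    ∃ H : Finset E, Strength s t H ((1 - 1 / σ) * κ / 2) ∧
      ∀ S : Finset V, ((H ∩ cutS s t S).card : ℝ) ≤ (1 + 1 / σ) / 2 * (cutS s t S).card := by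
  classical
  have s0 : 0 < σ := by linarith
  have s3 : 1 ≤ σ ^ 3 := one_le_pow₀ hσ
  have s30 : 1 ≤ σ ^ 30 := one_le_pow₀ hσ
  have k0 : 10 ^ 58 ≤ κ := by nlinarith
  obtain ⟨r, hr, r0, r1⟩ : ∃ r, 1 / σ = r ∧ 0 < r ∧ r ≤ 1 :=
    ⟨_, rfl, by positivity, (div_le_one s0).2 hσ⟩
  have l0 : (0 : ℝ) < 1 / (Fintype.card V + 1) := by positivity
  obtain ⟨x, x0, x1, x2⟩ := good_set s t (ε := r / 4) (ρ := 1 / (324 * σ ^ 2)) (τ := 10 ^ 5 * σ ^ 3)
    hG (by linarith) (by linarith) (by positivity) (by linarith)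
    (by rw [mul_pow, ← pow_mul, ← pow_mul]; linarith)
    (by rw [← hr, div_div, div_mul_div_comm, div_lt_div_iff₀ (by positivity) (by positivity)]
        nlinarith) l0
  have k1 : r * κ ≤ κ := mul_le_of_le_one_left (by linarith) r1
  have k2 : 0 ≤ r * κ := by positivity
  have k3 := halve_log (κ' := (1 - r / 4) * κ) hσ hκ (by linarith) (by linarith)
  rw [show κ / (4 * σ) = r * κ / 4 by rw [← hr]; field_simp] at k3
  obtain ⟨F, hF, W, w1, w2, w3⟩ := lower_system (β := 324 * σ ^ 2) (by nlinarith) (by linarith)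
    (by linarith) _ V s t x2
  have hM := Mx_posDef s t x0 l0
  have p1 : ∀ φ, 0 ≤ φ ⬝ᵥ Mx s t x (1 / (Fintype.card V + 1)) *ᵥ φ := fun φ =>
    hM.posSemidef.dotProduct_mulVec_nonneg φ
  have d1 : 1 / (324 * σ ^ 2) = (r / 9) ^ 2 / 4 := by rw [← hr]; field_simp; norm_num
  obtain ⟨H, h1, h2, h3⟩ := halve_core F (fun e => bv (s e) (t e)) hM W (δ := (r / 9) ^ 2)
    (by positivity) (fun φ => by
      rw [Mx_form, add_assoc]
      simp only [bv_dot]
      exact (sum_le_sum_of_subset_of_nonneg (subset_univ _) fun _ _ _ => sq_nonneg _).trans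
        (le_add_of_nonneg_right (add_nonneg
          (sum_nonneg fun p _ => mul_nonneg (x0 p) (sq_nonneg _)) (by positivity))))
    (fun e he φ => by
      have g1 := sq_le_res hM (bv (s e) (t e)) φ
      have g2 := mul_le_mul_of_nonneg_right (mem_filter.1 (hF he)).2 (p1 φ)
      rw [d1] at g2
      have := mul_nonneg (sq_nonneg (r / 9)) (p1 φ)
      linarith)
    (fun y hy e => by
      have g1 := w2 y hy e
      rw [← mul_one_div, d1] at g1
      linarith)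
  have d2 : 2 * √((r / 9) ^ 2) + (r / 9) ^ 2 ≤ r / 3 := by
    rw [Real.sqrt_sq (by linarith)]
    nlinarith
  rw [hr]
  refine ⟨H, (w3 H h1 ((1 - r / 3) / 2) (by linarith) fun y hy => ?_).halve_mono (by linarith) ?_,
    fun S => ?_⟩
  · have g1 := h3 y hy
    have g2 := sum_sdiff (f := fun e => y e ^ 2) h1
    have g3 : ∑ e ∈ F, y e ^ 2 = ∑ e, y e ^ 2 :=
      sum_subset (subset_univ _) fun e _ he => by rw [w1 y hy e he]; norm_num
    have g4 := mul_le_mul_of_nonneg_right d2 (sum_nonneg fun e (_ : e ∈ univ) => sq_nonneg (y e))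
    linarith
  · have g1 : (1 - r / 2) * κ ≤
        (1 - r / 4) * κ - 324 * σ ^ 2 * Real.log (2 * ((1 - r / 4) * κ) + 2) := by linarith
    refine le_trans ?_ (mul_le_mul_of_nonneg_left g1 (by linarith))
    nlinarith [mul_nonneg r0.le k2]
  by_cases hS : S.Nonempty ∧ S ≠ univ
  swap
  · have : cutS s t S = ∅ := by
      rw [not_and_or, not_nonempty_iff_eq_empty, not_not] at hS
      rcases hS with rfl | rfl <;> ext e <;> simp
    simp [this]
  have c1 : ∀ A : Finset E, ∑ e ∈ A, ((if s e ∈ S then (1 : ℝ) else 0) -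
      if t e ∈ S then 1 else 0) ^ 2 = ((A ∩ cutS s t S).card : ℝ) := fun A => by
    rw [← filter_mem_eq_inter, card_filter, Nat.cast_sum]
    refine sum_congr rfl fun e _ => ?_
    by_cases h : s e ∈ S <;> by_cases h' : t e ∈ S <;> simp [h, h']
  have c2 : ∑ p : V × V, x p * ((if p.1 ∈ S then (1 : ℝ) else 0) -
      if p.2 ∈ S then 1 else 0) ^ 2 = xcut x S := by
    refine sum_congr rfl fun p _ => ?_
    by_cases h : p.1 ∈ S <;> by_cases h' : p.2 ∈ S <;> simp [h, h']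
  have c3 : 1 / ((Fintype.card V : ℝ) + 1) * ∑ v, (if v ∈ S then (1 : ℝ) else 0) ^ 2 ≤ 1 := by
    rw [one_div, inv_mul_le_iff₀ (by positivity), mul_one]
    refine (sum_le_card_nsmul _ _ 1 fun v _ => by split_ifs <;> norm_num).trans ?_
    simp
  have c4 := hG.le_cut (by linarith) hS.1 hS.2
  have c5 := x1 S hS.1 hS.2
  have c6 : ((F ∩ cutS s t S).card : ℝ) ≤ (cutS s t S).card :=
    Nat.cast_le.2 (card_le_card inter_subset_right)
  have c7 := h2 fun v => if v ∈ S then 1 else 0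
  have c8 := mul_le_mul_of_nonneg_right d2 (p1 fun v => if v ∈ S then 1 else 0)
  simp only [bv_dot, Mx_form, c1, c2, univ_inter] at c4 c7 c8
  have c9 : 4 / (10 ^ 5 * σ ^ 3) * ((cutS s t S).card : ℝ) ≤ (cutS s t S).card :=
    mul_le_of_le_one_left (Nat.cast_nonneg _) ((div_le_one (by positivity)).2 (by linarith))
  have c10 := mul_le_mul_of_nonneg_left (show ((cutS s t S).card : ℝ) + xcut x S +
    1 / ((Fintype.card V : ℝ) + 1) * ∑ v, (if v ∈ S then (1 : ℝ) else 0) ^ 2 ≤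
      3 * (cutS s t S).card by linarith) (show 0 ≤ r / 3 by linarith)
  linarith

end Vale.Agent.P061
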