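import Vale.Agent.P061.Halve

/-! Iterated halving gives a thin connected spanning subgraph. -/

namespace Vale.Agent.P061

open Finset Matrix

section Aux

variable {V E : Type} [Fintype V] [DecidableEq V] [Fintype E] [DecidableEq E]

omit [Fintype E] in
theorem iter_card {F X : Finset E} {X' : Finset F} (h : ∀ e : F, e ∈ X' ↔ e.1 ∈ X) (A : Finset F) :
    (A.map (Function.Embedding.subtype _) ∩ X).card = (A ∩ X').card := by
  rw [← card_map (Function.Embedding.subtype _)]
  refine congrArg card (Finset.ext fun e => ?_)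
  simp only [mem_inter, mem_map, h, Function.Embedding.subtype_apply]
  exact ⟨fun ⟨⟨a, h1, h2⟩, h3⟩ => ⟨a, ⟨h1, h2 ▸ h3⟩, h2⟩,
    fun ⟨a, ⟨h1, h3⟩, h2⟩ => ⟨⟨a, h1, h2⟩, h2 ▸ h3⟩⟩

theorem iter_halve (s t : E → V) {κ σ : ℝ} (hσ : 1 ≤ σ) (hκ : 10 ^ 58 * σ ^ 30 ≤ κ) {F : Finset E}
    (hG : Strength s t F κ) : ∃ H : Finset E, Strength s t H ((1 - 1 / σ) * κ / 2) ∧
      ∀ S : Finset V, ((H ∩ cutS s t S).card : ℝ) ≤ (1 + 1 / σ) / 2 * (F ∩ cutS s t S).card := by
  have h0 : (univ : Finset F).map (Function.Embedding.subtype _) = F := attach_map_val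
  have h1 := fun P => iter_card (F := F) (X := cross s t P)
    (X' := cross (fun e : F => s e) (fun e : F => t e) P) (by simp)
  have h2 := fun S => iter_card (F := F) (X := cutS s t S)
    (X' := cutS (fun e : F => s e) (fun e : F => t e) S) (by simp)
  obtain ⟨H, g1, g2⟩ := halving (fun e : F => s e) (fun e : F => t e) hσ hκ fun P => by
    rw [← h1, h0]; exact hG P
  refine ⟨H.map (Function.Embedding.subtype _), fun P => by rw [h1]; exact g1 P, fun S => ?_⟩
  have := h2 S univ
  rw [h0, univ_inter] at this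
  rw [h2, this]
  exact g2 S

omit [DecidableEq V] in
theorem iter_gen {s t : E → V} {κ : ℝ} (hκ : 0 < κ) {F : Finset E} (hG : Strength s t F κ) :
    gen s t F = ⊤ := by
  have h1 := hG (gen s t F)
  have h2 : F ∩ cross s t (gen s t F) = ∅ :=
    eq_empty_of_forall_notMem fun e he => mem_cross.1 (mem_inter.1 he).2 (gen_rel (mem_inter.1 he).1)
  rw [h2, card_empty, Nat.cast_zero] at h1
  rcases isEmpty_or_nonempty V with h | h
  · exact Setoid.ext fun a => h.elim a
  · refine eq_of_le_of_q_le le_top ?_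
    rw [q_top]
    exact_mod_cast sub_nonpos.1 (nonpos_of_mul_nonpos_right h1 hκ)

theorem iter_ind (s t : E → V) {A : ℝ} (h0 : 0 < A)
    (hA : ∀ j : ℕ, 10 ^ 58 * ((j : ℝ) + 2) ^ 60 ≤ A * 2 ^ (j + 1)) (j : ℕ) : ∀ F : Finset E,
    Strength s t F (A * 2 ^ j * (2 * (j + 1) / (j + 2))) → ∃ H : Finset E, gen s t H = ⊤ ∧
      ∀ S : Finset V, ((H ∩ cutS s t S).card : ℝ) ≤
        2 * (j + 1) / (j + 2) / 2 ^ j * (F ∩ cutS s t S).card := by
  induction j with
  | zero => exact fun F hF => ⟨F, iter_gen (by positivity) hF, fun S => by simp⟩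
  | succ j ih =>
    intro F hF
    have j0 : (0 : ℝ) ≤ j := Nat.cast_nonneg j
    push_cast at hF ⊢
    obtain ⟨H, g1, g2⟩ := iter_halve s t (σ := (j + 2) ^ 2) (by nlinarith) (by
      rw [← pow_mul]
      refine (hA j).trans (le_mul_of_one_le_right (by positivity) ?_)
      rw [le_div_iff₀ (by positivity)]
      linarith) hF
    obtain ⟨H', g3, g4⟩ := ih H (by
      refine Eq.mp (congrArg _ ?_) g1
      field_simp
      ring)
    refine ⟨H', g3, fun S => (g4 S).trans
      ((mul_le_mul_of_nonneg_left (g2 S) (by positivity)).trans ?_)⟩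
    rw [← mul_assoc]
    refine mul_le_mul_of_nonneg_right ?_ (Nat.cast_nonneg _)
    rw [pow_succ (2 : ℝ) j, div_mul_div_comm]
    refine div_le_div_of_nonneg_right ?_ (by positivity)
    rw [le_div_iff₀ (by positivity)]
    field_simp
    nlinarith [pow_nonneg j0 2, pow_nonneg j0 3, pow_nonneg j0 4]

omit [DecidableEq V] in
theorem iter_strength (s t : E → V) (k : ℕ)
    (h : ∀ S : Finset V, S.Nonempty → S ≠ univ → k ≤ (cutS s t S).card) :
    Strength s t univ (k / 2) := by
  classical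
  intro P
  have := Fintype.ofFinite (Quotient P)
  rw [univ_inter]
  by_cases hq : q P ≤ 1
  · exact (mul_nonpos_of_nonneg_of_nonpos (by positivity)
      (sub_nonpos.2 (by exact_mod_cast hq))).trans (Nat.cast_nonneg _)
  rw [q, Nat.card_eq_fintype_card] at hq ⊢
  have h1 : ∀ c : Quotient P, k ≤ ((cross s t P).filter fun e => Quotient.mk P (s e) = c).card +
      ((cross s t P).filter fun e => Quotient.mk P (t e) = c).card := fun c => by
    obtain ⟨c', hc⟩ := Fintype.exists_ne_of_one_lt_card (not_le.1 hq) c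
    refine (h (univ.filter fun v => Quotient.mk P v = c) ⟨c.out, by simp⟩ fun H => ?_).trans
      ((card_le_card fun e he => ?_).trans (card_union_le _ _))
    · exact hc (by simpa using H.ge (mem_univ c'.out))
    · simp only [mem_cutS, mem_filter, mem_univ, true_and] at he
      have h2 : e ∈ cross s t P := mem_cross.2 fun H => he (by rw [Quotient.sound H])
      simp only [mem_union, mem_filter, h2, true_and]
      tauto
  have h2 := sum_le_sum fun c (_ : c ∈ univ) => h1 c
  rw [sum_add_distrib, ← card_eq_sum_card_fiberwise fun _ _ => mem_univ _,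
    ← card_eq_sum_card_fiberwise fun _ _ => mem_univ _, sum_const, card_univ, smul_eq_mul] at h2
  have h3 : (Fintype.card (Quotient P) : ℝ) * k ≤ (cross s t P).card + (cross s t P).card := by
    exact_mod_cast h2
  have h4 : (0 : ℝ) ≤ k := Nat.cast_nonneg k
  linarith

theorem iter_const : ∃ A : ℝ, 0 < A ∧ ∀ j : ℕ, 10 ^ 58 * ((j : ℝ) + 2) ^ 60 ≤ A * 2 ^ (j + 1) := by
  obtain ⟨B, hB⟩ :=
    (tendsto_pow_const_div_const_pow_of_one_lt 60 (one_lt_two (α := ℝ))).bddAbove_range
  have h : ∀ n : ℕ, (n : ℝ) ^ 60 ≤ B * 2 ^ n := fun n =>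
    (div_le_iff₀ (by positivity)).1 (hB ⟨n, rfl⟩)
  have h1 := h 1
  refine ⟨10 ^ 58 * (B * 2), by norm_num at h1 ⊢; linarith, fun j => ?_⟩
  have h2 := h (j + 2)
  push_cast at h2
  rw [mul_assoc, mul_assoc, ← pow_succ']
  exact mul_le_mul_of_nonneg_left h2 (by positivity)

end Aux

theorem thin_connected : ∃ C : ℝ, ∀ (V E : Type) [Fintype V] [DecidableEq V] [Fintype E]
    [DecidableEq E] (s t : E → V) (k : ℕ), 1 ≤ k →
    (∀ S : Finset V, S.Nonempty → S ≠ univ → k ≤ (cutS s t S).card) →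
    ∃ H : Finset E, gen s t H = ⊤ ∧
      ∀ S : Finset V, ((H ∩ cutS s t S).card : ℝ) ≤ C / k * (cutS s t S).card := by
  obtain ⟨A, h0, hA⟩ := iter_const
  refine ⟨16 * A, fun V E _ _ _ _ s t k hk h => ?_⟩
  have h1 := iter_strength s t k h
  have k0 : (0 : ℝ) < k := by exact_mod_cast hk
  by_cases hkA : 1 ≤ k / (4 * A)
  · obtain ⟨j, g1, g2⟩ := exists_nat_pow_near hkA one_lt_two
    have g3 : 2 * ((j : ℝ) + 1) / (j + 2) ≤ 2 := by
      rw [div_le_iff₀ (by positivity)]
      linarith
    rw [le_div_iff₀ (by positivity)] at g1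
    rw [div_lt_iff₀ (by positivity), pow_succ] at g2
    obtain ⟨H, g4, g5⟩ := iter_ind s t h0 hA j univ (h1.halve_mono (by positivity)
      ((mul_le_mul_of_nonneg_left g3 (by positivity)).trans (by linarith)))
    refine ⟨H, g4, fun S => (g5 S).trans ?_⟩
    rw [univ_inter]
    refine mul_le_mul_of_nonneg_right ((div_le_div_of_nonneg_right g3 (by positivity)).trans ?_)
      (Nat.cast_nonneg _)
    rw [div_le_div_iff₀ (by positivity) k0]
    linarith
  · refine ⟨univ, iter_gen (by positivity) h1, fun S => ?_⟩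
    rw [not_le, div_lt_one (by positivity)] at hkA
    rw [univ_inter]
    exact le_mul_of_one_le_left (Nat.cast_nonneg _) ((one_le_div k0).2 (by linarith))

end Vale.Agent.P061
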