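import Mathlib

/-! Abstract barrier and selection arguments for stable multi-affine functions. -/

namespace Vale.Agent.P061.MSS

open Filter Topology

theorem quad_facts {A B C : ℝ} (hW : ∀ x : ℝ, 0 ≤ C * (x * x) + 2 * B * x + A) :
    0 ≤ A ∧ 0 ≤ C ∧ B ^ 2 ≤ A * C := by
  have hdisc : B ^ 2 ≤ A * C := by
    have := discrim_le_zero hW
    rw [discrim] at this
    nlinarith
  have hA0 : 0 ≤ A := by simpa using hW 0
  refine ⟨hA0, ?_, hdisc⟩
  by_contra hneg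
  push Not at hneg
  obtain ⟨y, hy⟩ : ∃ y, y = -(A + 1) / C := ⟨_, rfl⟩
  have h5 : 0 ≤ y := hy ▸ div_nonneg_of_nonpos (by linarith) hneg.le
  have h6 : C * y = -(A + 1) := by rw [hy]; field_simp [hneg.ne]
  have h3 := hW (y + 1)
  have h4 := hW (-(y + 1))
  have h7 : C * ((y + 1) * (y + 1)) = C * y * (y + 2) + C := by ring
  have h8 : -(y + 1) * -(y + 1) = (y + 1) * (y + 1) := by ring
  rw [h8] at h4
  rw [h7, h6] at h3 h4
  nlinarith [mul_nonneg hA0 h5]

theorem wr_facts {P0 P1 P2 A B C : ℝ} (h0 : 0 < P0) (h1 : 0 ≤ P1) (h2 : 0 ≤ P2) (hA0 : 0 ≤ A)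
    (hC0 : 0 ≤ C) (hdisc : B ^ 2 ≤ A * C) (hid : P1 * B = P2 * A + P0 * C) :
    0 ≤ B ∧ P0 * B ≤ A * P1 := by
  have hB0 : 0 ≤ B := by
    rcases h1.eq_or_lt with h | h
    · have h3 : C = 0 := by
        have : P0 * C ≤ 0 := by rw [← h] at hid; nlinarith [mul_nonneg h2 hA0]
        exact le_antisymm (by nlinarith) hC0
      rw [h3] at hdisc
      nlinarith
    · by_contra hneg
      push Not at hneg
      nlinarith [mul_nonneg h2 hA0, mul_nonneg h0.le hC0, mul_pos h (neg_pos.2 hneg)]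
  refine ⟨hB0, ?_⟩
  rcases hB0.eq_or_lt with h | h
  · rw [← h]; simpa using mul_nonneg hA0 h1
  · refine le_of_mul_le_mul_right ?_ h
    have : A * P1 * B = A * (P2 * A + P0 * C) := by rw [← hid]; ring
    rw [this]
    nlinarith [mul_nonneg hA0 (mul_nonneg h2 hA0), mul_le_mul_of_nonneg_left hdisc h0.le]

theorem final_ineq {p p' N N' W c θ : ℝ} (hc : 0 < c) (hθ : c * (1 - θ) = 1) (hppos : 0 < p)
    (hW0 : 0 ≤ W) (hwr : N' * p = N * p' - W) (hconv : N * p + c * W ≤ θ * p ^ 2)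
    (hp : p' ≤ θ * p) : N - N' ≤ θ * (p - p') := by
  have hd : p ≤ c * (p - p') := by
    have h1 := mul_le_mul_of_nonneg_left hp hc.le
    have h2 : c * (1 - θ) * p = p := by rw [hθ, one_mul]
    linarith
  have hd0 : 0 ≤ p - p' := by
    by_contra hneg
    push Not at hneg
    linarith [mul_pos hc (neg_pos.2 hneg)]
  refine le_of_mul_le_mul_right ?_ (mul_pos hppos hppos)
  have e5 : (N - N') * (p * p) = N * p * (p - p') + W * p := by
    linear_combination (-p) * hwr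
  rw [e5]
  linarith [mul_le_mul_of_nonneg_right hconv hd0, mul_le_mul_of_nonneg_left hd hW0]

/-- The real inequality behind one barrier step. -/
theorem real_step {P0 P1 P2 n0 n1 n2 c θ : ℝ} (h0 : 0 < P0) (h1 : 0 ≤ P1) (h2 : 0 ≤ P2)
    (hc : 0 < c) (hθ : c * (1 - θ) = 1)
    (hW : ∀ x : ℝ, (n1 * P0 - n0 * P1) + 2 * (n2 * P0 - n0 * P2) * x +
      (n2 * P1 - n1 * P2) * x ^ 2 ≤ 0)
    (hn : n0 ≤ θ * P0) (hp : P1 + 2 * P2 * c ≤ θ * (P0 + P1 * c + P2 * c ^ 2)) :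
    (n0 + n1 * c + n2 * c ^ 2) - (n1 + 2 * n2 * c) ≤
      θ * ((P0 + P1 * c + P2 * c ^ 2) - (P1 + 2 * P2 * c)) := by
  obtain ⟨A, hA⟩ : ∃ A, A = -(n1 * P0 - n0 * P1) := ⟨_, rfl⟩
  obtain ⟨B, hB⟩ : ∃ B, B = -(n2 * P0 - n0 * P2) := ⟨_, rfl⟩
  obtain ⟨C, hC⟩ : ∃ C, C = -(n2 * P1 - n1 * P2) := ⟨_, rfl⟩
  have hW' : ∀ x : ℝ, 0 ≤ C * (x * x) + 2 * B * x + A := fun x => by
    have := hW x
    rw [hA, hB, hC]
    linarith
  obtain ⟨hA0, hC0, hdisc⟩ := quad_facts hW'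
  have hid : P1 * B = P2 * A + P0 * C := by rw [hA, hB, hC]; ring
  obtain ⟨hB0, hAB⟩ := wr_facts h0 h1 h2 hA0 hC0 hdisc hid
  obtain ⟨p, hp0⟩ : ∃ p, p = P0 + P1 * c + P2 * c ^ 2 := ⟨_, rfl⟩
  obtain ⟨N, hN⟩ : ∃ N, N = n0 + n1 * c + n2 * c ^ 2 := ⟨_, rfl⟩
  obtain ⟨W, hWd⟩ : ∃ W, W = C * (c * c) + 2 * B * c + A := ⟨_, rfl⟩
  have hW0 : 0 ≤ W := hWd ▸ hW' c
  have hppos : 0 < p := by rw [hp0]; positivity
  have hconv : P0 * (N * p + c * W) ≤ n0 * p ^ 2 := by
    have e1 : n0 * p - N * P0 = c * (A + B * c) := by rw [hp0, hN, hA, hB]; ring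
    have e2 : (A + B * c) * p - P0 * W =
        c * (A * P1 - P0 * B) + c ^ 2 * (2 * P2 * A) + c ^ 3 * (B * P2) := by
      rw [hp0, hWd]
      linear_combination (c ^ 2) * hid
    have e3 : 0 ≤ (A + B * c) * p - P0 * W := by
      rw [e2]
      have := sub_nonneg.2 hAB
      positivity
    have e4 : n0 * p ^ 2 - P0 * (N * p + c * W) = c * ((A + B * c) * p - P0 * W) := by
      linear_combination p * e1
    linarith [mul_nonneg hc.le e3]
  have hconv' : N * p + c * W ≤ θ * p ^ 2 := by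
    refine le_of_mul_le_mul_left ?_ h0
    linarith [mul_le_mul_of_nonneg_right hn (sq_nonneg p)]
  rw [← hp0] at hp ⊢
  rw [← hN]
  refine final_ineq hc hθ hppos hW0 ?_ hconv' hp
  rw [hp0, hN, hWd, hA, hB, hC]
  ring

/-- Selection of one of two functions from positivity of the average. -/
theorem select_aux {f g : ℝ → ℝ} (hf : Continuous f) (hg : Continuous g)
    (hev : ∀ᶠ x in atTop, 0 < f x)
    (hmono : ∀ p, 0 ≤ p → p ≤ 1 → (∀ x, 0 ≤ x → 0 < (1 - p) * f x + p * g x) →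
      ∀ x, 0 ≤ x → (1 - p) * f 0 + p * g 0 ≤ (1 - p) * f x + p * g x)
    (hsum : ∀ x, 0 ≤ x → 0 < f x + g x) (h0 : 0 < f 0) : ∀ x, 0 ≤ x → 0 < f x := by
  by_contra hcon
  push Not at hcon
  obtain ⟨x1, hx1, hfx1⟩ := hcon
  obtain ⟨R, hR⟩ := eventually_atTop.1 hev
  let B : Set ℝ := Set.Icc 0 R ∩ {x | f x ≤ 0}
  have hBc : IsCompact B := isCompact_Icc.inter_right (isClosed_le hf continuous_const)
  have hmemB : ∀ x, 0 ≤ x → f x ≤ 0 → x ∈ B := fun x hx hfx =>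
    ⟨⟨hx, by by_contra h; push Not at h; exact absurd (hR x h.le) (not_lt.2 hfx)⟩, hfx⟩
  have hden : ∀ x ∈ B, 0 < g x - f x := fun x hx => by
    have := hsum x hx.1.1
    have h2 : f x ≤ 0 := hx.2
    linarith
  have hcont : ContinuousOn (fun x => -f x / (g x - f x)) B :=
    (hf.neg.continuousOn).div (hg.sub hf).continuousOn fun x hx => (hden x hx).ne'
  obtain ⟨y, hy, hmax⟩ := hBc.exists_isMaxOn ⟨x1, hmemB x1 hx1 hfx1⟩ hcont
  obtain ⟨s, hs⟩ : ∃ s, s = -f y / (g y - f y) := ⟨_, rfl⟩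
  have hfy : f y ≤ 0 := hy.2
  have hs0 : 0 ≤ s := by rw [hs]; exact div_nonneg (by linarith) (hden y hy).le
  have hs1 : s < 1 / 2 := by
    rw [hs, div_lt_iff₀ (hden y hy)]
    have := hsum y hy.1.1
    linarith
  have hsy : (1 - s) * f y + s * g y = 0 := by
    have : s * (g y - f y) = -f y := by rw [hs]; field_simp [(hden y hy).ne']
    linarith
  have hpos : ∀ p, s < p → p ≤ 1 / 2 → (1 - p) * f 0 + p * g 0 ≤ (1 - p) * f y + p * g y := by
    intro p hp1 hp2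
    refine hmono p (by linarith) (by linarith) (fun x hx => ?_) y hy.1.1
    by_cases hfx : f x ≤ 0
    · have hxB := hmemB x hx hfx
      have h3 : -f x / (g x - f x) ≤ s := hs ▸ hmax hxB
      rw [div_le_iff₀ (hden x hxB)] at h3
      nlinarith [mul_pos (sub_pos.2 hp1) (hden x hxB)]
    · push Not at hfx
      have := hsum x hx
      have hp0 : 0 < p := by linarith
      nlinarith [mul_pos hp0 this, mul_nonneg (by linarith : 0 ≤ 1 - 2 * p) hfx.le]
  have hlim : (1 - s) * f 0 + s * g 0 ≤ (1 - s) * f y + s * g y := by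
    have hc1 : ContinuousAt (fun p : ℝ => (1 - p) * f 0 + p * g 0) s := by fun_prop
    have hc2 : ContinuousAt (fun p : ℝ => (1 - p) * f y + p * g y) s := by fun_prop
    refine le_of_tendsto_of_tendsto (b := 𝓝[>] s) (hc1.tendsto.mono_left nhdsWithin_le_nhds)
      (hc2.tendsto.mono_left nhdsWithin_le_nhds) ?_
    filter_upwards [Ioo_mem_nhdsGT hs1] with p hp using hpos p hp.1 hp.2.le
  have := hsum 0 le_rfl
  nlinarith [mul_nonneg hs0 this.le, mul_pos (by linarith : 0 < 1 - 2 * s) h0]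

theorem select {f g : ℝ → ℝ} (hf : Continuous f) (hg : Continuous g)
    (hev : ∀ᶠ x in atTop, 0 < f x) (hev' : ∀ᶠ x in atTop, 0 < g x)
    (hmono : ∀ p, 0 ≤ p → p ≤ 1 → (∀ x, 0 ≤ x → 0 < (1 - p) * f x + p * g x) →
      ∀ x, 0 ≤ x → (1 - p) * f 0 + p * g 0 ≤ (1 - p) * f x + p * g x)
    (hsum : ∀ x, 0 ≤ x → 0 < f x + g x) :
    (∀ x, 0 ≤ x → 0 < f x) ∨ ∀ x, 0 ≤ x → 0 < g x := by
  by_cases h0 : 0 < f 0
  · exact Or.inl (select_aux hf hg hev hmono hsum h0)
  · refine Or.inr (select_aux hg hf hev' (fun p hp0 hp1 h x hx => ?_)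
      (fun x hx => by have := hsum x hx; linarith) (by have := hsum 0 le_rfl; linarith))
    have := hmono (1 - p) (by linarith) (by linarith) (fun x hx => by have := h x hx; linarith)
      x hx
    linarith

/-- A polynomial with only real roots, none of them in `[0, ∞)`, grows in norm there. -/
theorem norm_eval_mono (q : Polynomial ℂ) (hq : ∀ ζ : ℂ, q.eval ζ = 0 → ζ.re < 0) {x : ℝ}
    (hx : 0 ≤ x) : ‖q.eval 0‖ ≤ ‖q.eval (x : ℂ)‖ := by
  have hq0 : q ≠ 0 := by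
    rintro rfl
    simpa using hq 0 (by simp)
  rw [(IsAlgClosed.splits q).eval_eq_prod_roots, (IsAlgClosed.splits q).eval_eq_prod_roots,
    norm_mul, norm_mul]
  refine mul_le_mul_of_nonneg_left ?_ (norm_nonneg _)
  have key : ∀ m : Multiset ℂ, (∀ ρ ∈ m, ρ.re < 0) →
      ‖(m.map fun ρ => (0 : ℂ) - ρ).prod‖ ≤ ‖(m.map fun ρ => (x : ℂ) - ρ).prod‖ := by
    intro m
    induction m using Multiset.induction_on with
    | empty => simp
    | cons ρ m ih =>
      intro h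
      simp only [Multiset.map_cons, Multiset.prod_cons, norm_mul]
      refine mul_le_mul ?_ (ih fun σ hσ => h σ (Multiset.mem_cons_of_mem hσ)) (norm_nonneg _)
        (norm_nonneg _)
      have h1 := h ρ (Multiset.mem_cons_self _ _)
      rw [← sq_le_sq₀ (norm_nonneg _) (norm_nonneg _), Complex.sq_norm, Complex.sq_norm,
        Complex.normSq_apply, Complex.normSq_apply]
      simp only [Complex.sub_re, Complex.zero_re, Complex.sub_im, Complex.zero_im,
        Complex.ofReal_re, Complex.ofReal_im]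
      nlinarith [mul_nonneg hx (neg_pos.2 h1).le]
  exact key _ fun ρ hρ => hq ρ ((Polynomial.mem_roots hq0).1 hρ)

end Vale.Agent.P061.MSS
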