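import Vale.Agent.P061.Defs

/-! Pruning a graph to a Steiner forest, Kruskal forests, and the coarea bound. -/

namespace Vale.Agent.P061

open Finset Matrix

variable {V E α : Type} [Fintype V] [DecidableEq V]

omit [DecidableEq V] in
theorem prune_forest [DecidableEq α] (s t : α → V) (B : Finset α)
    (h : ∀ e ∈ B, ¬ gen s t (B.erase e) (s e) (t e)) :
    B.card + q (gen s t B) = Fintype.card V := by
  induction B using Finset.induction_on with
  | empty => rw [gen_empty, q_bot, card_empty, zero_add]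
  | insert e B he ih =>
    have h1 := h e (mem_insert_self _ _)
    rw [erase_insert he] at h1
    have h2 := ih fun f hf H => h f (mem_insert_of_mem hf)
      (gen_mono (erase_subset_erase f (subset_insert _ _)) H)
    have h3 := q_sup_link h1
    rw [gen_insert, card_insert_of_notMem he]
    omega

theorem prune_zero (s t : α → V) (B : Finset α) :
    (univ.filter fun v => deg s t B v = 0).card ≤ q (gen s t B) := by
  classical
  have := Fintype.ofFinite (Quotient (gen s t B))
  rw [q, Nat.card_eq_fintype_card, ← card_univ]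
  refine card_le_card_of_injOn (Quotient.mk _) (fun _ _ => mem_univ _) fun u hu v _ huv => ?_
  have h0 : deg s t B u = 0 := (mem_filter.1 hu).2
  rw [deg, Nat.add_eq_zero_iff, card_eq_zero, card_eq_zero, filter_eq_empty_iff,
    filter_eq_empty_iff] at h0
  have h1 : gen s t B ≤ Setoid.ker fun x => x = u :=
    gen_le_iff.2 fun e he => Setoid.ker_def.2 (by simp [h0.1 he, h0.2 he])
  have h2 : (u = u) = (v = u) := Setoid.ker_def.1 (h1 (Quotient.exact huv))
  exact (h2 ▸ rfl : v = u).symm

omit [Fintype V] in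
theorem prune_one {s t : α → V} {B : Finset α} {v : V} (h : deg s t B v = 1) :
    ∃ e ∈ B, (s e = v ∨ t e = v) ∧ ∀ f ∈ B, f ≠ e → s f ≠ v ∧ t f ≠ v := by
  rw [deg, Nat.add_eq_one_iff, card_eq_zero, card_eq_zero, card_eq_one, card_eq_one] at h
  rcases h with ⟨h0, e, h1⟩ | ⟨⟨e, h1⟩, h0⟩
  · have he := mem_filter.1 (h1.ge (mem_singleton_self e))
    exact ⟨e, he.1, Or.inr he.2, fun f hf hfe => ⟨filter_eq_empty_iff.1 h0 hf, fun H =>
      hfe (mem_singleton.1 (h1.le (mem_filter.2 ⟨hf, H⟩)))⟩⟩
  · have he := mem_filter.1 (h1.ge (mem_singleton_self e))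
    exact ⟨e, he.1, Or.inl he.2, fun f hf hfe => ⟨fun H =>
      hfe (mem_singleton.1 (h1.le (mem_filter.2 ⟨hf, H⟩))), filter_eq_empty_iff.1 h0 hf⟩⟩

theorem prune [DecidableEq α] (s t : α → V) (A : Finset α) (T : Finset V) :
    ∃ B ⊆ A, (∀ u ∈ T, ∀ v ∈ T, gen s t A u v → gen s t B u v) ∧ (∀ e ∈ B, s e ≠ t e) ∧
      (∀ v, v ∉ T → deg s t B v ≠ 1) ∧ ∑ v, (deg s t B v - 2) ≤ T.card := by
  classical
  obtain ⟨B, hB, hmin⟩ := exists_min_image (A.powerset.filter fun B =>
    ∀ u ∈ T, ∀ v ∈ T, gen s t A u v → gen s t B u v) card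
    ⟨A, mem_filter.2 ⟨mem_powerset_self A, fun _ _ _ _ h => h⟩⟩
  obtain ⟨hA, hT⟩ := mem_filter.1 hB
  rw [mem_powerset] at hA
  have key : ∀ e ∈ B, ¬ ∀ u ∈ T, ∀ v ∈ T, gen s t B u v → gen s t (B.erase e) u v := by
    intro e he H
    have := hmin (B.erase e) (mem_filter.2 ⟨mem_powerset.2 ((erase_subset _ _).trans hA),
      fun u hu v hv h => H u hu v hv (hT u hu v hv h)⟩)
    exact (card_erase_lt_of_mem he).not_ge this
  have br : ∀ e ∈ B, ¬ gen s t (B.erase e) (s e) (t e) := fun e he H => key e he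
    fun u _ v _ h => by rwa [← insert_erase he, gen_insert, sup_link_of_rel H] at h
  have h1 : ∀ v, v ∉ T → deg s t B v ≠ 1 := by
    intro v hv H
    obtain ⟨e, he, h2, h3⟩ := prune_one H
    refine key e he fun u hu w hw h => ?_
    have h4 : gen s t B ≤ Setoid.comap
        (fun x => if x = v then if s e = v then t e else s e else x) (gen s t (B.erase e)) := by
      refine gen_le_iff.2 fun f hf => (Setoid.comap_rel _ _ _ _).2 ?_
      by_cases hfe : f = e
      · subst hfe
        by_cases h5 : s f = v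
        · simp only [h5, if_true, ite_self]
          exact Setoid.refl' _ _
        · simp only [h5, if_false, h2.resolve_left h5, if_true]
          exact Setoid.refl' _ _
      · simp only [(h3 f hf hfe).1, (h3 f hf hfe).2, if_false]
        exact gen_rel (mem_erase.2 ⟨hfe, hf⟩)
    have h5 := (Setoid.comap_rel _ _ _ _).1 (h4 h)
    rwa [if_neg fun H : u = v => hv (H ▸ hu), if_neg fun H : w = v => hv (H ▸ hw)] at h5
  refine ⟨B, hA, hT, fun e he H => br e he (H ▸ Setoid.refl' _ _), h1, ?_⟩
  have e1 : ∑ v, deg s t B v = 2 * B.card := by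
    simp only [deg, sum_add_distrib]
    rw [← card_eq_sum_card_fiberwise fun _ _ => mem_univ _,
      ← card_eq_sum_card_fiberwise fun _ _ => mem_univ _, two_mul]
  have e2 : ∑ v, (deg s t B v - 2 + 2) = ∑ v, (deg s t B v +
      2 * (if deg s t B v = 0 then 1 else 0) + if deg s t B v = 1 then 1 else 0) :=
    sum_congr rfl fun v _ => by split_ifs <;> omega
  have e3 : (univ.filter fun v => deg s t B v = 1).card ≤ T.card :=
    card_le_card fun v hv => by_contra fun H => h1 v H (mem_filter.1 hv).2
  have e4 := prune_zero s t B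
  have e5 := prune_forest s t B br
  rw [sum_add_distrib, sum_add_distrib, sum_add_distrib, ← mul_sum, ← card_filter, ← card_filter,
    e1, sum_const, card_univ, smul_eq_mul] at e2
  omega

omit [DecidableEq V] in
theorem kruskal_aux [Fintype E] [DecidableEq E] (s t : E → V) (w : E → ℝ) {K : ℝ} (hK : 0 < K)
    {P' : Setoid V} (hst : StrongAt s t K P') (n : ℕ) : ∀ P ≤ P', q P = n → ∀ y : ℝ,
    (∀ e ∈ cross s t P \ cross s t P', y ≤ w e) →
    ∃ τ ⊆ cross s t P \ cross s t P', P ⊔ gen s t τ = P' ∧ τ.card + q P' = q P ∧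
      K * ∑ e ∈ τ, (w e - y) ≤ ∑ e ∈ cross s t P \ cross s t P', (w e - y) := by
  induction n using Nat.strong_induction_on with
  | _ n ih =>
  intro P hPP hn y hy
  by_cases hP : P = P'
  · subst hP
    exact ⟨∅, empty_subset _, by simp [gen_empty], by simp, by simp⟩
  have h1 : q P' < q P := not_le.1 fun H => hP (eq_of_le_of_q_le hPP H)
  have h2 := hst P hPP
  have h3 : (cross s t P \ cross s t P').Nonempty := by
    have : (q P' : ℝ) < q P := by exact_mod_cast h1
    exact card_pos.1 (by exact_mod_cast (mul_pos hK (sub_pos.2 this)).trans_le h2)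
  obtain ⟨e, he, hmin⟩ := exists_min_image _ w h3
  obtain ⟨h4, h5⟩ := mem_sdiff.1 he
  rw [mem_cross] at h4 h5
  have h6 := q_sup_link h4
  have h7 : cross s t (P ⊔ link (s e) (t e)) \ cross s t P' ⊆ cross s t P \ cross s t P' :=
    sdiff_subset_sdiff (cross_anti s t le_sup_left) le_rfl
  obtain ⟨τ, g1, g2, g3, g4⟩ := ih _ (by omega) (P ⊔ link (s e) (t e))
    (sup_le hPP (link_le_iff.2 (not_not.1 h5))) rfl (w e) fun f hf => hmin f (h7 hf)
  have g5 : e ∉ τ := fun H => mem_cross.1 (mem_sdiff.1 (g1 H)).1 (link_le_iff.1 le_sup_right)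
  have g6 : (insert e τ).card + q P' = q P := by rw [card_insert_of_notMem g5]; omega
  refine ⟨insert e τ, insert_subset he (g1.trans h7), ?_, g6, ?_⟩
  · rw [gen_insert, sup_comm (gen s t τ), ← sup_assoc, g2]
  · have g7 := g4.trans (sum_le_sum_of_subset_of_nonneg h7 fun f hf _ => sub_nonneg.2 (hmin f hf))
    have g8 : ((insert e τ).card : ℝ) = q P - q P' := by rw [← g6]; push_cast; ring
    have g9 : ∑ f ∈ insert e τ, (w f - w e) = ∑ f ∈ τ, (w f - w e) := by
      rw [sum_insert g5, sub_self, zero_add]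
    rw [← g9] at g7
    rw [← g8] at h2
    simp only [sum_sub_distrib, sum_const, nsmul_eq_mul] at g7 ⊢
    have := mul_le_mul_of_nonneg_left h2 (sub_nonneg.2 (hy e he))
    linarith

omit [DecidableEq V] in
/-- A cheap forest of cross edges joining the classes of `P` inside the classes of `P'`. -/
theorem kruskal [Fintype E] [DecidableEq E] (s t : E → V) (w : E → ℝ) (hw : ∀ e, 0 ≤ w e)
    {K : ℝ} (hK : 0 < K) {P P' : Setoid V} (hPP : P ≤ P') (hst : StrongAt s t K P') :
    ∃ τ ⊆ cross s t P \ cross s t P', P ⊔ gen s t τ = P' ∧ τ.card ≤ q P ∧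
      K * ∑ e ∈ τ, w e ≤ ∑ e ∈ cross s t P \ cross s t P', w e := by
  obtain ⟨τ, h1, h2, h3, h4⟩ := kruskal_aux s t w hK hst _ P hPP rfl 0 fun e _ => hw e
  exact ⟨τ, h1, h2, by omega, by simpa only [sub_zero] using h4⟩

omit [Fintype V] [DecidableEq V] in
open Classical in
/-- If every level in `[a, b)` is crossed by `n` edges, the variation is at least `n (b - a)`. -/
theorem coarea (s t : α → V) (A : Finset α) (f : V → ℝ) {a b : ℝ} (hab : a ≤ b) (n : ℕ)
    (h : ∀ y, a ≤ y → y < b → n ≤ (A.filter fun e => ¬ (y < f (s e) ↔ y < f (t e))).card) :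
    n * (b - a) ≤ ∑ e ∈ A, |f (s e) - f (t e)| := by
  have I : ∀ a b c : ℝ, MeasureTheory.Integrable ((Set.Ico a b).indicator fun _ => c) :=
    fun a b c => (MeasureTheory.integrableOn_const (by simp)).integrable_indicator
      measurableSet_Ico
  have h1 := MeasureTheory.integral_mono (I a b n) (MeasureTheory.integrable_finsetSum A
    fun e _ => I (min (f (s e)) (f (t e))) (max (f (s e)) (f (t e))) 1) fun y => by
      beta_reduce
      by_cases hy : y ∈ Set.Ico a b
      · rw [Set.indicator_of_mem hy]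
        refine (Nat.cast_le.2 (h y hy.1 hy.2)).trans (le_of_eq ?_)
        rw [card_filter, Nat.cast_sum]
        refine sum_congr rfl fun e _ => ?_
        have : y ∈ Set.Ico (min (f (s e)) (f (t e))) (max (f (s e)) (f (t e))) ↔
            ¬ (y < f (s e) ↔ y < f (t e)) := by
          rw [Set.mem_Ico, min_le_iff, lt_max_iff, ← not_lt, ← not_lt]
          tauto
        simp only [Set.indicator_apply, this, Nat.cast_ite, Nat.cast_one, Nat.cast_zero]
      · rw [Set.indicator_of_notMem hy]
        exact sum_nonneg fun e _ => Set.indicator_nonneg (fun _ _ => zero_le_one) y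
  rw [MeasureTheory.integral_finsetSum _ fun e _ => I _ _ _] at h1
  simp only [MeasureTheory.integral_indicator_const _ measurableSet_Ico, smul_eq_mul, mul_one,
    Real.volume_real_Ico_of_le hab, Real.volume_real_Ico_of_le min_le_max, max_sub_min_eq_abs']
    at h1
  rwa [mul_comm]

omit [Fintype V] [DecidableEq V] in
/-- Connected points: the variation dominates the difference. -/
theorem abs_sub_le_of_gen (s t : α → V) (A : Finset α) (f : V → ℝ) {u v : V}
    (h : gen s t A u v) : |f u - f v| ≤ ∑ e ∈ A, |f (s e) - f (t e)| := by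
  wlog huv : f u ≤ f v generalizing u v
  · rw [abs_sub_comm]
    exact this (Setoid.symm' _ h) (not_le.1 huv).le
  have := coarea s t A f huv 1 fun y h1 h2 => card_pos.2 (by
    by_contra H
    rw [not_nonempty_iff_eq_empty, filter_eq_empty_iff] at H
    have h3 : gen s t A ≤ Setoid.ker fun x => y < f x :=
      gen_le_iff.2 fun e he => Setoid.ker_def.2 (propext (not_not.1 (H he)))
    have h4 : (y < f u) = (y < f v) := Setoid.ker_def.1 (h3 h)
    exact h1.not_gt (h4 ▸ h2))
  rwa [abs_sub_comm, abs_of_nonneg (sub_nonneg.2 huv), ← one_mul (f v - f u), ← Nat.cast_one]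

end Vale.Agent.P061
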