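import Vale.Agent.P061.SaveB

/-! The saving step of the Steiner potential. -/

namespace Vale.Agent.P061

open Finset Matrix

variable {V E : Type} [Fintype V] [DecidableEq V] [Fintype E] [DecidableEq E]

theorem plain_step (s t : E → V) {d : V → V → ℝ} (hd : IsPM d) {K : ℝ} (hK : 0 < K)
    {P P' : Setoid V} (hPP : P ≤ P') (hst : StrongAt s t K P') {Γ : Finset (V × V)}
    (hΓ : Valid P (ends s t (cross s t P)) Γ) :
    ∃ Γ', Valid P' (ends s t (cross s t P')) Γ' ∧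
      len d Γ' ≤ len d Γ + (∑ e ∈ cross s t P \ cross s t P', d (s e) (t e)) / K := by
  obtain ⟨Γ0, W, h1, -, -, h4⟩ := step0 s t hd hK hPP hst hΓ
  exact ⟨Γ0, h1.mono (ends_mono s t (cross_anti s t hPP)), h4⟩

theorem save_step (s t : E → V) {d : V → V → ℝ} (hd : IsPM d) {K : ℝ} (hK : 0 < K)
    {P P' : Setoid V} (hPP : P ≤ P') (hst : StrongAt s t K P') {Γ : Finset (V × V)}
    (hΓ : Valid P (ends s t (cross s t P)) Γ) {L r : ℝ} (hr : 0 < r) (hrL : r ≤ L)
    (S : Finset V) (hsep : ∀ u ∈ S, ∀ u' ∈ S, u ≠ u' → r ≤ d u u')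
    (hS : ∀ u ∈ S, ∃ e ∈ cross s t P \ cross s t P', (s e = u ∨ t e = u) ∧ d (s e) (t e) ≤ L) :
    ∃ Γ', Valid P' (ends s t (cross s t P')) Γ' ∧
      len d Γ' ≤ len d Γ + (∑ e ∈ cross s t P \ cross s t P', d (s e) (t e)) / K -
        (S.card * r / 144 - 36 * L * (cross s t P').card - 5 * L * q P) := by
  obtain ⟨Γ0, W, h1, h2, h3, h4⟩ := step0 s t hd hK hPP hst hΓ
  have hL : 0 < L := hr.trans_le hrL
  have hT := ends_mono s t (cross_anti s t hPP)
  have hT' : ((ends s t (cross s t P')).card : ℝ) ≤ 2 * (cross s t P').card := by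
    exact_mod_cast card_ends_le s t _
  have hW : (W.card : ℝ) ≤ 2 * q P := by exact_mod_cast h2
  have hST : S ⊆ ends s t (cross s t P) := fun u hu => by
    obtain ⟨e, he, h, -⟩ := hS u hu
    exact mem_ends.2 ⟨e, (mem_sdiff.1 he).1, h⟩
  obtain ⟨H, hHS, hH1, hH2⟩ := exists_net hd P' S (D := 8 * L) (by linarith)
  have hq0 : (0 : ℝ) ≤ q P := Nat.cast_nonneg _
  have hc0 : (0 : ℝ) ≤ (cross s t P').card := Nat.cast_nonneg _
  by_cases hcase : S.card * r ≤ 144 * L * H.card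
  · have hm : ∀ a ∈ H, ∃ b, b ∈ ends s t (cross s t P) ∧ P' a b ∧ ¬ P a b ∧ d a b ≤ L := by
      intro a ha
      obtain ⟨e, he, h, hl⟩ := hS a (hHS ha)
      obtain ⟨he1, he2⟩ := mem_sdiff.1 he
      have he3 := mem_cross.1 he1
      rw [mem_cross, not_not] at he2
      rcases h with rfl | rfl
      · exact ⟨t e, mem_ends.2 ⟨e, he1, Or.inr rfl⟩, he2, he3, hl⟩
      · exact ⟨s e, mem_ends.2 ⟨e, he1, Or.inl rfl⟩, P'.symm' he2, fun h => he3 (P.symm' h),
          by rwa [hd.symm]⟩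
    choose! m hm using hm
    obtain ⟨Γ', h5, h6⟩ := save_many hd hPP h1 hT h3 hL (hHS.trans hST) hH1 m hm
    refine ⟨Γ', h5, h6.trans ?_⟩
    nlinarith [mul_le_mul_of_nonneg_left hT' hL.le, mul_le_mul_of_nonneg_left hW hL.le,
      mul_nonneg hL.le hq0, mul_nonneg hL.le hc0]
  · obtain ⟨Γ', h5, h6⟩ := save_few hd h1 hT hr (by linarith) hST hsep hH2
    refine ⟨Γ', h5, h6.trans ?_⟩
    have hq : (q P' : ℝ) ≤ q P := by exact_mod_cast q_anti hPP
    have hH0 : (0 : ℝ) ≤ H.card := Nat.cast_nonneg _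
    have hT0 : (0 : ℝ) ≤ (ends s t (cross s t P')).card := Nat.cast_nonneg _
    have hS0 : (0 : ℝ) ≤ S.card * r := by positivity
    have e1 : (q P' : ℝ) * r ≤ q P * L := mul_le_mul hq hrL hr.le hq0
    have e2 : (H.card : ℝ) * r ≤ H.card * L := mul_le_mul_of_nonneg_left hrL hH0
    have e3 : r * (ends s t (cross s t P')).card ≤ L * (ends s t (cross s t P')).card :=
      mul_le_mul_of_nonneg_right hrL hT0
    nlinarith [mul_le_mul_of_nonneg_left hT' hL.le, mul_nonneg hL.le hq0, mul_nonneg hL.le hc0]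

end Vale.Agent.P061
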