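import Vale.Agent.P061.Surgery

/-! Preparations for the saving step: joining classes, nets, and the case of few hubs. -/

namespace Vale.Agent.P061

open Finset Matrix

variable {V E : Type} [Fintype V] [DecidableEq V]

omit [Fintype V] in
theorem mem_ends {s t : E → V} {A : Finset E} {v : V} :
    v ∈ ends s t A ↔ ∃ e ∈ A, s e = v ∨ t e = v := by
  simp only [ends, mem_union, mem_image]
  constructor
  · rintro (⟨e, he, h⟩ | ⟨e, he, h⟩)
    · exact ⟨e, he, Or.inl h⟩
    · exact ⟨e, he, Or.inr h⟩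
  · rintro ⟨e, he, h | h⟩
    · exact Or.inl ⟨e, he, h⟩
    · exact Or.inr ⟨e, he, h⟩

omit [Fintype V] in
theorem ends_mono (s t : E → V) {A B : Finset E} (h : A ⊆ B) : ends s t A ⊆ ends s t B :=
  union_subset_union (image_subset_image h) (image_subset_image h)

omit [Fintype V] in
theorem card_ends_le (s t : E → V) (A : Finset E) : (ends s t A).card ≤ 2 * A.card := by
  have h1 := card_union_le (A.image s) (A.image t)
  have h2 : (A.image s).card ≤ A.card := card_image_le
  have h3 : (A.image t).card ≤ A.card := card_image_le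
  unfold ends
  omega

omit [Fintype V] [DecidableEq V] in
theorem Valid.mono {P : Setoid V} {T T' : Finset V} {Γ : Finset (V × V)} (h : Valid P T Γ)
    (hT : T' ⊆ T) : Valid P T' Γ :=
  ⟨h.1, fun u hu v hv huv => h.2 u (hT hu) v (hT hv) huv⟩

theorem step0 [Fintype E] [DecidableEq E] (s t : E → V) {d : V → V → ℝ} (hd : IsPM d) {K : ℝ}
    (hK : 0 < K) {P P' : Setoid V} (hPP : P ≤ P') (hst : StrongAt s t K P') {Γ : Finset (V × V)}
    (hΓ : Valid P (ends s t (cross s t P)) Γ) :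
    ∃ (Γ0 : Finset (V × V)) (W : Finset V), Valid P' (ends s t (cross s t P)) Γ0 ∧
      W.card ≤ 2 * q P ∧ (∀ p ∈ Γ0, P p.1 p.2 ∨ (p.1 ∈ W ∧ p.2 ∈ W)) ∧
      len d Γ0 ≤ len d Γ + (∑ e ∈ cross s t P \ cross s t P', d (s e) (t e)) / K := by
  obtain ⟨τ, hτ, hsup, hcard, hw⟩ :=
    kruskal s t (fun e => d (s e) (t e)) (fun e => hd.nonneg _ _) hK hPP hst
  set T := ends s t (cross s t P) with hT
  set Γ0 := Γ ∪ τ.image (fun e => (s e, t e)) with hΓ0
  refine ⟨Γ0, ends s t τ, ⟨?_, ?_⟩, (card_ends_le s t τ).trans (by omega), ?_, ?_⟩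
  · intro p hp
    rcases mem_union.1 hp with hp | hp
    · exact hPP (hΓ.1 p hp)
    · obtain ⟨e, he, rfl⟩ := mem_image.1 hp
      have := (mem_sdiff.1 (hτ he)).2
      rw [mem_cross, not_not] at this
      exact this
  · set C := gen Prod.fst Prod.snd Γ0 with hC
    have hPC : ∀ u ∈ T, ∀ v ∈ T, P u v → C u v := fun u hu v hv huv =>
      gen_mono subset_union_left (hΓ.2 u hu v hv huv)
    let Q : Setoid V := ⟨fun a b => P a b ∨ ∃ u ∈ T, ∃ v ∈ T, P a u ∧ C u v ∧ P v b,
      ⟨fun x => Or.inl (P.refl' x), fun {x y} h => by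
        rcases h with h | ⟨u, hu, v, hv, h1, h2, h3⟩
        · exact Or.inl (P.symm' h)
        · exact Or.inr ⟨v, hv, u, hu, P.symm' h3, C.symm' h2, P.symm' h1⟩, fun {x y z} h h' => by
        rcases h with h | ⟨u, hu, v, hv, h1, h2, h3⟩ <;>
          rcases h' with h' | ⟨u', hu', v', hv', h4, h5, h6⟩
        · exact Or.inl (P.trans' h h')
        · exact Or.inr ⟨u', hu', v', hv', P.trans' h h4, h5, h6⟩
        · exact Or.inr ⟨u, hu, v, hv, h1, h2, P.trans' h3 h'⟩
        · exact Or.inr ⟨u, hu, v', hv', h1,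
            C.trans' h2 (C.trans' (hPC v hv u' hu' (P.trans' h3 h4)) h5), h6⟩⟩⟩
    have hQ : P' ≤ Q := by
      rw [← hsup]
      refine sup_le (fun _ _ h => Or.inl h) (gen_le_iff.2 fun e he => Or.inr ?_)
      have he' := (mem_sdiff.1 (hτ he)).1
      exact ⟨s e, mem_ends.2 ⟨e, he', Or.inl rfl⟩, t e, mem_ends.2 ⟨e, he', Or.inr rfl⟩,
        P.refl' _, gen_rel (s := Prod.fst) (t := Prod.snd) (e := (s e, t e))
          (mem_union_right _ (mem_image_of_mem _ he)), P.refl' _⟩
    intro u hu v hv huv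
    rcases hQ huv with h | ⟨u', hu', v', hv', h1, h2, h3⟩
    · exact hPC u hu v hv h
    · exact C.trans' (hPC u hu u' hu' h1) (C.trans' h2 (hPC v' hv' v hv h3))
  · intro p hp
    rcases mem_union.1 hp with hp | hp
    · exact Or.inl (hΓ.1 p hp)
    · obtain ⟨e, he, rfl⟩ := mem_image.1 hp
      exact Or.inr ⟨mem_ends.2 ⟨e, he, Or.inl rfl⟩, mem_ends.2 ⟨e, he, Or.inr rfl⟩⟩
  · have h1 := len_union_le hd Γ (τ.image fun e => (s e, t e))
    have h2 := len_image_le hd τ (fun e => (s e, t e))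
    have h3 : ∑ e ∈ τ, d (s e) (t e) ≤ (∑ e ∈ cross s t P \ cross s t P', d (s e) (t e)) / K := by
      rw [le_div_iff₀ hK]
      linarith
    simp only at h2
    linarith

omit [Fintype V] in
theorem exists_net {d : V → V → ℝ} (hd : IsPM d) (P : Setoid V) (S : Finset V) {D : ℝ}
    (hD : 0 < D) : ∃ H ⊆ S, (∀ a ∈ H, ∀ b ∈ H, a ≠ b → P a b → D ≤ d a b) ∧
      ∀ u ∈ S, ∃ a ∈ H, P u a ∧ d u a < D := by
  classical
  let N : Finset V → Prop := fun H => ∀ a ∈ H, ∀ b ∈ H, a ≠ b → P a b → D ≤ d a b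
  obtain ⟨H, hH, hmax⟩ := exists_max_image (S.powerset.filter N) card
    ⟨∅, mem_filter.2 ⟨empty_mem_powerset S, by simp [N]⟩⟩
  rw [mem_filter, mem_powerset] at hH
  refine ⟨H, hH.1, hH.2, fun u hu => ?_⟩
  by_contra hc
  push Not at hc
  have huH : u ∉ H := fun h => by
    have := hc u h (P.refl' u)
    rw [hd.self] at this
    linarith
  have := hmax (insert u H) (mem_filter.2 ⟨mem_powerset.2 (insert_subset hu hH.1), by
    intro a ha b hb hab hP
    rcases mem_insert.1 ha with ha' | ha' <;> rcases mem_insert.1 hb with hb' | hb'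
    · exact absurd (ha'.trans hb'.symm) hab
    · subst ha'; exact hc b hb' hP
    · subst hb'; rw [hd.symm]; exact hc a ha' (P.symm' hP)
    · exact hH.2 a ha' b hb' hab hP⟩)
  rw [card_insert_of_notMem huH] at this
  omega

omit [DecidableEq V] in
theorem card_le_q (P : Setoid V) (A : Finset V) (f : V → V)
    (h : ∀ u ∈ A, ∀ u' ∈ A, P (f u) (f u') → u = u') : A.card ≤ q P := by
  classical
  have : Fintype (Quotient P) := Fintype.ofFinite _
  rw [q, Nat.card_eq_fintype_card, ← card_univ]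
  exact card_le_card_of_injOn (fun u => Quotient.mk P (f u)) (fun _ _ => mem_univ _)
    fun u hu u' hu' huu => h u hu u' hu' (Quotient.exact huu)

omit [Fintype V] [DecidableEq V] in
theorem var_nonneg (Γ : Finset (V × V)) (f : V → ℝ) : 0 ≤ var Γ f :=
  sum_nonneg fun _ _ => abs_nonneg _

theorem sub_le_var {Γ : Finset (V × V)} (f : V → ℝ) {u v : V}
    (h : gen Prod.fst Prod.snd Γ u v) : f u - f v ≤ var Γ f :=
  (le_abs_self _).trans (abs_sub_le_of_gen Prod.fst Prod.snd Γ f h)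

/-- Few hubs: contract a small ball around every centre to its hub. -/
theorem save_few {d : V → V → ℝ} (hd : IsPM d) {P : Setoid V} {T T' : Finset V}
    {Γ : Finset (V × V)} (hΓ : Valid P T Γ) (hT : T' ⊆ T) {r D : ℝ} (hr : 0 < r) (hD : 0 ≤ D)
    {S H : Finset V} (hST : S ⊆ T) (hsep : ∀ u ∈ S, ∀ u' ∈ S, u ≠ u' → r ≤ d u u')
    (hH : ∀ u ∈ S, ∃ a ∈ H, P u a ∧ d u a < D) :
    ∃ Γ', Valid P T' Γ' ∧ len d Γ' ≤ len d Γ - (S.card - q P) * (r / 2) +
      2 * (H.card * (D + r / 2)) + 2 * (D + r / 2) * T'.card := by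
  classical
  choose! hub hub1 hub2 hub3 using hH
  obtain ⟨Γ', h1, h2⟩ := surgery hd (hΓ.mono hT) S (fun u p => P p u ∧ d p u < r / 2) id hub
    (fun _ => r / 2) (fun v => if v ∈ H then D + r / 2 else 0) (Y := D + r / 2) ∅
    (fun u hu p hp => ⟨hp.2.le, P.trans' hp.1 (hub2 u hu)⟩)
    (fun u hu u' hu' p hp hp' => by
      by_contra hne
      have := hsep u hu u' hu' hne
      linarith [hd.tri u p u', hd.symm u p, hp.2, hp'.2])
    (fun u _ a b hab ha hb => by
      have hP : P a b := by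
        rcases hab with hab | hab
        · exact hΓ.1 _ hab
        · exact P.symm' (hΓ.1 _ hab)
      by_contra hc
      exact hb ⟨P.trans' (P.symm' hP) ha.1, not_le.1 hc⟩)
    (fun u hu u' hu' hne _ _ _ _ _ => by
      have := hsep u hu u' hu' hne
      simp only [id]
      linarith)
    (fun u hu => by
      simp only [id, if_pos (hub1 u hu)]
      linarith [hub3 u hu])
    (fun v => by split_ifs <;> linarith) (fun v => by split_ifs <;> linarith) (by simp)
  refine ⟨Γ', h1, h2.trans ?_⟩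
  set S1 := S.filter fun u => ∃ w ∈ T, P u w ∧ r / 2 ≤ d w u with hS1
  have h3 : (S.filter fun u => ¬ ∃ w ∈ T, P u w ∧ r / 2 ≤ d w u).card ≤ q P := by
    refine card_le_q P _ id fun u hu u' hu' huu => ?_
    rw [mem_filter] at hu hu'
    by_contra hne
    refine hu.2 ⟨u', hST hu'.1, huu, ?_⟩
    have := hsep u' hu'.1 u hu.1 (Ne.symm hne)
    linarith
  have h4 := card_filter_add_card_filter_not (s := S) fun u => ∃ w ∈ T, P u w ∧ r / 2 ≤ d w u
  have h5 : (S.card : ℝ) - q P ≤ S1.card := by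
    rw [← hS1] at h4
    have : S.card ≤ S1.card + q P := by omega
    have : (S.card : ℝ) ≤ S1.card + q P := by exact_mod_cast this
    linarith
  have h6 : S1.card * (r / 2) ≤
      ∑ u ∈ S, var Γ (bump d (fun p => P p u ∧ d p u < r / 2) (id u) (r / 2)) := by
    refine le_trans ?_ (sum_le_sum_of_subset_of_nonneg (filter_subset _ S : S1 ⊆ S)
      fun _ _ _ => var_nonneg _ _)
    rw [← nsmul_eq_mul]
    refine card_nsmul_le_sum _ _ _ fun u hu => ?_
    obtain ⟨hu, w, hw, hP, hdw⟩ := mem_filter.1 hu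
    refine le_trans ?_ (sub_le_var _ (hΓ.2 u (hST hu) w hw hP))
    have e1 : P u u ∧ d u u < r / 2 := ⟨P.refl' u, by rw [hd.self]; linarith⟩
    have e2 : ¬ (P w u ∧ d w u < r / 2) := fun h => absurd h.2 (not_lt.2 hdw)
    simp only [bump, if_pos e1, if_neg e2, id]
    rw [hd.self]
    linarith
  have h7 : ∑ v ∈ univ \ (∅ : Finset V), (if v ∈ H then D + r / 2 else 0) =
      H.card * (D + r / 2) := by
    rw [sdiff_empty, ← sum_filter, filter_mem_eq_inter, univ_inter, sum_const, nsmul_eq_mul]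
  rw [h7]
  nlinarith

end Vale.Agent.P061
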