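import Vale.Agent.P061.SaveA

/-! The saving step: the case of many hubs. -/

namespace Vale.Agent.P061

open Finset Matrix

variable {V : Type} [Fintype V] [DecidableEq V]

open Classical in
/-- Number of pairs leaving the ball of radius `y` around `h` inside the class of `h`. -/
noncomputable def leave (d : V → V → ℝ) (P : Setoid V) (Γ : Finset (V × V)) (h : V) (y : ℝ) : ℕ :=
  (Γ.filter fun p => ¬ ((P p.1 h ∧ d p.1 h < y) ↔ (P p.2 h ∧ d p.2 h < y))).card

theorem var_of_leave {d : V → V → ℝ} (P : Setoid V) (Γ : Finset (V × V)) (h : V) {L R : ℝ}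
    (hLR : L ≤ R) (h2 : ∀ y, L ≤ y → y ≤ R → 2 ≤ leave d P Γ h y) :
    2 * (R - L) ≤ var Γ (bump d (fun p => P p h ∧ d p h < R) h R) := by
  classical
  have := coarea Prod.fst Prod.snd Γ (bump d (fun p => P p h ∧ d p h < R) h R)
    (a := 0) (b := R - L) (by linarith) 2 (fun y hy0 hy => by
      refine (h2 (R - y) (by linarith) (by linarith)).trans (le_of_eq ?_)
      have key : ∀ p, (P p h ∧ d p h < R - y) ↔ y < bump d (fun p => P p h ∧ d p h < R) h R p := by
        intro p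
        unfold bump
        split_ifs with hp
        · exact ⟨fun h' => by linarith [h'.2], fun h' => ⟨hp.1, by linarith⟩⟩
        · exact ⟨fun h' => absurd ⟨h'.1, by linarith [h'.2]⟩ hp, fun h' => by linarith⟩
      unfold leave
      congr 1
      ext p
      simp only [mem_filter, key])
  simpa [var] using this

theorem save_good {d : V → V → ℝ} (hd : IsPM d) {P P' : Setoid V} (hPP : P ≤ P')
    {T T' W : Finset V} {Γ : Finset (V × V)} (hΓ : Valid P' T Γ) (hT : T' ⊆ T)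
    (hW : ∀ p ∈ Γ, P p.1 p.2 ∨ (p.1 ∈ W ∧ p.2 ∈ W)) {L : ℝ} (hL : 0 < L) {H : Finset V}
    (hHT : H ⊆ T) (hsep : ∀ a ∈ H, ∀ b ∈ H, a ≠ b → P' a b → 8 * L ≤ d a b) (m : V → V)
    (hm : ∀ a ∈ H, m a ∈ T ∧ P' a (m a) ∧ ¬ P a (m a) ∧ d a (m a) ≤ L)
    (hfar : ∀ a ∈ H, ∀ z, z ∈ T' ∨ z ∈ W → P' z a → 4 * L ≤ d z a)
    (hA : ∀ a ∈ H, ∃ w ∈ T, P a w ∧ 4 * L ≤ d w a)
    (hB : ∀ a ∈ H, ∃ w ∈ T, P (m a) w ∧ 4 * L ≤ d w a) :
    ∃ Γ', Valid P' T' Γ' ∧ len d Γ' ≤ len d Γ - L * H.card + 8 * L * T'.card := by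
  classical
  have hrad : ∀ a, ∃ y, L ≤ y ∧ y ≤ 4 * L ∧ (leave d P Γ a y ≤ 1 ∨
      (y = 4 * L ∧ ∀ y', L ≤ y' → y' ≤ 4 * L → 2 ≤ leave d P Γ a y')) := by
    intro a
    by_cases hc : ∃ y, L ≤ y ∧ y ≤ 4 * L ∧ leave d P Γ a y ≤ 1
    · obtain ⟨y, h1, h2, h3⟩ := hc
      exact ⟨y, h1, h2, Or.inl h3⟩
    · push Not at hc
      exact ⟨4 * L, by linarith, le_rfl, Or.inr ⟨rfl, fun y' h1 h2 => hc y' h1 h2⟩⟩
  choose rad hr1 hr2 hr3 using hrad
  set H0 := H.filter fun a => leave d P Γ a (rad a) ≤ 1 with hH0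
  set H2 := H.filter fun a => ¬ leave d P Γ a (rad a) ≤ 1 with hH2
  let c : V ⊕ V → V := Sum.elim id id
  let b : V ⊕ V → V := Sum.elim id m
  let U : V ⊕ V → V → Prop := fun i p => P p (b i) ∧ d p (c i) < rad (c i)
  have hc : ∀ i ∈ H.disjSum H2, c i ∈ H := by
    rintro (a | a) hi
    · exact inl_mem_disjSum.1 hi
    · exact (mem_filter.1 (inr_mem_disjSum.1 hi)).1
  have hb : ∀ i ∈ H.disjSum H2, P' (b i) (c i) := by
    rintro (a | a) hi
    · exact P'.refl' _
    · exact P'.symm' (hm a (hc _ hi)).2.1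
  have hUP : ∀ i ∈ H.disjSum H2, ∀ p, U i p → P' p (c i) := fun i hi p hp =>
    P'.trans' (hPP hp.1) (hb i hi)
  have hside : ∀ i ∈ H.disjSum H2, ∀ i' ∈ H.disjSum H2, c i = c i' → P (b i) (b i') → i = i' := by
    rintro (a | a) hi (a' | a') hi' h1 h2
    · exact congrArg _ h1
    · obtain rfl : a = a' := h1
      exact absurd h2 (hm a (hc _ hi)).2.2.1
    · obtain rfl : a = a' := h1
      exact absurd (P.symm' h2) (hm a (hc _ hi)).2.2.1
    · exact congrArg _ h1
  have hedge : ∀ i ∈ H.disjSum H2, ∀ x z, ((x, z) ∈ Γ ∨ (z, x) ∈ Γ) → U i x → P x z := by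
    intro i hi x z hxz hx
    have hx' : x ∉ W := fun h => by
      have := hfar _ (hc i hi) x (Or.inr h) (hUP i hi x hx)
      linarith [hx.2, hr2 (c i)]
    rcases hxz with h | h
    · exact (hW _ h).resolve_right fun h' => hx' h'.1
    · exact P.symm' ((hW _ h).resolve_right fun h' => hx' h'.2)
  obtain ⟨Γ', h1, h2⟩ := surgery hd (hΓ.mono hT) (H.disjSum H2) U c c (fun i => rad (c i))
    (fun v => if v ∈ H then 4 * L else 0) (Y := 4 * L) H0
    (fun i hi p hp => ⟨hp.2.le, hUP i hi p hp⟩)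
    (fun i hi i' hi' p hp hp' => by
      refine hside i hi i' hi' ?_ (P.trans' (P.symm' hp.1) hp'.1)
      by_contra hne
      have := hsep _ (hc i hi) _ (hc i' hi') hne
        (P'.trans' (P'.symm' (hUP i hi p hp)) (hUP i' hi' p hp'))
      linarith [hd.tri (c i) p (c i'), hd.symm (c i) p, hp.2, hp'.2, hr2 (c i), hr2 (c i')])
    (fun i hi x z hxz hx hz => by
      by_contra hlt
      exact hz ⟨P.trans' (P.symm' (hedge i hi x z hxz hx)) hx.1, not_le.1 hlt⟩)
    (fun i hi i' hi' hne x z hxz hx hz => by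
      have hP := hedge i hi x z (Or.inl hxz) hx
      have hcc : c i ≠ c i' := fun h =>
        hne (hside i hi i' hi' h (P.trans' (P.symm' hx.1) (P.trans' hP hz.1)))
      have := hsep _ (hc i hi) _ (hc i' hi') hcc
        (P'.trans' (P'.symm' (hUP i hi x hx)) (P'.trans' (hPP hP) (hUP i' hi' z hz)))
      linarith [hr2 (c i), hr2 (c i')])
    (fun i hi => by
      simp only [if_pos (hc i hi), hd.self]
      linarith [hr2 (c i)])
    (fun v => by split_ifs <;> linarith) (fun v => by split_ifs <;> linarith)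
    (fun v hv => by
      obtain ⟨hvH, hv1⟩ := mem_filter.1 hv
      refine ⟨Sum.inl v, inl_mem_disjSum.2 hvH, ⟨P.refl' _, ?_⟩, rfl, ?_, ?_, ?_⟩
      · change d v v < rad v
        rw [hd.self]
        linarith [hr1 v]
      · rintro (a | a) hi ha
        · exact congrArg _ ha
        · obtain rfl : a = v := ha
          exact absurd hv1 (mem_filter.1 (inr_mem_disjSum.1 hi)).2
      · intro u hu hU
        have := hfar v hvH u (Or.inl hu) (hPP hU.1)
        have h3 : d u v < rad v := hU.2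
        linarith [hr2 v]
      · refine le_trans (le_of_eq ?_) hv1
        unfold leave
        congr 1
        exact filter_congr_decidable _ _ _)
  refine ⟨Γ', h1, h2.trans ?_⟩
  have h3 : ∑ v ∈ univ \ H0, (if v ∈ H then 4 * L else 0) = H2.card * (4 * L) := by
    rw [← sum_filter, sum_const, nsmul_eq_mul]
    congr 2
    congr 1
    ext v
    simp only [mem_filter, mem_sdiff, mem_univ, true_and, hH0, hH2]
    tauto
  have h4 : (H0.card : ℝ) + H2.card = H.card := by
    exact_mod_cast card_filter_add_card_filter_not (s := H) fun a => leave d P Γ a (rad a) ≤ 1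
  have h5 : H0.card * L ≤ ∑ a ∈ H0, var Γ (bump d (U (Sum.inl a)) a (rad a)) := by
    rw [← nsmul_eq_mul]
    refine card_nsmul_le_sum _ _ _ fun a ha => ?_
    have ha := (mem_filter.1 ha).1
    obtain ⟨w, hw, hP, hdw⟩ := hA a ha
    refine le_trans ?_ (sub_le_var _ (hΓ.2 a (hHT ha) w hw (hPP hP)))
    have e1 : U (Sum.inl a) a := ⟨P.refl' a, by
      change d a a < rad a
      rw [hd.self]; linarith [hr1 a]⟩
    have e2 : ¬ U (Sum.inl a) w := fun h => by
      have : d w a < rad a := h.2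
      linarith [hr2 a]
    simp only [bump, if_pos e1, if_neg e2]
    rw [hd.self]
    linarith [hr1 a]
  have h6 : H2.card * (6 * L) ≤ ∑ a ∈ H2, var Γ (bump d (U (Sum.inl a)) a (rad a)) := by
    rw [← nsmul_eq_mul]
    refine card_nsmul_le_sum _ _ _ fun a ha => ?_
    obtain ⟨e1, e2⟩ := (hr3 a).resolve_left (mem_filter.1 ha).2
    have := var_of_leave P Γ a (by linarith) e2
    have e3 : U (Sum.inl a) = fun p => P p a ∧ d p a < 4 * L := by
      rw [← e1]; rfl
    rw [e3, e1]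
    linarith
  have h7 : H2.card * (3 * L) ≤ ∑ a ∈ H2, var Γ (bump d (U (Sum.inr a)) a (rad a)) := by
    rw [← nsmul_eq_mul]
    refine card_nsmul_le_sum _ _ _ fun a ha => ?_
    obtain ⟨e0, -⟩ := (hr3 a).resolve_left (mem_filter.1 ha).2
    have ha := (mem_filter.1 ha).1
    obtain ⟨w, hw, hP, hdw⟩ := hB a ha
    obtain ⟨m1, -, -, m4⟩ := hm a ha
    refine le_trans ?_ (sub_le_var _ (hΓ.2 (m a) m1 w hw (hPP hP)))
    have e1 : U (Sum.inr a) (m a) := ⟨P.refl' _, by
      change d (m a) a < rad a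
      rw [hd.symm]; linarith⟩
    have e2 : ¬ U (Sum.inr a) w := fun h => by
      have : d w a < rad a := h.2
      linarith
    simp only [bump, if_pos e1, if_neg e2]
    rw [hd.symm]
    linarith
  have h8 : ∑ a ∈ H0, var Γ (bump d (U (Sum.inl a)) a (rad a)) +
      ∑ a ∈ H2, var Γ (bump d (U (Sum.inl a)) a (rad a)) =
      ∑ a ∈ H, var Γ (bump d (U (Sum.inl a)) a (rad a)) :=
    sum_filter_add_sum_filter_not H _ _
  rw [sum_disjSum, h3]
  simp only [c, Sum.elim_inl, Sum.elim_inr, id]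
  nlinarith

theorem save_many {d : V → V → ℝ} (hd : IsPM d) {P P' : Setoid V} (hPP : P ≤ P')
    {T T' W : Finset V} {Γ : Finset (V × V)} (hΓ : Valid P' T Γ) (hT : T' ⊆ T)
    (hW : ∀ p ∈ Γ, P p.1 p.2 ∨ (p.1 ∈ W ∧ p.2 ∈ W)) {L : ℝ} (hL : 0 < L) {H : Finset V}
    (hHT : H ⊆ T) (hsep : ∀ a ∈ H, ∀ b ∈ H, a ≠ b → P' a b → 8 * L ≤ d a b) (m : V → V)
    (hm : ∀ a ∈ H, m a ∈ T ∧ P' a (m a) ∧ ¬ P a (m a) ∧ d a (m a) ≤ L) :
    ∃ Γ', Valid P' T' Γ' ∧ len d Γ' ≤
      len d Γ - L * (H.card - T'.card - W.card - 2 * q P) + 8 * L * T'.card := by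
  classical
  set B1 := H.filter fun a => ∃ z, (z ∈ T' ∨ z ∈ W) ∧ P' z a ∧ d z a < 4 * L with hB1
  set B2 := H.filter fun a => ∀ w ∈ T, P a w → d w a < 4 * L with hB2
  set B3 := H.filter fun a => ∀ w ∈ T, P (m a) w → d w a < 4 * L with hB3
  have c1 : B1.card ≤ T'.card + W.card := by
    refine le_trans ?_ (card_union_le T' W)
    have : ∀ a ∈ B1, ∃ z, (z ∈ T' ∨ z ∈ W) ∧ P' z a ∧ d z a < 4 * L :=
      fun a ha => (mem_filter.1 ha).2
    choose! z hz1 hz2 hz3 using this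
    refine card_le_card_of_injOn z (fun a ha => mem_coe.2 (mem_union.2 (hz1 a ha)))
      fun a ha a' ha' h => ?_
    by_contra hne
    have h1 := hz2 a' ha'
    have h2 := hz3 a' ha'
    rw [← h] at h1 h2
    have := hsep a (mem_filter.1 ha).1 a' (mem_filter.1 ha').1 hne
      (P'.trans' (P'.symm' (hz2 a ha)) h1)
    linarith [hd.tri a (z a) a', hd.symm a (z a), hz3 a ha]
  have c2 : B2.card ≤ q P := by
    refine card_le_q P _ id fun a ha a' ha' h => ?_
    rw [mem_filter] at ha ha'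
    by_contra hne
    have h1 := hsep a ha.1 a' ha'.1 hne (hPP h)
    have h2 := ha.2 a' (hHT ha'.1) h
    linarith [hd.symm a a']
  have c3 : B3.card ≤ q P := by
    refine card_le_q P _ m fun a ha a' ha' h => ?_
    rw [mem_filter] at ha ha'
    by_contra hne
    have h1 := hsep a ha.1 a' ha'.1 hne
      (P'.trans' (hm a ha.1).2.1 (P'.trans' (hPP h) (P'.symm' (hm a' ha'.1).2.1)))
    have h2 := ha.2 (m a') (hm a' ha'.1).1 h
    linarith [hd.tri a' (m a') a, hd.symm a a', (hm a' ha'.1).2.2.2]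
  set G := H \ (B1 ∪ B2 ∪ B3) with hG
  have hGH : G ⊆ H := sdiff_subset
  have hGn : ∀ a ∈ G, a ∉ B1 ∧ a ∉ B2 ∧ a ∉ B3 := fun a ha => by
    have := (mem_sdiff.1 ha).2
    simp only [mem_union, not_or] at this
    exact ⟨this.1.1, this.1.2, this.2⟩
  have c4 : H.card ≤ G.card + (T'.card + W.card + 2 * q P) := by
    have e1 := le_card_sdiff (B1 ∪ B2 ∪ B3) H
    have e2 := card_union_le (B1 ∪ B2) B3
    have e3 := card_union_le B1 B2
    rw [← hG] at e1
    omega
  obtain ⟨Γ', h1, h2⟩ := save_good hd hPP hΓ hT hW hL (hGH.trans hHT)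
    (fun a ha b hb => hsep a (hGH ha) b (hGH hb)) m (fun a ha => hm a (hGH ha))
    (fun a ha z hz hP => by
      by_contra hc
      exact (hGn a ha).1 (mem_filter.2 ⟨hGH ha, z, hz, hP, not_le.1 hc⟩))
    (fun a ha => by
      by_contra hc
      push Not at hc
      exact (hGn a ha).2.1 (mem_filter.2 ⟨hGH ha, hc⟩))
    (fun a ha => by
      by_contra hc
      push Not at hc
      exact (hGn a ha).2.2 (mem_filter.2 ⟨hGH ha, hc⟩))
  refine ⟨Γ', h1, h2.trans ?_⟩
  have c5 : (H.card : ℝ) ≤ G.card + (T'.card + W.card + 2 * q P) := by exact_mod_cast c4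
  nlinarith

end Vale.Agent.P061
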