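import Vale.Agent.P061.Prune

/-! Surgery on Steiner forests: contracting bumps to hubs. -/

namespace Vale.Agent.P061

open Finset Matrix

variable {V : Type} [Fintype V] [DecidableEq V]

omit [Fintype V] in
theorem len_union_le {d : V → V → ℝ} (hd : IsPM d) (A B : Finset (V × V)) :
    len d (A ∪ B) ≤ len d A + len d B := by
  unfold len
  have h := sum_union_inter (s₁ := A) (s₂ := B) (f := fun p : V × V => d p.1 p.2)
  have h2 : 0 ≤ ∑ p ∈ A ∩ B, d p.1 p.2 := sum_nonneg fun _ _ => hd.nonneg _ _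
  linarith

omit [Fintype V] in
theorem len_image_le {α : Type} {d : V → V → ℝ} (hd : IsPM d) (A : Finset α) (f : α → V × V) :
    len d (A.image f) ≤ ∑ a ∈ A, d (f a).1 (f a).2 := by
  unfold len
  exact sum_image_le_of_nonneg fun _ _ => hd.nonneg _ _

theorem sum_ends_eq {α : Type} (s t : α → V) (B : Finset α) (y : V → ℝ) :
    ∑ e ∈ B, (y (s e) + y (t e)) = ∑ v, y v * deg s t B v := by
  simp only [deg, Nat.cast_add, mul_add, sum_add_distrib, card_filter, Nat.cast_sum, mul_sum]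
  congr 1
  · rw [sum_comm]
    refine sum_congr rfl fun e _ => ?_
    simp
  · rw [sum_comm]
    refine sum_congr rfl fun e _ => ?_
    simp

theorem surgery_abs {d : V → V → ℝ} (hd : IsPM d) {P : Setoid V} {T : Finset V}
    {Γ : Finset (V × V)} (hΓ : Valid P T Γ) (φ : V → V) (hφ : ∀ p, P p (φ p))
    (G : V × V → ℝ) (hG : ∀ p ∈ Γ, G p ≤ d p.1 p.2) (y : V → ℝ) {Y : ℝ} (hy0 : ∀ v, 0 ≤ y v)
    (hyY : ∀ v, y v ≤ Y)
    (hnew : ∀ p ∈ Γ, φ p.1 ≠ φ p.2 →
      d (φ p.1) (φ p.2) ≤ d p.1 p.2 - G p + (y (φ p.1) + y (φ p.2)))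
    (hT : ∀ u ∈ T, d u (φ u) ≤ Y) (H0 : Finset V)
    (hH0 : ∀ v ∈ H0, (∀ u ∈ T, φ u ≠ v) ∧
      (Γ.filter fun p => ¬ (φ p.1 = v ↔ φ p.2 = v)).card ≤ 1) :
    ∃ Γ', Valid P T Γ' ∧
      len d Γ' ≤ len d Γ - ∑ p ∈ Γ, G p + 2 * ∑ v ∈ univ \ H0, y v + 2 * Y * T.card := by
  obtain ⟨B, hBΓ, hconn, hloop, hdeg1, hdeg⟩ :=
    prune (fun p : V × V => φ p.1) (fun p => φ p.2) Γ (T.image φ)
  refine ⟨B.image (fun p => (φ p.1, φ p.2)) ∪ T.image (fun u => (u, φ u)), ⟨?_, ?_⟩, ?_⟩
  · intro p hp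
    rcases mem_union.1 hp with hp | hp
    · obtain ⟨a, ha, rfl⟩ := mem_image.1 hp
      exact P.trans' (P.symm' (hφ _)) (P.trans' (hΓ.1 a (hBΓ ha)) (hφ _))
    · obtain ⟨a, _, rfl⟩ := mem_image.1 hp
      exact hφ a
  · intro u hu v hv huv
    set Γ' := B.image (fun p => (φ p.1, φ p.2)) ∪ T.image (fun u => (u, φ u)) with hΓ'
    have h1 : gen Prod.fst Prod.snd Γ ≤
        Setoid.comap φ (gen (fun p : V × V => φ p.1) (fun p => φ p.2) Γ) :=
      gen_le_iff.2 fun e he =>
        gen_rel (s := fun p : V × V => φ p.1) (t := fun p => φ p.2) he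
    have h2 := hconn _ (mem_image_of_mem φ hu) _ (mem_image_of_mem φ hv) (h1 (hΓ.2 u hu v hv huv))
    have h3 : gen (fun p : V × V => φ p.1) (fun p => φ p.2) B ≤ gen Prod.fst Prod.snd Γ' :=
      gen_le_iff.2 fun e he =>
        gen_rel (s := Prod.fst) (t := Prod.snd) (e := (φ e.1, φ e.2))
          (mem_union_left _ (mem_image_of_mem _ he))
    have h4 : ∀ w ∈ T, gen Prod.fst Prod.snd Γ' w (φ w) := fun w hw =>
      gen_rel (s := Prod.fst) (t := Prod.snd) (e := (w, φ w))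
        (mem_union_right _ (mem_image_of_mem _ hw))
    exact Setoid.trans' _ (h4 u hu) (Setoid.trans' _ (h3 h2) (Setoid.symm' _ (h4 v hv)))
  · have e1 := len_union_le hd (B.image (fun p => (φ p.1, φ p.2))) (T.image (fun u => (u, φ u)))
    have e2 := len_image_le hd B (fun p => (φ p.1, φ p.2))
    have e3 := len_image_le hd T (fun u => (u, φ u))
    have e4 : ∑ u ∈ T, d u (φ u) ≤ Y * T.card := by
      have := sum_le_card_nsmul T _ Y hT
      rw [nsmul_eq_mul] at this
      linarith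
    have e5 : ∑ p ∈ B, d (φ p.1) (φ p.2) ≤
        ∑ p ∈ B, (d p.1 p.2 - G p) + ∑ p ∈ B, (y (φ p.1) + y (φ p.2)) := by
      rw [← sum_add_distrib]
      exact sum_le_sum fun p hp => hnew p (hBΓ hp) (hloop p hp)
    have e6 : ∑ p ∈ B, (d p.1 p.2 - G p) ≤ len d Γ - ∑ p ∈ Γ, G p := by
      rw [len, ← sum_sub_distrib]
      exact sum_le_sum_of_subset_of_nonneg hBΓ fun p hp _ => sub_nonneg.2 (hG p hp)
    rw [sum_ends_eq (fun p : V × V => φ p.1) (fun p => φ p.2) B y] at e5
    set D := deg (fun p : V × V => φ p.1) (fun p => φ p.2) B with hD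
    have e7 : ∀ v ∈ H0, D v = 0 := by
      intro v hv
      obtain ⟨h1, h2⟩ := hH0 v hv
      have h3 : D v ≠ 1 := hdeg1 v fun hv' => by
        obtain ⟨u, hu, hu'⟩ := mem_image.1 hv'
        exact h1 u hu hu'
      have h4 : D v ≤ 1 := by
        refine le_trans ?_ h2
        rw [hD, deg, ← card_union_of_disjoint]
        · refine card_le_card fun p hp => ?_
          have hl := hloop p
          simp only [mem_union, mem_filter] at hp ⊢
          rcases hp with ⟨hp, h5⟩ | ⟨hp, h5⟩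
          · exact ⟨hBΓ hp, fun h6 => hl hp (h5.trans (h6.1 h5).symm)⟩
          · exact ⟨hBΓ hp, fun h6 => hl hp ((h6.2 h5).trans h5.symm)⟩
        · rw [disjoint_left]
          intro p hp hp'
          rw [mem_filter] at hp hp'
          exact hloop p hp.1 (hp.2.trans hp'.2.symm)
      omega
    have e8 : ∑ v, y v * D v ≤ 2 * ∑ v ∈ univ \ H0, y v + Y * T.card := by
      have h1 : ∑ v, y v * D v = ∑ v ∈ univ \ H0, y v * D v := by
        refine (sum_subset (subset_univ _) fun v _ hv => ?_).symm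
        have : v ∈ H0 := by simpa using hv
        simp [e7 v this]
      have h2 : ∀ v, y v * D v ≤ 2 * y v + Y * ((D v - 2 : ℕ) : ℝ) := by
        intro v
        have h3 : (D v : ℝ) ≤ 2 + ((D v - 2 : ℕ) : ℝ) := by
          have : D v ≤ 2 + (D v - 2) := by omega
          exact_mod_cast this
        have h4 : (0 : ℝ) ≤ ((D v - 2 : ℕ) : ℝ) := Nat.cast_nonneg _
        nlinarith [hy0 v, hyY v]
      have h3 : ∑ v ∈ univ \ H0, Y * ((D v - 2 : ℕ) : ℝ) ≤ Y * T.card := by
        rcases isEmpty_or_nonempty V with hV | ⟨⟨v0⟩⟩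
        · simp [Finset.eq_empty_of_isEmpty T]
        have hY : 0 ≤ Y := (hy0 v0).trans (hyY v0)
        rw [← mul_sum]
        refine mul_le_mul_of_nonneg_left ?_ hY
        have h5 : ∑ v ∈ univ \ H0, (D v - 2) ≤ T.card :=
          (sum_le_sum_of_subset (subset_univ _)).trans (hdeg.trans card_image_le)
        exact_mod_cast h5
      rw [h1, mul_sum]
      refine le_trans (sum_le_sum fun v _ => h2 v) ?_
      rw [sum_add_distrib]
      linarith
    simp only at e2 e3
    linarith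

open Classical in
/-- The bump function of a region `U` with centre `c` and radius `ρ`. -/
noncomputable def bump (d : V → V → ℝ) (U : V → Prop) (c : V) (ρ : ℝ) (p : V) : ℝ :=
  if U p then ρ - d p c else 0

/-- Variation of a function along a set of pairs. -/
def var (Γ : Finset (V × V)) (f : V → ℝ) : ℝ := ∑ p ∈ Γ, |f p.1 - f p.2|

open Classical in
theorem surgery {ι : Type} {d : V → V → ℝ} (hd : IsPM d) {P : Setoid V} {T : Finset V}
    {Γ : Finset (V × V)} (hΓ : Valid P T Γ) (J : Finset ι) (U : ι → V → Prop) (c h : ι → V)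
    (ρ : ι → ℝ) (y : V → ℝ) {Y : ℝ} (H0 : Finset V)
    (hU : ∀ i ∈ J, ∀ p, U i p → d p (c i) ≤ ρ i ∧ P p (h i))
    (hdis : ∀ i ∈ J, ∀ i' ∈ J, ∀ p, U i p → U i' p → i = i')
    (hout : ∀ i ∈ J, ∀ a b, ((a, b) ∈ Γ ∨ (b, a) ∈ Γ) → U i a → ¬ U i b → ρ i ≤ d b (c i))
    (hsep : ∀ i ∈ J, ∀ i' ∈ J, i ≠ i' → ∀ a b, (a, b) ∈ Γ → U i a → U i' b →
      ρ i + ρ i' ≤ d (c i) (c i'))
    (hy : ∀ i ∈ J, d (c i) (h i) + ρ i ≤ y (h i)) (hy0 : ∀ v, 0 ≤ y v) (hyY : ∀ v, y v ≤ Y)
    (hH0 : ∀ v ∈ H0, ∃ i ∈ J, U i v ∧ h i = v ∧ (∀ i' ∈ J, h i' = v → i' = i) ∧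
      (∀ u ∈ T, ¬ U i u) ∧ (Γ.filter fun p => ¬ (U i p.1 ↔ U i p.2)).card ≤ 1) :
    ∃ Γ', Valid P T Γ' ∧
      len d Γ' ≤ len d Γ - ∑ i ∈ J, var Γ (bump d (U i) (c i) (ρ i)) +
        2 * ∑ v ∈ univ \ H0, y v + 2 * Y * T.card := by
  let φ : V → V := fun p => if hp : ∃ i ∈ J, U i p then h hp.choose else p
  have hφ1 : ∀ i ∈ J, ∀ p, U i p → φ p = h i := by
    intro i hi p hp
    have hex : ∃ i ∈ J, U i p := ⟨i, hi, hp⟩
    simp only [φ, dif_pos hex]
    rw [hdis _ hex.choose_spec.1 i hi p hex.choose_spec.2 hp]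
  have hφ2 : ∀ p, (¬ ∃ i ∈ J, U i p) → φ p = p := fun p hp => by simp only [φ, dif_neg hp]
  let f : ι → V → ℝ := fun i => bump d (U i) (c i) (ρ i)
  have hf1 : ∀ i p, U i p → f i p = ρ i - d p (c i) := fun i p hp => by simp [f, bump, hp]
  have hf2 : ∀ i p, ¬ U i p → f i p = 0 := fun i p hp => by simp [f, bump, hp]
  have hf0 : ∀ i ∈ J, ∀ p, 0 ≤ f i p := by
    intro i hi p
    by_cases hp : U i p
    · rw [hf1 i p hp]; linarith [(hU i hi p hp).1]
    · rw [hf2 i p hp]
  let g : V → ℝ := fun p => ∑ i ∈ J, f i p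
  have hg1 : ∀ i ∈ J, ∀ p, U i p → g p = ρ i - d p (c i) := by
    intro i hi p hp
    rw [← hf1 i p hp]
    exact sum_eq_single_of_mem i hi fun i' hi' hne => hf2 _ _ fun hp' => hne (hdis _ hi' _ hi p hp' hp)
  have hg2 : ∀ p, (¬ ∃ i ∈ J, U i p) → g p = 0 := fun p hp =>
    sum_eq_zero fun i hi => hf2 _ _ fun hp' => hp ⟨i, hi, hp'⟩
  let G : V × V → ℝ := fun p => ∑ i ∈ J, |f i p.1 - f i p.2|
  have hGg : ∀ p, G p ≤ g p.1 + g p.2 := by
    intro p
    rw [← sum_add_distrib]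
    refine sum_le_sum fun i hi => abs_le.2 ⟨?_, ?_⟩ <;> linarith [hf0 i hi p.1, hf0 i hi p.2]
  have hmove : ∀ p, d p (φ p) ≤ y (φ p) - g p := by
    intro p
    by_cases hp : ∃ i ∈ J, U i p
    · obtain ⟨i, hi, hp⟩ := hp
      rw [hφ1 i hi p hp, hg1 i hi p hp]
      linarith [hd.tri p (c i) (h i), hy i hi]
    · rw [hφ2 p hp, hg2 p hp, hd.self]
      linarith [hy0 p]
  have hg0 : ∀ p, 0 ≤ g p := fun p => sum_nonneg fun i hi => hf0 i hi p
  obtain ⟨Γ', h1, h2⟩ := surgery_abs hd hΓ φ (fun p => by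
      by_cases hp : ∃ i ∈ J, U i p
      · obtain ⟨i, hi, hp⟩ := hp
        rw [hφ1 i hi p hp]
        exact (hU i hi p hp).2
      · rw [hφ2 p hp]) G (fun p hp => by
      obtain ⟨a, b⟩ := p
      by_cases ha : ∃ i ∈ J, U i a
      · obtain ⟨i, hi, ha⟩ := ha
        by_cases hb : ∃ i ∈ J, U i b
        · obtain ⟨i', hi', hb⟩ := hb
          by_cases hii : i = i'
          · subst hii
            have : G (a, b) = |f i a - f i b| :=
              sum_eq_single_of_mem i hi fun i' hi' hne => by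
                rw [hf2 _ _ fun hp' => hne (hdis _ hi' _ hi a hp' ha),
                  hf2 _ _ fun hp' => hne (hdis _ hi' _ hi b hp' hb)]
                simp
            rw [this, hf1 i a ha, hf1 i b hb]
            refine abs_le.2 ⟨?_, ?_⟩ <;>
              linarith [hd.tri a b (c i), hd.tri b a (c i), hd.symm a b]
          · refine (hGg _).trans ?_
            have := hsep i hi i' hi' hii a b hp ha hb
            simp only
            rw [hg1 i hi a ha, hg1 i' hi' b hb]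
            linarith [hd.tri (c i) a (c i'), hd.tri a b (c i'), hd.symm a (c i)]
        · refine (hGg _).trans ?_
          have := hout i hi a b (Or.inl hp) ha fun hb' => hb ⟨i, hi, hb'⟩
          simp only
          rw [hg1 i hi a ha, hg2 b hb]
          linarith [hd.tri b a (c i), hd.symm a b]
      · by_cases hb : ∃ i ∈ J, U i b
        · obtain ⟨i, hi, hb⟩ := hb
          refine (hGg _).trans ?_
          have := hout i hi b a (Or.inr hp) hb fun ha' => ha ⟨i, hi, ha'⟩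
          simp only
          rw [hg1 i hi b hb, hg2 a ha]
          linarith [hd.tri a b (c i)]
        · refine (hGg _).trans ?_
          simp only
          rw [hg2 a ha, hg2 b hb]
          linarith [hd.nonneg a b]) y hy0 hyY (fun p _ _ => by
      linarith [hd.tri (φ p.1) p.1 (φ p.2), hd.tri p.1 p.2 (φ p.2), hd.symm (φ p.1) p.1,
        hmove p.1, hmove p.2, hGg p]) (fun u _ => by
      linarith [hmove u, hg0 u, hyY (φ u)]) H0 (fun v hv => by
      obtain ⟨i, hi, h1, h2, h3, h4, h5⟩ := hH0 v hv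
      have key : ∀ p, φ p = v ↔ U i p := by
        intro p
        constructor
        · intro hp
          by_cases hp' : ∃ i ∈ J, U i p
          · obtain ⟨i', hi', hp'⟩ := hp'
            rw [hφ1 i' hi' p hp'] at hp
            rwa [← h3 i' hi' hp]
          · rw [hφ2 p hp'] at hp
            rwa [hp]
        · intro hp
          rw [hφ1 i hi p hp, h2]
      refine ⟨fun u hu hu' => h4 u hu ((key u).1 hu'), ?_⟩
      simp only [key]
      exact h5)
  refine ⟨Γ', h1, ?_⟩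
  have : ∑ i ∈ J, var Γ (bump d (U i) (c i) (ρ i)) = ∑ p ∈ Γ, G p := by
    simp only [var, G, f]
    exact sum_comm
  rw [this]
  exact h2

end Vale.Agent.P061
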